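import Vale.Agent.P329.Core
import Mathlib.GroupTheory.SpecificGroups.Alternating
import Mathlib.Data.ZMod.Basic
import Mathlib.Algebra.BigOperators.Ring.Finset
import Mathlib.Algebra.Group.Fin.Basic

open Computability

namespace Vale.Agent.P329

universe u v

variable {α : Type u}

section aff

variable {R : Type v} [CommRing R]

/-- The affine letter action `p ↦ lam b * p + c b`. -/
def affStep (lam c : α → R) (p : R) (b : α) : R := lam b * p + c b

/-- The linear part of a word. -/
def Lam (lam : α → R) (x : List α) : R := run (fun t b => lam b * t) 1 x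

/-- The translation part of a word. -/
def Cc (lam c : α → R) (x : List α) : R := run (affStep lam c) 0 x

@[simp] theorem Lam_nil (lam : α → R) : Lam lam [] = 1 := rfl
@[simp] theorem Cc_nil (lam c : α → R) : Cc lam c [] = 0 := rfl
theorem Lam_snoc (lam : α → R) (x : List α) (b : α) : Lam lam (x ++ [b]) = lam b * Lam lam x :=
  run_snoc _ _ _ _
theorem Cc_snoc (lam c : α → R) (x : List α) (b : α) :
    Cc lam c (x ++ [b]) = lam b * Cc lam c x + c b :=
  run_snoc _ _ _ _

theorem run_aff (lam c : α → R) (p : R) (x : List α) :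
    run (affStep lam c) p x = Lam lam x * p + Cc lam c x := by
  induction x using List.reverseRecOn with
  | nil => simp
  | append_singleton x b ih =>
    rw [run_snoc, ih, Lam_snoc, Cc_snoc]
    simp only [affStep]
    ring

theorem Cc_zero (lam : α → R) (x : List α) : Cc lam (fun _ => 0) x = 0 := by
  induction x using List.reverseRecOn with
  | nil => rfl
  | append_singleton x b ih => rw [Cc_snoc, ih]; simp

theorem run_one_zero (lam : α → R) (x : List α) : run (affStep lam (fun _ => 0)) 1 x = Lam lam x := by
  rw [run_aff, Cc_zero]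
  simp

/-- The indicator of the letter `a`. -/
def mark [DecidableEq α] (a b : α) : R := if b = a then 1 else 0

theorem Cc_split [Fintype α] [DecidableEq α] (lam c : α → R) (x : List α) :
    Cc lam c x = ∑ a, c a * Cc lam (mark a) x := by
  induction x using List.reverseRecOn with
  | nil => simp
  | append_singleton x b ih =>
    rw [Cc_snoc, ih]
    simp only [Cc_snoc, mul_add, Finset.sum_add_distrib, Finset.mul_sum]
    congr 1
    · refine Finset.sum_congr rfl fun a _ => ?_
      ring
    · simp [mark]

variable [Finite R] [DecidableEq R]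

theorem aff_obs [Finite α] (h01 : (0 : R) ≠ 1) (lam c : α → R) (hc : ∀ b, c b = 0 ∨ c b = 1)
    (hloc : LocalOn (affStep lam c) {s | s ≠ 0 ∧ s ≠ 1}) (p : R) :
    Obs 1 (run (affStep lam c) p) := by
  have hU : ({s | s ≠ (1 : R)} : Set R) = {s | s ≠ 0 ∧ s ≠ 1} ∪ {0} := by
    ext s
    by_cases hs : s = 0
    · subst hs
      simp [h01]
    · simp [hs]
  have hSF : ∀ p q, p ≠ (1 : R) →
      GenStarHeightLE (path (affStep lam c) {s | s ≠ (1 : R)} p q) 0 := by
    intro p q hp
    rw [hU]
    have hp' : p ∈ ({s | s ≠ 0 ∧ s ≠ 1} ∪ {0} : Set R) := by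
      rw [← hU]
      exact hp
    refine sf_path_two ?_ (fun p q hp => sf_path_local hloc p q hp) (fun p q hp => ?_) p q hp'
    · rintro s hs b hb
      have hs' : s = 0 := hs
      subst hs'
      have h0 : affStep lam c 0 b = c b := by simp [affStep]
      rw [h0] at hb ⊢
      rcases hc b with h1 | h1
      · exact h1
      · rw [← hU] at hb
        rw [h1] at hb
        exact absurd rfl hb
    · refine sf_path_local ?_ p q hp
      intro b
      right
      rintro s hs s' hs' - -
      have h1 : s = 0 := hs
      have h2 : s' = 0 := hs'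
      rw [h1, h2]
  exact hub_obs_run hSF p

/-- Linear and translation parts are observable from the runs at `0` and `1`. -/
theorem affine_obs [Finite α] (h01 : (0 : R) ≠ 1) (lam c : α → R) (hc : ∀ b, c b = 0 ∨ c b = 1)
    (hloc : LocalOn (affStep lam c) {s | s ≠ 0 ∧ s ≠ 1}) :
    Obs 1 (fun x => (Lam lam x, Cc lam c x)) := by
  refine ((aff_obs h01 lam c hc hloc 0).prod (aff_obs h01 lam c hc hloc 1)).of_determines ?_
  intro x y hxy
  have h1 := (Prod.ext_iff.1 hxy).1
  have h2 := (Prod.ext_iff.1 hxy).2
  simp only [run_aff, mul_zero, zero_add, mul_one] at h1 h2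
  have h3 : Lam lam x = Lam lam y := by
    rw [h1] at h2
    exact add_right_cancel h2
  rw [h1, h3]

/-- Splitting the translation part letter by letter. -/
theorem split_obs [Fintype α] [DecidableEq α] (lam c : α → R)
    (hL : Obs 1 (Lam lam : List α → R))
    (hC : ∀ a, Obs 1 (Cc lam (mark a) : List α → R)) :
    Obs 1 (fun x => (Lam lam x, Cc lam c x)) := by
  refine (hL.prod (Obs.pi hC)).of_determines ?_
  intro x y hxy
  have h1 : Lam lam x = Lam lam y := (Prod.ext_iff.1 hxy).1
  have h2 := (Prod.ext_iff.1 hxy).2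
  have h3 : ∀ a, Cc lam (mark a) x = Cc lam (mark a) y := fun a => congrFun h2 a
  rw [h1, Cc_split lam c x, Cc_split lam c y]
  simp only [h3]

end aff

section perm

variable {R : Type v} [CommRing R] {P : Type v}

/-- The product of a word, acting on points, is given by the affine data. -/
theorem prod_inv_apply (toF : P → R) (f : α → Equiv.Perm P) (lam c : α → R)
    (hstep : ∀ b p, toF ((f b)⁻¹ p) = lam b * toF p + c b) (x : List α) (p : P) :
    toF (((x.map f).prod)⁻¹ p) = Lam lam x * toF p + Cc lam c x := by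
  induction x using List.reverseRecOn with
  | nil => simp
  | append_singleton x b ih =>
    simp only [List.map_append, List.map_cons, List.map_nil, List.prod_append, List.prod_singleton,
      mul_inv_rev, Equiv.Perm.coe_mul, Function.comp_apply]
    rw [hstep, ih, Lam_snoc, Cc_snoc]
    ring

theorem prod_eq_of_affine (toF : P → R) (htoF : Function.Injective toF) (f : α → Equiv.Perm P)
    (lam c : α → R) (hstep : ∀ b p, toF ((f b)⁻¹ p) = lam b * toF p + c b) (x y : List α)
    (h1 : Lam lam x = Lam lam y) (h2 : Cc lam c x = Cc lam c y) :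
    (x.map f).prod = (y.map f).prod := by
  apply inv_injective
  ext p
  apply htoF
  rw [prod_inv_apply toF f lam c hstep, prod_inv_apply toF f lam c hstep, h1, h2]

end perm

/-! ### The symmetric group on three points -/

section S3

theorem localOn_zmod3 (lam c : α → ZMod 3) :
    LocalOn (affStep lam c) {s | s ≠ 0 ∧ s ≠ 1} := by
  intro b
  right
  have h : ∀ s s' : ZMod 3, s ≠ 0 → s ≠ 1 → s' ≠ 0 → s' ≠ 1 → s = s' := by decide
  rintro s hs s' hs' - -
  exact h s s' hs.1 hs.2 hs'.1 hs'.2

/-- Points of `Fin 3` as elements of `ZMod 3`. -/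
def toZ3 (p : Fin 3) : ZMod 3 := p

theorem toZ3_injective : Function.Injective toZ3 := fun _ _ h => h

/-- Every permutation of three points is affine over `ZMod 3`. -/
theorem perm3_affine : ∀ (σ : Equiv.Perm (Fin 3)) (p : Fin 3),
    toZ3 (σ p) = (toZ3 (σ 1) - toZ3 (σ 0)) * toZ3 p + toZ3 (σ 0) := by
  decide +kernel

theorem obs_S3 [Finite α] (f : α → Equiv.Perm (Fin 3)) :
    Obs 1 (fun x : List α => (x.map f).prod) := by
  classical
  cases nonempty_fintype α
  let lam : α → ZMod 3 := fun b => toZ3 ((f b)⁻¹ 1) - toZ3 ((f b)⁻¹ 0)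
  let c : α → ZMod 3 := fun b => toZ3 ((f b)⁻¹ 0)
  have hstep : ∀ b p, toZ3 ((f b)⁻¹ p) = lam b * toZ3 p + c b := fun b p => perm3_affine _ p
  have h01 : (0 : ZMod 3) ≠ 1 := by decide
  have hL : Obs 1 (Lam lam : List α → ZMod 3) := by
    refine (aff_obs h01 lam (fun _ => 0) (fun _ => Or.inl rfl) (localOn_zmod3 _ _) 1).of_determines ?_
    intro x y hxy
    rwa [run_one_zero, run_one_zero] at hxy
  have hC : ∀ a, Obs 1 (Cc lam (mark a) : List α → ZMod 3) := by
    intro a
    refine (affine_obs h01 lam (mark a) (fun b => ?_) (localOn_zmod3 _ _)).of_determines ?_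
    · by_cases h : b = a <;> simp [mark, h]
    · intro x y hxy
      exact (Prod.ext_iff.1 hxy).2
  refine (split_obs lam c hL hC).of_determines ?_
  intro x y hxy
  exact prod_eq_of_affine toZ3 toZ3_injective f lam c hstep x y (Prod.ext_iff.1 hxy).1 (Prod.ext_iff.1 hxy).2

end S3

/-! ### The field with four elements and the alternating group on four points -/

/-- The field with four elements. -/
inductive F4 : Type
  | o | i | w | v
  deriving DecidableEq

namespace F4

instance : Fintype F4 := ⟨{.o, .i, .w, .v}, by intro x; cases x <;> decide⟩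

/-- Addition of the field with four elements. -/
def add : F4 → F4 → F4
  | .o, x => x
  | .i, .o => .i
  | .i, .i => .o
  | .i, .w => .v
  | .i, .v => .w
  | .w, .o => .w
  | .w, .i => .v
  | .w, .w => .o
  | .w, .v => .i
  | .v, .o => .v
  | .v, .i => .w
  | .v, .w => .i
  | .v, .v => .o

/-- Multiplication of the field with four elements. -/
def mul : F4 → F4 → F4
  | .o, _ => .o
  | .i, x => x
  | .w, .o => .o
  | .w, .i => .w
  | .w, .w => .v
  | .w, .v => .i
  | .v, .o => .o
  | .v, .i => .v
  | .v, .w => .i
  | .v, .v => .w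

instance : Zero F4 := ⟨.o⟩
instance : One F4 := ⟨.i⟩
instance : Add F4 := ⟨add⟩
instance : Mul F4 := ⟨mul⟩
instance : Neg F4 := ⟨id⟩

instance : AddCommGroup F4 :=
  { add_assoc := by intro a b c; cases a <;> cases b <;> cases c <;> rfl
    zero_add := by intro a; cases a <;> rfl
    add_zero := by intro a; cases a <;> rfl
    nsmul := nsmulRec
    zsmul := zsmulRec
    neg_add_cancel := by intro a; cases a <;> rfl
    add_comm := by intro a b; cases a <;> cases b <;> rfl }

instance : CommRing F4 :=
  { (inferInstance : AddCommGroup F4) with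
    left_distrib := by intro a b c; cases a <;> cases b <;> cases c <;> rfl
    right_distrib := by intro a b c; cases a <;> cases b <;> cases c <;> rfl
    zero_mul := by intro a; cases a <;> rfl
    mul_zero := by intro a; cases a <;> rfl
    mul_assoc := by intro a b c; cases a <;> cases b <;> cases c <;> rfl
    one_mul := by intro a; cases a <;> rfl
    mul_one := by intro a; cases a <;> rfl
    mul_comm := by intro a b; cases a <;> cases b <;> rfl }

/-- The powers of a generator of the multiplicative group. -/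
def gpow (t : ZMod 3) : F4 := if t = 0 then .i else if t = 1 then .w else .v

/-- The discrete logarithm on nonzero elements. -/
def lg : F4 → ZMod 3
  | .o => 0
  | .i => 0
  | .w => 1
  | .v => 2

theorem gpow_add : ∀ s t : ZMod 3, gpow (s + t) = gpow s * gpow t := by decide

theorem gpow_lg : ∀ l : F4, l ≠ 0 → gpow (lg l) = l := by decide

theorem gpow_neg_mul : ∀ t : ZMod 3, gpow t * gpow (-t) = 1 := by decide

theorem lg_one_iff : ∀ l : F4, l ≠ 0 → (l = 1 ↔ lg l = 0) := by decide

theorem two_eq_zero : ((2 : ℕ) : F4) = 0 := by decide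

theorem natCast_mod (n : ℕ) : ((n % 2 : ℕ) : F4) = (n : F4) := by
  conv_rhs => rw [← Nat.mod_add_div n 2]
  rw [Nat.cast_add, Nat.cast_mul, two_eq_zero]
  simp

set_option synthInstance.maxSize 1000 in
set_option synthInstance.maxHeartbeats 2000000 in
theorem local_aux : ∀ l m : F4, l ≠ 0 → (m = 0 ∨ (m = 1 ∧ l ≠ 1)) →
    (∀ s : F4, (s ≠ 0 ∧ s ≠ 1) → l * s + m = s) ∨
    (∀ s s' : F4, (s ≠ 0 ∧ s ≠ 1) → (s' ≠ 0 ∧ s' ≠ 1) →
      (l * s + m ≠ 0 ∧ l * s + m ≠ 1) → (l * s' + m ≠ 0 ∧ l * s' + m ≠ 1) → s = s') := by
  decide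

end F4

open F4 in
theorem localOn_F4 (lam c : α → F4) (hlam : ∀ b, lam b ≠ 0)
    (hc : ∀ b, c b = 0 ∨ (c b = 1 ∧ lam b ≠ 1)) :
    LocalOn (affStep lam c) {s | s ≠ 0 ∧ s ≠ 1} := by
  intro b
  rcases local_aux (lam b) (c b) (hlam b) (hc b) with h | h
  · exact Or.inl fun s hs => h s hs
  · exact Or.inr fun s hs s' hs' h1 h2 => h s s' hs hs' h1 h2

section level

variable (k : α → ZMod 3)

/-- The sum of the levels of the letters of a word. -/
def lev (x : List α) : ZMod 3 := run (fun t b => t + k b) 0 x

theorem lev_snoc (x : List α) (b : α) : lev k (x ++ [b]) = lev k x + k b := run_snoc _ _ _ _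

/-- The automaton following the level relative to a hub, where letters in `E` arriving at
level zero do not enter the hub. -/
def lvlStep (E : α → Prop) [DecidablePred E] (s : Option (ZMod 3)) (b : α) : Option (ZMod 3) :=
  if s.getD 0 + k b = 0 ∧ E b then none else some (s.getD 0 + k b)

theorem lvlStep_getD (E : α → Prop) [DecidablePred E] (s : Option (ZMod 3)) (b : α) :
    (lvlStep k E s b).getD 0 = s.getD 0 + k b := by
  unfold lvlStep
  split_ifs with h
  · simpa using h.1.symm
  · simp

theorem lvlStep_eq_hub (E : α → Prop) [DecidablePred E] (s : Option (ZMod 3)) (b : α) :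
    lvlStep k E s b = some 0 ↔ (s.getD 0 + k b = 0 ∧ ¬ E b) := by
  unfold lvlStep
  by_cases h : s.getD 0 + k b = 0 <;> by_cases hE : E b <;> simp [h, hE]

theorem run_lvl_getD (E : α → Prop) [DecidablePred E] (s : Option (ZMod 3)) (x : List α) :
    (run (lvlStep k E) s x).getD 0 = s.getD 0 + lev k x := by
  induction x using List.reverseRecOn with
  | nil => simp [lev]
  | append_singleton x b ih =>
    rw [run_snoc, lvlStep_getD, ih, lev_snoc, add_assoc]

theorem lvl_sf [Finite α] (E : α → Prop) [DecidablePred E] (hE : ∀ b, E b → k b = 0)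
    (p q : Option (ZMod 3)) (hp : p ≠ some 0) :
    GenStarHeightLE (path (lvlStep k E) {s | s ≠ some 0} p q) 0 := by
  have hU : ({s | s ≠ some (0 : ZMod 3)} : Set (Option (ZMod 3)))
      = ({none} : Set (Option (ZMod 3))) ∪ {s | s = some 1 ∨ s = some 2} := by
    ext s
    have : ∀ s : Option (ZMod 3), s ≠ some 0 ↔ (s = none ∨ (s = some 1 ∨ s = some 2)) := by decide
    exact this s
  rw [hU]
  have hp' : p ∈ ({none} : Set (Option (ZMod 3))) ∪ {s | s = some 1 ∨ s = some 2} := by
    rw [← hU]
    exact hp
  have hr : ∀ r : ZMod 3, r ≠ 0 → r = 1 ∨ r = 2 := by decide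
  have hstep : ∀ (r : ZMod 3) (b : α), r ≠ 0 → lvlStep k E (some r) b = some (r + k b) := by
    intro r b hr0
    unfold lvlStep
    simp only [Option.getD_some]
    rw [if_neg]
    rintro ⟨h1, h2⟩
    rw [hE b h2, add_zero] at h1
    exact hr0 h1
  refine sf_path_two ?_ (fun p q hp => sf_path_local ?_ p q hp) (fun p q hp => sf_path_local ?_ p q hp) p q hp'
  · -- closure of the upper layer
    rintro s hs b hb
    have hs0 : ∃ r : ZMod 3, r ≠ 0 ∧ s = some r := by
      rcases hs with rfl | rfl
      · exact ⟨1, by decide, rfl⟩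
      · exact ⟨2, by decide, rfl⟩
    obtain ⟨r, hr0, rfl⟩ := hs0
    rw [hstep r b hr0] at hb ⊢
    have hne : r + k b ≠ 0 := by
      intro h0
      rw [← hU] at hb
      rw [h0] at hb
      exact hb rfl
    rcases hr _ hne with h | h
    · left; rw [h]
    · right; rw [h]
  · -- the layer consisting of one state
    intro b
    right
    rintro s hs s' hs' - -
    have h1 : s = none := hs
    have h2 : s' = none := hs'
    rw [h1, h2]
  · -- the two level states
    intro b
    by_cases hk : k b = 0
    · left
      rintro s (rfl | rfl)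
      · rw [hstep 1 b (by decide), hk, add_zero]
      · rw [hstep 2 b (by decide), hk, add_zero]
    · right
      have haux : ∀ r r' t : ZMod 3, r ≠ 0 → r' ≠ 0 → t ≠ 0 → r + t ≠ 0 → r' + t ≠ 0 → r = r' := by
        decide
      have hs0 : ∀ s ∈ ({s | s = some 1 ∨ s = some 2} : Set (Option (ZMod 3))),
          ∃ r : ZMod 3, r ≠ 0 ∧ s = some r := by
        rintro s (rfl | rfl)
        · exact ⟨1, by decide, rfl⟩
        · exact ⟨2, by decide, rfl⟩
      intro s hs s' hs' h1 h2
      obtain ⟨r, hr0, rfl⟩ := hs0 s hs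
      obtain ⟨r', hr'0, rfl⟩ := hs0 s' hs'
      rw [hstep r b hr0] at h1
      rw [hstep r' b hr'0] at h2
      have h3 : r + k b ≠ 0 := by
        intro h0
        rw [h0] at h1
        rcases h1 with h1 | h1 <;> simp at h1 <;> exact absurd h1 (by decide)
      have h4 : r' + k b ≠ 0 := by
        intro h0
        rw [h0] at h2
        rcases h2 with h2 | h2 <;> simp at h2 <;> exact absurd h2 (by decide)
      rw [haux r r' (k b) hr0 hr'0 hk h3 h4]

variable [DecidableEq α] (a : α)

/-- The number of occurrences of the letter `a` at level `ℓ`, together with the level. -/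
def cntStep (ℓ : ZMod 3) (t : ZMod 3 × ℕ) (b : α) : ZMod 3 × ℕ :=
  (t.1 + k b, t.2 + if b = a ∧ t.1 + k b = ℓ then 1 else 0)

/-- The number of occurrences of the letter `a` at level `ℓ`. -/
def cnt (ℓ : ZMod 3) (x : List α) : ℕ := (run (cntStep k a ℓ) (0, 0) x).2

theorem cnt_fst (ℓ : ZMod 3) (x : List α) : (run (cntStep k a ℓ) (0, 0) x).1 = lev k x := by
  induction x using List.reverseRecOn with
  | nil => rfl
  | append_singleton x b ih =>
    rw [run_snoc, lev_snoc]
    simp only [cntStep, ih]

theorem cnt_snoc (ℓ : ZMod 3) (x : List α) (b : α) :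
    cnt k a ℓ (x ++ [b]) = cnt k a ℓ x + if b = a ∧ lev k (x ++ [b]) = ℓ then 1 else 0 := by
  unfold cnt
  rw [run_snoc, lev_snoc]
  simp only [cntStep, cnt_fst]

theorem ret_eq (ℓ : ZMod 3) (x : List α) :
    ret (lvlStep k (fun _ => False)) (some 0) (some (-ℓ)) x
      = ret (lvlStep k (fun b => b = a)) (some 0) (some (-ℓ)) x + cnt k a ℓ x := by
  induction x using List.reverseRecOn with
  | nil => rfl
  | append_singleton x b ih =>
    rw [ret_snoc, ret_snoc, cnt_snoc, ih]
    have h1 : ∀ (E : α → Prop) [DecidablePred E],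
        (run (lvlStep k E) (some (-ℓ)) x).getD 0 + k b = lev k (x ++ [b]) - ℓ := by
      intro E _
      rw [run_lvl_getD, lev_snoc]
      simp only [Option.getD_some]
      ring
    have h2 : ∀ t : ZMod 3, t - ℓ = 0 ↔ t = ℓ := fun t => sub_eq_zero
    simp only [lvlStep_eq_hub, h1, h2, not_false_eq_true, and_true]
    by_cases hb : b = a <;> by_cases hl : lev k (x ++ [b]) = ℓ <;> simp [hb, hl] <;> omega

end level

open F4 in
theorem Cc_level [DecidableEq α] (lam : α → F4) (a : α) (hlam : ∀ b, lam b ≠ 0) (ha : lam a = 1) (x : List α) :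
    Cc lam (mark a) x = Lam lam x * ∑ ℓ : ZMod 3, (cnt (fun b => lg (lam b)) a ℓ x : F4) * gpow (-ℓ) := by
  have hLam : ∀ x, Lam lam x = gpow (lev (fun b => lg (lam b)) x) := by
    intro x
    induction x using List.reverseRecOn with
    | nil => rfl
    | append_singleton x b ih =>
      rw [Lam_snoc, lev_snoc, gpow_add, ih, gpow_lg _ (hlam b), mul_comm]
  have hka : lg (lam a) = 0 := (lg_one_iff _ (hlam a)).1 ha
  induction x using List.reverseRecOn with
  | nil => simp [cnt, run]
  | append_singleton x b ih =>
    rw [Cc_snoc, Lam_snoc, ih]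
    simp only [cnt_snoc, Nat.cast_add, add_mul, Finset.sum_add_distrib]
    by_cases hb : b = a
    · subst hb
      have hl : lev (fun b => lg (lam b)) (x ++ [b]) = lev (fun b => lg (lam b)) x := by
        rw [lev_snoc, hka, add_zero]
      simp only [true_and, hl, ha, one_mul, mark, if_true]
      have : (∑ ℓ : ZMod 3, (((if lev (fun b => lg (lam b)) x = ℓ then 1 else 0 : ℕ) : F4)) * gpow (-ℓ))
          = gpow (- lev (fun b => lg (lam b)) x) := by
        simp [Finset.sum_ite_eq]
      rw [this, mul_add, hLam x, gpow_neg_mul]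
    · simp [hb, mark, mul_assoc]

open F4 in
theorem obs_level [Finite α] [DecidableEq α] (lam : α → F4) (a : α) (hlam : ∀ b, lam b ≠ 0) (ha : lam a = 1) :
    Obs 1 (fun x => (Lam lam x, Cc lam (mark a) x)) := by
  set k : α → ZMod 3 := fun b => lg (lam b) with hk
  have hka : k a = 0 := (lg_one_iff _ (hlam a)).1 ha
  have hLam : ∀ x, Lam lam x = gpow (lev k x) := by
    intro x
    induction x using List.reverseRecOn with
    | nil => rfl
    | append_singleton x b ih =>
      rw [Lam_snoc, lev_snoc, gpow_add, ih, hk, gpow_lg _ (hlam b), mul_comm]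
  have hobs : ∀ (E : α → Prop) [DecidablePred E], (∀ b, E b → k b = 0) → ∀ s : Option (ZMod 3),
      Obs 1 (fun x : List α => (⟨ret (lvlStep k E) (some 0) s x % 2, Nat.mod_lt _ (by norm_num)⟩ : Fin 2)) := by
    intro E _ hE s
    exact hub_obs_ret (fun p q hp => lvl_sf k E hE p q hp) 2 (by norm_num) s
  have hrun : Obs 1 (run (lvlStep k (fun _ => False)) (some 0) : List α → Option (ZMod 3)) :=
    hub_obs_run (fun p q hp => lvl_sf k _ (fun b hb => hb.elim) p q hp) (some 0)
  have h1 := hobs (fun _ => False) (fun b hb => hb.elim)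
  have h2 := hobs (fun b => b = a) (fun b hb => hb ▸ hka)
  refine ((hrun.prod (Obs.pi fun ℓ : ZMod 3 => h1 (some (-ℓ)))).prod
    (Obs.pi fun ℓ : ZMod 3 => h2 (some (-ℓ)))).of_determines ?_
  intro x y hxy
  have hx1 := (Prod.ext_iff.1 (Prod.ext_iff.1 hxy).1).1
  have hx2 := (Prod.ext_iff.1 (Prod.ext_iff.1 hxy).1).2
  have hx3 := (Prod.ext_iff.1 hxy).2
  have hlev : lev k x = lev k y := by
    have := congrArg (fun s => Option.getD s (0 : ZMod 3)) hx1
    simpa [run_lvl_getD] using this
  have hcnt : ∀ ℓ : ZMod 3, (cnt k a ℓ x : F4) = (cnt k a ℓ y : F4) := by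
    intro ℓ
    have e1 : ret (lvlStep k (fun _ => False)) (some 0) (some (-ℓ)) x % 2
        = ret (lvlStep k (fun _ => False)) (some 0) (some (-ℓ)) y % 2 :=
      Fin.ext_iff.1 (congrFun hx2 ℓ)
    have e2 : ret (lvlStep k (fun b => b = a)) (some 0) (some (-ℓ)) x % 2
        = ret (lvlStep k (fun b => b = a)) (some 0) (some (-ℓ)) y % 2 :=
      Fin.ext_iff.1 (congrFun hx3 ℓ)
    rw [ret_eq k a ℓ x, ret_eq k a ℓ y] at e1
    rw [← natCast_mod (cnt k a ℓ x), ← natCast_mod (cnt k a ℓ y)]
    congr 1
    omega
  refine Prod.ext ?_ ?_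
  · show Lam lam x = Lam lam y
    rw [hLam, hLam, hlev]
  · show Cc lam (mark a) x = Cc lam (mark a) y
    rw [Cc_level lam a hlam ha x, Cc_level lam a hlam ha y, hLam, hLam, hlev]
    simp only [← hk, hcnt]

/-- Points of `Fin 4` as elements of the field with four elements. -/
def toF4 : Fin 4 → F4 := ![F4.o, F4.i, F4.w, F4.v]

theorem toF4_injective : Function.Injective toF4 := by decide

/-- Every even permutation of four points is affine over the field with four elements. -/
theorem perm4_affine : ∀ (σ : alternatingGroup (Fin 4)) (p : Fin 4),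
    toF4 (σ.1 p) = (toF4 (σ.1 1) + toF4 (σ.1 0)) * toF4 p + toF4 (σ.1 0) := by
  decide +kernel

theorem perm4_lam : ∀ σ : alternatingGroup (Fin 4), toF4 (σ.1 1) + toF4 (σ.1 0) ≠ 0 := by
  decide +kernel

theorem obs_A4 [Finite α] (f : α → alternatingGroup (Fin 4)) :
    Obs 1 (fun x : List α => (x.map f).prod) := by
  classical
  cases nonempty_fintype α
  let lam : α → F4 := fun b => toF4 ((f b)⁻¹.1 1) + toF4 ((f b)⁻¹.1 0)
  let c : α → F4 := fun b => toF4 ((f b)⁻¹.1 0)
  let f' : α → Equiv.Perm (Fin 4) := fun b => (f b).1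
  have hstep : ∀ b p, toF4 ((f' b)⁻¹ p) = lam b * toF4 p + c b := fun b p => perm4_affine (f b)⁻¹ p
  have hlam : ∀ b, lam b ≠ 0 := fun b => perm4_lam (f b)⁻¹
  have h01 : (0 : F4) ≠ 1 := by decide
  have hL : Obs 1 (Lam lam : List α → F4) := by
    refine (aff_obs h01 lam (fun _ => 0) (fun _ => Or.inl rfl)
      (localOn_F4 _ _ hlam (fun _ => Or.inl rfl)) 1).of_determines ?_
    intro x y hxy
    rwa [run_one_zero, run_one_zero] at hxy
  have hC : ∀ a, Obs 1 (Cc lam (mark a) : List α → F4) := by
    intro a
    by_cases ha : lam a = 1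
    · refine (obs_level lam a hlam ha).of_determines ?_
      intro x y hxy
      exact (Prod.ext_iff.1 hxy).2
    · refine (affine_obs h01 lam (mark a) (fun b => ?_) (localOn_F4 _ _ hlam fun b => ?_)).of_determines ?_
      · by_cases h : b = a <;> simp [mark, h]
      · by_cases h : b = a
        · subst h
          exact Or.inr ⟨by simp [mark], ha⟩
        · exact Or.inl (by simp [mark, h])
      · intro x y hxy
        exact (Prod.ext_iff.1 hxy).2
  refine (split_obs lam c hL hC).of_determines ?_
  intro x y hxy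
  apply Subtype.ext
  have hcoe : ∀ x : List α, ((x.map f).prod).1 = (x.map f').prod := by
    intro x
    have := map_list_prod (alternatingGroup (Fin 4)).subtype (x.map f)
    simpa [List.map_map, f', Function.comp_def] using this
  rw [hcoe, hcoe]
  exact prod_eq_of_affine toF4 toF4_injective f' lam c hstep x y (Prod.ext_iff.1 hxy).1 (Prod.ext_iff.1 hxy).2

/-! ### Finite abelian groups -/

theorem obs_comm [Finite α] {A : Type v} [CommGroup A] [Finite A] (f : α → A) :
    Obs 1 (fun x : List α => (x.map f).prod) := by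
  classical
  cases nonempty_fintype α
  have hN : 0 < Nat.card A := Nat.card_pos
  -- counting one letter
  have hcount : ∀ a : α, Obs 1 (fun x : List α =>
      (⟨ret (fun (_ : Bool) b => decide (b = a)) true false x % Nat.card A, Nat.mod_lt _ hN⟩ : Fin (Nat.card A))) := by
    intro a
    refine hub_obs_ret (fun p q hp => sf_path_local ?_ p q hp) _ hN false
    intro b
    right
    rintro s hs s' hs' - -
    have h1 : s = false := by simpa using hs
    have h2 : s' = false := by simpa using hs'
    rw [h1, h2]
  have hret : ∀ (a : α) (x : List α) (s : Bool),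
      ret (fun (_ : Bool) b => decide (b = a)) true s x = x.count a := by
    intro a x
    induction x with
    | nil => intro s; rfl
    | cons c x ih =>
      intro s
      simp only [ret, ih, List.count_cons]
      by_cases hc : c = a <;> simp [hc, add_comm]
  refine (Obs.pi hcount).of_determines ?_
  intro x y hxy
  have hc : ∀ a, x.count a % Nat.card A = y.count a % Nat.card A := by
    intro a
    have := Fin.ext_iff.1 (congrFun hxy a)
    simpa only [hret] using this
  have hprod : ∀ x : List α, (x.map f).prod = ∏ a, f a ^ (x.count a % Nat.card A) := by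
    intro x
    simp only [pow_mod_natCard]
    induction x with
    | nil => simp
    | cons c x ih =>
      simp only [List.map_cons, List.prod_cons, ih, List.count_cons, pow_add, Finset.prod_mul_distrib]
      rw [mul_comm]
      congr 1
      rw [Finset.prod_eq_single c]
      · simp
      · intro b _ hb
        simp [Ne.symm hb]
      · simp
  rw [hprod, hprod]
  simp only [hc]

end Vale.Agent.P329
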