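import Vale.Agent.P329.DefsG
import Mathlib.Data.Finite.Defs
import Mathlib.Data.Fintype.Basic
import Mathlib.Data.Set.Finite.Basic
import Mathlib.Data.Fintype.Pi

namespace Vale.Agent.P329

open GExp

variable {S : Type}

/-- A predicate on words is definable with star height at most `k`. -/
def Dfn (k : ℕ) (p : List S → Prop) : Prop :=
  ∃ e : GExp S, e.height ≤ k ∧ ∀ x, x ∈ e.lang ↔ p x

namespace Dfn

variable {k k' : ℕ} {p q : List S → Prop}

theorem mono (h : k ≤ k') (hp : Dfn k p) : Dfn k' p := by
  obtain ⟨e, he, hx⟩ := hp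
  exact ⟨e, he.trans h, hx⟩

theorem congr (hp : Dfn k p) (h : ∀ x, p x ↔ q x) : Dfn k q := by
  obtain ⟨e, he, hx⟩ := hp
  exact ⟨e, he, fun x => (hx x).trans (h x)⟩

theorem false' : Dfn (S := S) k (fun _ => False) :=
  ⟨GExp.zero, by simp [GExp.height], fun x => by simp [GExp.lang, Language.notMem_zero]⟩

theorem nil : Dfn (S := S) k (fun x => x = []) :=
  ⟨GExp.one, by simp [GExp.height], fun x => by simp [GExp.lang, Language.mem_one]⟩

theorem letter (a : S) : Dfn k (fun x => x = [a]) :=
  ⟨GExp.letter a, by simp [GExp.height], fun x => by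
    simp only [GExp.lang]; exact Iff.rfl⟩

theorem not (hp : Dfn k p) : Dfn k (fun x => ¬ p x) := by
  obtain ⟨e, he, hx⟩ := hp
  refine ⟨GExp.compl e, by simpa [GExp.height] using he, fun x => ?_⟩
  simp only [GExp.lang]
  rw [← hx x]
  exact Iff.rfl

theorem or (hp : Dfn k p) (hq : Dfn k q) : Dfn k (fun x => p x ∨ q x) := by
  obtain ⟨e, he, hx⟩ := hp
  obtain ⟨f, hf, hy⟩ := hq
  refine ⟨GExp.add e f, by simp [GExp.height, he, hf], fun x => ?_⟩
  simp only [GExp.lang, Language.mem_add, hx, hy]

theorem true' : Dfn (S := S) k (fun _ => True) :=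
  (false'.not).congr (by simp)

theorem and (hp : Dfn k p) (hq : Dfn k q) : Dfn k (fun x => p x ∧ q x) :=
  ((hp.not.or hq.not).not).congr (fun x => by tauto)

theorem const (P : Prop) : Dfn (S := S) k (fun _ => P) := by
  by_cases h : P
  · exact true'.congr (by simp [h])
  · exact false'.congr (by simp [h])

/-- Concatenation. -/
theorem concat (hp : Dfn k p) (hq : Dfn k q) :
    Dfn k (fun x => ∃ y z, x = y ++ z ∧ p y ∧ q z) := by
  obtain ⟨e, he, hx⟩ := hp
  obtain ⟨f, hf, hy⟩ := hq
  refine ⟨GExp.mul e f, by simp [GExp.height, he, hf], fun x => ?_⟩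
  simp only [GExp.lang, Language.mem_mul, hx, hy]
  constructor
  · rintro ⟨a, ha, b, hb, rfl⟩
    exact ⟨a, b, rfl, ha, hb⟩
  · rintro ⟨a, b, rfl, ha, hb⟩
    exact ⟨a, ha, b, hb, rfl⟩

/-- Kleene star raises the height by one. -/
theorem star (hp : Dfn k p) :
    Dfn (k + 1) (fun x => ∃ L : List (List S), x = L.flatten ∧ ∀ y ∈ L, p y) := by
  obtain ⟨e, he, hx⟩ := hp
  refine ⟨GExp.star e, by simpa [GExp.height] using he, fun x => ?_⟩
  simp only [GExp.lang, Language.mem_kstar]
  constructor
  · rintro ⟨L, rfl, hL⟩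
    exact ⟨L, rfl, fun y hy => (hx y).1 (hL y hy)⟩
  · rintro ⟨L, rfl, hL⟩
    exact ⟨L, rfl, fun y hy => (hx y).2 (hL y hy)⟩

/-- Finite unions. -/
theorem exists_fintype {ι : Type} [Finite ι] {P : ι → List S → Prop}
    (hP : ∀ i, Dfn k (P i)) : Dfn k (fun x => ∃ i, P i x) := by
  classical
  have := Fintype.ofFinite ι
  have key : ∀ s : Finset ι, Dfn k (fun x => ∃ i ∈ s, P i x) := by
    intro s
    induction s using Finset.induction_on with
    | empty => exact false'.congr (by simp)
    | insert a s _ ih =>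
      exact ((hP a).or ih).congr (fun x => by simp)
  exact (key Finset.univ).congr (by simp)

/-- Finite intersections. -/
theorem forall_fintype {ι : Type} [Finite ι] {P : ι → List S → Prop}
    (hP : ∀ i, Dfn k (P i)) : Dfn k (fun x => ∀ i, P i x) :=
  ((exists_fintype (fun i => (hP i).not)).not).congr (fun x => by simp)

end Dfn

/-- Conversion to the language form. -/
theorem Dfn.exists_exp {k : ℕ} {p : List S → Prop} (hp : Dfn k p) :
    ∃ e : GExp S, e.height ≤ k ∧ e.lang = {x | p x} := by
  obtain ⟨e, he, hx⟩ := hp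
  exact ⟨e, he, Set.ext hx⟩

/-- A function into a type is measurable at level `k` when all its fibres are definable. -/
def Meas {β : Type} (k : ℕ) (F : List S → β) : Prop := ∀ b, Dfn k (fun x => F x = b)

namespace Meas

variable {k : ℕ} {β γ : Type}

/-- A function determined by a measurable function into a finite type is measurable. -/
theorem of_det [Finite β] {F : List S → β} {g : List S → γ} (hF : Meas k F)
    (h : ∀ x y, F x = F y → g x = g y) : Meas k g := by
  classical
  intro c
  have : Dfn k (fun x => ∃ b : β, (∃ y, F y = b ∧ g y = c) ∧ F x = b) :=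
    Dfn.exists_fintype (fun b => (Dfn.const _).and (hF b))
  refine this.congr (fun x => ?_)
  constructor
  · rintro ⟨b, ⟨y, hy, hc⟩, hb⟩
    rw [← hc]
    exact h x y (hb.trans hy.symm)
  · intro hx
    exact ⟨F x, ⟨x, rfl, hx⟩, rfl⟩

theorem pair {F : List S → β} {G : List S → γ} (hF : Meas k F) (hG : Meas k G) :
    Meas k (fun x => (F x, G x)) := by
  rintro ⟨b, c⟩
  exact ((hF b).and (hG c)).congr (fun x => by simp [Prod.ext_iff])

theorem pi {ι : Type} [Finite ι] {F : ι → List S → γ} (hF : ∀ i, Meas k (F i)) :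
    Meas k (fun x i => F i x) := by
  intro b
  exact (Dfn.forall_fintype (fun i => hF i (b i))).congr (fun x => by
    simp [funext_iff])

/-- The preimage of any set under a measurable function into a finite type is definable. -/
theorem preimage [Finite β] {F : List S → β} (hF : Meas k F) (X : Set β) :
    Dfn k (fun x => F x ∈ X) := by
  have : Dfn k (fun x => ∃ b : β, b ∈ X ∧ F x = b) :=
    Dfn.exists_fintype (fun b => (Dfn.const _).and (hF b))
  refine this.congr (fun x => ?_)
  constructor
  · rintro ⟨b, hb, rfl⟩; exact hb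
  · intro h; exact ⟨_, h, rfl⟩

end Meas

end Vale.Agent.P329
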