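import Vale.Agent.P329.Nil3
import Vale.Agent.P329.Affine

namespace Vale.Agent.P329

universe u v w

/-- Passing to a group containing the image: if the products in `H` can be observed then so can
those in any group embedded in `H`. -/
theorem obs_of_injective {α : Type u} {K : Type v} {H : Type w} [Group K] [Group H] [Finite H] (e : K →* H)
    (he : Function.Injective e) (f : α → K) (hH : Obs 1 (fun x : List α => (x.map fun b => e (f b)).prod)) :
    Obs 1 (fun x : List α => (x.map f).prod) := by
  refine hH.of_determines ?_
  intro x y hxy
  apply he
  have key : ∀ x : List α, e (x.map f).prod = (x.map fun b => e (f b)).prod := by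
    intro x
    rw [map_list_prod, List.map_map]
    rfl
  rw [key, key]
  exact hxy

theorem obs_of_equiv {α : Type u} {K : Type v} {H : Type w} [Group K] [Group H] (e : K ≃* H) (f : α → K)
    (hH : Obs 1 (fun x : List α => (x.map fun b => e (f b)).prod)) (hF : Finite H) :
    Obs 1 (fun x : List α => (x.map f).prod) :=
  obs_of_injective e.toMonoidHom e.injective f hH

theorem obs_pi {α : Type u} {ι : Type v} [Finite ι] {H : ι → Type w} [∀ i, Group (H i)] [∀ i, Finite (H i)]
    (f : α → ∀ i, H i) (h : ∀ i, Obs 1 (fun x : List α => (x.map fun b => f b i).prod)) :
    Obs 1 (fun x : List α => (x.map f).prod) := by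
  refine (Obs.pi h).of_determines ?_
  intro x y hxy
  have key : ∀ (x : List α) i, (x.map f).prod i = (x.map fun b => f b i).prod := by
    intro x i
    induction x with
    | nil => rfl
    | cons c x ih => simp [ih]
  funext i
  rw [key, key]
  exact congrFun hxy i

end Vale.Agent.P329
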