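import Mathlib.GroupTheory.Nilpotent
import Mathlib.Tactic.Group

namespace Vale.Agent.P329

universe v

variable {G : Type v} [Group G]

/-- The commutator `x⁻¹ y⁻¹ x y`. -/
def cm (x y : G) : G := x⁻¹ * y⁻¹ * x * y

theorem mul_eq_mul_cm (x y : G) : x * y = y * x * cm x y := by
  simp [cm, mul_assoc]

/-- `z` lies in the centre. -/
def Cen (z : G) : Prop := ∀ g, g * z = z * g

/-- `X` lies in the second centre. -/
def Zt (X : G) : Prop := ∀ g, Cen (cm X g)

theorem Cen.one : Cen (1 : G) := fun g => by simp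

theorem Cen.mul {z w : G} (hz : Cen z) (hw : Cen w) : Cen (z * w) := fun g => by
  rw [← mul_assoc, hz g, mul_assoc, hw g, mul_assoc]

theorem Cen.inv {z : G} (hz : Cen z) : Cen z⁻¹ := fun g => by
  have h := hz g
  calc g * z⁻¹ = z⁻¹ * (z * g) * z⁻¹ := by group
    _ = z⁻¹ * (g * z) * z⁻¹ := by rw [h]
    _ = z⁻¹ * g := by group

theorem Cen.pow {z : G} (hz : Cen z) (n : ℕ) : Cen (z ^ n) := by
  induction n with
  | zero => simpa using Cen.one
  | succ n ih =>
    rw [pow_succ]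
    exact ih.mul hz

theorem Cen.cm_left {z : G} (hz : Cen z) (g : G) : cm z g = 1 := by
  have h := hz g
  simp only [cm]
  calc z⁻¹ * g⁻¹ * z * g = z⁻¹ * g⁻¹ * (z * g) := by group
    _ = z⁻¹ * g⁻¹ * (g * z) := by rw [h]
    _ = 1 := by group

theorem cm_mul_left {X Y : G} (g : G) (hX : Cen (cm X g)) : cm (X * Y) g = cm X g * cm Y g := by
  have h : X⁻¹ * g⁻¹ * X = cm X g * g⁻¹ := by simp [cm, mul_assoc]
  calc cm (X * Y) g = Y⁻¹ * (X⁻¹ * g⁻¹ * X) * Y * g := by simp [cm, mul_assoc]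
    _ = Y⁻¹ * (cm X g * g⁻¹) * Y * g := by rw [h]
    _ = (Y⁻¹ * cm X g) * g⁻¹ * Y * g := by group
    _ = (cm X g * Y⁻¹) * g⁻¹ * Y * g := by rw [hX Y⁻¹]
    _ = cm X g * cm Y g := by simp [cm, mul_assoc]

theorem cm_mul_right {X g h : G} (hX : Cen (cm X g)) : cm X (g * h) = cm X g * cm X h := by
  have h1 : g⁻¹ * X * g = X * cm X g := by simp [cm, mul_assoc]
  calc cm X (g * h) = X⁻¹ * h⁻¹ * (g⁻¹ * X * g) * h := by simp [cm, mul_assoc]
    _ = X⁻¹ * h⁻¹ * (X * cm X g) * h := by rw [h1]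
    _ = X⁻¹ * h⁻¹ * X * (cm X g * h) := by group
    _ = X⁻¹ * h⁻¹ * X * (h * cm X g) := by rw [hX h]
    _ = cm X h * cm X g := by simp [cm, mul_assoc]
    _ = cm X g * cm X h := hX _

theorem cm_one_left (g : G) : cm (1 : G) g = 1 := by simp [cm]

theorem cm_one_right (X : G) : cm X (1 : G) = 1 := by simp [cm]

theorem Zt.cm_mul_right {X : G} (hX : Zt X) (g h : G) : cm X (g * h) = cm X g * cm X h :=
  Vale.Agent.P329.cm_mul_right (hX g)

theorem Zt.cm_mul_left {X : G} (hX : Zt X) (Y g : G) : cm (X * Y) g = cm X g * cm Y g :=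
  Vale.Agent.P329.cm_mul_left g (hX g)

theorem Zt.one : Zt (1 : G) := fun g => by rw [cm_one_left]; exact Cen.one

theorem Zt.mul {X Y : G} (hX : Zt X) (hY : Zt Y) : Zt (X * Y) := fun g => by
  rw [hX.cm_mul_left]
  exact (hX g).mul (hY g)

theorem Zt.cm_inv_left {X : G} (hX : Zt X) (g : G) : cm X⁻¹ g = (cm X g)⁻¹ := by
  have h := hX.cm_mul_left X⁻¹ g
  rw [mul_inv_cancel, cm_one_left] at h
  exact eq_inv_of_mul_eq_one_right h.symm

theorem Zt.inv {X : G} (hX : Zt X) : Zt X⁻¹ := fun g => by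
  rw [hX.cm_inv_left]
  exact (hX g).inv

theorem Zt.cm_inv_right {X : G} (hX : Zt X) (g : G) : cm X g⁻¹ = (cm X g)⁻¹ := by
  have h := hX.cm_mul_right g g⁻¹
  rw [mul_inv_cancel, cm_one_right] at h
  exact eq_inv_of_mul_eq_one_right h.symm

theorem Zt.cm_pow_right {X : G} (hX : Zt X) (g : G) (n : ℕ) : cm X (g ^ n) = cm X g ^ n := by
  induction n with
  | zero => simp [cm_one_right]
  | succ n ih => rw [pow_succ, hX.cm_mul_right, ih, pow_succ]

theorem Zt.pow {X : G} (hX : Zt X) (n : ℕ) : Zt (X ^ n) := by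
  induction n with
  | zero => simpa using Zt.one
  | succ n ih =>
    rw [pow_succ]
    exact ih.mul hX

theorem Zt.cm_pow_left {X : G} (hX : Zt X) (g : G) (n : ℕ) : cm (X ^ n) g = cm X g ^ n := by
  induction n with
  | zero => simp [cm_one_left]
  | succ n ih => rw [pow_succ, (hX.pow n).cm_mul_left, ih, pow_succ]

/-- A commutator commutes with the second centre. -/
theorem Zt.cm_cm {X : G} (hX : Zt X) (a b : G) : cm X (cm a b) = 1 := by
  have h1 : cm X (a⁻¹ * b⁻¹ * a * b) = cm X a⁻¹ * cm X b⁻¹ * cm X a * cm X b := by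
    rw [hX.cm_mul_right, hX.cm_mul_right, hX.cm_mul_right]
  have h2 : cm a b = a⁻¹ * b⁻¹ * a * b := rfl
  rw [h2, h1, hX.cm_inv_right, hX.cm_inv_right]
  have hb := (hX b).inv (cm X a)⁻¹
  calc (cm X a)⁻¹ * (cm X b)⁻¹ * cm X a * cm X b
      = ((cm X a)⁻¹ * (cm X b)⁻¹) * cm X a * cm X b := rfl
    _ = ((cm X b)⁻¹ * (cm X a)⁻¹) * cm X a * cm X b := by rw [hb]
    _ = 1 := by group

open scoped commutatorElement in
theorem cm_eq_bracket (x y : G) : cm x y = ⁅x⁻¹, y⁻¹⁆ := by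
  simp [cm, commutatorElement_def]

/-- In a group of nilpotency class at most three, every commutator lies in the second centre. -/
theorem zt_cm_of_upper (h : Subgroup.upperCentralSeries G 3 = ⊤) (a b : G) : Zt (cm a b) := by
  have h3 : ∀ x : G, x ∈ Subgroup.upperCentralSeries G 3 := fun x => by rw [h]; exact Subgroup.mem_top x
  have h2 : cm a b ∈ Subgroup.upperCentralSeries G 2 := by
    rw [cm_eq_bracket]
    exact (Subgroup.mem_upperCentralSeries_succ_iff (G := G) (n := 2) (x := a⁻¹)).1 (h3 _) b⁻¹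
  intro g k
  have h1 : cm (cm a b) g ∈ Subgroup.upperCentralSeries G 1 := by
    rw [cm_eq_bracket]
    exact (Subgroup.mem_upperCentralSeries_succ_iff (G := G) (n := 1) (x := (cm a b)⁻¹)).1
      (Subgroup.inv_mem _ h2) g⁻¹
  have h1' : cm (cm a b) g ∈ Subgroup.center G := by
    rwa [Subgroup.upperCentralSeries_one] at h1
  exact ((Subgroup.mem_center_iff.1 h1') k)

/-- Products past a word: conjugation by products of powers. -/
theorem cm_mul_mul (u v h : G) : cm (u * v) h = v⁻¹ * cm u h * v * cm v h := by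
  simp only [cm]
  group

theorem conj_Zt {X : G} (v : G) : v⁻¹ * X * v = X * cm X v := by
  simp [cm, mul_assoc]

end Vale.Agent.P329
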