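import Vale.Agent.P329.Marks
import Vale.Agent.P329.Cm
import Mathlib.Data.Finset.Sort

namespace Vale.Agent.P329

universe u v w

section pow_gen

variable {G : Type v} [Group G]

/-- Powers on the left of a commutator, in class three. -/
theorem cm_pow_gen (hZ : ∀ a b : G, Zt (cm a b)) (u h : G) (n : ℕ) :
    cm (u ^ n) h = cm u h ^ n * cm (cm u h) u ^ n.choose 2 := by
  induction n with
  | zero => simp [cm_one_left]
  | succ n ih =>
    have hy : Zt (cm u h) := hZ u h
    have hz : Cen (cm (cm u h) u) := hy u
    rw [pow_succ, cm_mul_mul, conj_Zt, ih]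
    have h1 : cm (cm u h ^ n * cm (cm u h) u ^ n.choose 2) u = cm (cm u h) u ^ n := by
      rw [(hy.pow n).cm_mul_left, hy.cm_pow_left, (hz.pow _).cm_left, mul_one]
    rw [h1, Nat.choose_succ_succ' n 1, Nat.choose_one_right, pow_succ (cm u h) n,
      pow_add (cm (cm u h) u) n]
    have h2 : cm u h * cm (cm u h) u ^ n.choose 2 = cm (cm u h) u ^ n.choose 2 * cm u h :=
      (hz.pow _) (cm u h)
    have h3 : cm u h * cm (cm u h) u ^ n = cm (cm u h) u ^ n * cm u h :=
      (hz.pow _) (cm u h)
    show cm u h ^ n * cm (cm u h) u ^ n.choose 2 * cm (cm u h) u ^ n * cm u h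
      = cm u h ^ n * cm u h * (cm (cm u h) u ^ n * cm (cm u h) u ^ n.choose 2)
    rw [← pow_add, mul_assoc (cm u h ^ n * _), ← h3, ← mul_assoc (cm u h ^ n * _), mul_assoc (cm u h ^ n), ← h2]
    rw [add_comm n, pow_add]
    simp only [mul_assoc]

end pow_gen

section helpers

variable {ι : Type u} [Fintype ι] [DecidableEq ι] {H : Type w} [CommGroup H]

theorem prod_split_single (f : ι → H) (e e' : ι → ℕ) (i₀ : ι) :
    ∏ i, f i ^ (e i + if i = i₀ then e' i else 0) = (∏ i, f i ^ e i) * f i₀ ^ e' i₀ := by
  simp only [pow_add, Finset.prod_mul_distrib]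
  congr 1
  rw [Finset.prod_eq_single i₀]
  · simp
  · intro b _ hb
    simp [hb]
  · simp

theorem prod_ite_cons (f : ι → H) (e : ι → ℕ) (a₀ : ι) (S : List ι) (ha : a₀ ∉ S) :
    ∏ a, f a ^ (if a ∈ a₀ :: S then e a else 0)
      = f a₀ ^ e a₀ * ∏ a, f a ^ (if a ∈ S then e a else 0) := by
  rw [mul_comm, ← prod_split_single]
  refine Finset.prod_congr rfl fun a _ => ?_
  congr 1
  by_cases h1 : a = a₀
  · subst h1
    simp [ha]
  · simp [h1]

end helpers

section collect

variable {α : Type u} [Fintype α] [LinearOrder α] {G : Type v} [Group G]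
  {H : Type w} [CommGroup H] (ι : H →* G) (ly : G → G → H) (g : α → G)

/-- The commutators of the letters, in `H`. -/
def Yy (a b : α) : H := ly (g a) (g b)

/-- The commutators of weight three of the letters, in `H`. -/
def Zz (a b d : α) : H := ly (ι (ly (g a) (g b))) (g d)

/-- The ordered product of powers of the letters of a list. -/
def AA (S : List α) (n : α → ℕ) : G := (S.map fun a => g a ^ n a).prod

@[simp] theorem AA_nil (n : α → ℕ) : AA g [] n = 1 := rfl

theorem AA_cons (a : α) (S : List α) (n : α → ℕ) : AA g (a :: S) n = g a ^ n a * AA g S n := by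
  simp [AA]

theorem AA_congr (S : List α) (n n' : α → ℕ) (h : ∀ a ∈ S, n a = n' a) : AA g S n = AA g S n' := by
  unfold AA
  congr 1
  exact List.map_congr_left fun a ha => by rw [h a ha]

/-- The correction produced by moving a letter through an ordered product. -/
def CC (c : α) (S : List α) (n : α → ℕ) : H :=
  (∏ a, Yy ly g a c ^ (if a ∈ S then n a else 0))
    * (∏ a, Zz ι ly g a c a ^ (if a ∈ S then (n a).choose 2 else 0))
    * (∏ a, ∏ d, Zz ι ly g a c d ^ (if a ∈ S ∧ d ∈ S ∧ a < d then n a * n d else 0))

variable {ι ly}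

variable (hly : ∀ a b, ι (ly a b) = cm a b) (hZ : ∀ X : H, Zt (ι X))

include hly hZ in
/-- Moving an element of the second centre through an ordered product. -/
theorem cm_AA_right (X : H) (S : List α) (hS : S.Nodup) (n : α → ℕ) :
    ι (∏ d, ly (ι X) (g d) ^ (if d ∈ S then n d else 0)) = cm (ι X) (AA g S n) := by
  induction S with
  | nil => simp [cm_one_right]
  | cons a S ih =>
    have ha : a ∉ S := (List.nodup_cons.1 hS).1
    rw [prod_ite_cons _ _ a S ha, AA_cons, map_mul, map_pow, hly, ih (List.nodup_cons.1 hS).2,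
      (hZ X).cm_mul_right, (hZ X).cm_pow_right]

include hly hZ in
theorem cm_AA_left (c : α) (S : List α) (hS : S.Pairwise (· < ·)) (n : α → ℕ) :
    ι (CC ι ly g c S n) = cm (AA g S n) (g c) := by
  have hZ2 : ∀ a b : G, Zt (cm a b) := by
    intro a b
    rw [← hly]
    exact hZ _
  induction S with
  | nil =>
    simp [CC, cm_one_left]
  | cons a₀ S ih =>
    have hpw := List.pairwise_cons.1 hS
    have hlt : ∀ d ∈ S, a₀ < d := hpw.1
    have ha : a₀ ∉ S := fun h => lt_irrefl _ (hlt a₀ h)
    have hnd : S.Nodup := hpw.2.imp (fun h => ne_of_lt h)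
    set y : H := Yy ly g a₀ c with hy
    set X : G := ι y with hX
    have hXeq : X = cm (g a₀) (g c) := by
      rw [hX, hy, Yy, hly]
    have hXZ : Zt X := hZ y
    have hz : Cen (cm X (g a₀)) := hXZ _
    -- the three factors
    have h1 : cm (g a₀ ^ n a₀) (g c) = X ^ n a₀ * cm X (g a₀) ^ (n a₀).choose 2 := by
      rw [cm_pow_gen hZ2, hXeq]
    have h2 : cm (cm (g a₀ ^ n a₀) (g c)) (AA g S n)
        = ι (∏ d, Zz ι ly g a₀ c d ^ (if d ∈ S then n d else 0)) ^ n a₀ := by
      rw [h1, (hXZ.pow _).cm_mul_left, hXZ.cm_pow_left, (hz.pow _).cm_left, mul_one]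
      congr 1
      exact (cm_AA_right g hly hZ y S hnd n).symm
    have h3 : cm (g a₀ ^ n a₀ * AA g S n) (g c)
        = cm (g a₀ ^ n a₀) (g c) * cm (cm (g a₀ ^ n a₀) (g c)) (AA g S n) * cm (AA g S n) (g c) := by
      rw [cm_mul_mul, conj_Zt]
    rw [AA_cons, h3, h2, h1, ← ih hpw.2]
    -- in the commutative group `H`
    have hzz : cm X (g a₀) = ι (Zz ι ly g a₀ c a₀) := by
      rw [Zz, hly]
      rfl
    rw [hzz, ← map_pow, ← map_pow, ← map_mul, ← map_pow, ← map_mul, ← map_mul]
    congr 1
    -- splitting the exponents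
    have e3 : ∀ a d, (if a ∈ a₀ :: S ∧ d ∈ a₀ :: S ∧ a < d then n a * n d else 0)
        = (if a = a₀ then (if d ∈ S then n a₀ * n d else 0) else 0)
          + (if a ∈ S ∧ d ∈ S ∧ a < d then n a * n d else 0) := by
      intro a d
      by_cases hne : a = a₀
      · rw [hne]
        by_cases hd : d ∈ S
        · simp [hd, ha, hlt d hd]
        · by_cases hd' : d = a₀
          · rw [hd']
            simp [ha]
          · simp [hd, hd', ha]
      · by_cases hmem : a ∈ S
        · by_cases hd : d = a₀
          · rw [hd]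
            have hlt' := hlt a hmem
            simp [hne, hmem, ha, not_lt.2 hlt'.le]
          · simp [hne, hmem, hd]
        · simp [hne, hmem]
    have e4 : ∏ a, ∏ d, Zz ι ly g a c d ^ (if a ∈ a₀ :: S ∧ d ∈ a₀ :: S ∧ a < d then n a * n d else 0)
        = (∏ d, Zz ι ly g a₀ c d ^ (if d ∈ S then n d else 0)) ^ n a₀
          * ∏ a, ∏ d, Zz ι ly g a c d ^ (if a ∈ S ∧ d ∈ S ∧ a < d then n a * n d else 0) := by
      simp only [e3, pow_add, Finset.prod_mul_distrib]
      congr 1
      rw [Finset.prod_eq_single a₀]
      · simp only [if_true, ← Finset.prod_pow]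
        refine Finset.prod_congr rfl fun d _ => ?_
        by_cases hd : d ∈ S
        · simp only [hd, if_true]
          rw [← pow_mul, mul_comm]
        · simp [hd]
      · intro b _ hb
        simp [hb]
      · simp
    simp only [CC]
    rw [prod_ite_cons _ _ a₀ S ha, prod_ite_cons _ _ a₀ S ha, e4]
    simp only [mul_assoc, mul_left_comm]
    rfl

/-- Inserting a letter in an ordered product. -/
theorem AA_mul_letter (L : List α) (hL : L.Pairwise (· < ·)) (c : α) (hc : c ∈ L) (n : α → ℕ) :
    AA g L n * g c
      = AA g L (fun a => n a + if c = a then 1 else 0) * cm (AA g (L.filter (c < ·)) n) (g c) := by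
  induction L with
  | nil => simp at hc
  | cons a L ih =>
    have hpw := List.pairwise_cons.1 hL
    by_cases hac : a = c
    · subst hac
      have hnot : a ∉ L := fun h => lt_irrefl _ (hpw.1 a h)
      have hfil : (a :: L).filter (a < ·) = L := by
        rw [List.filter_cons_of_neg (by simp)]
        exact List.filter_eq_self.2 fun d hd => by simpa using hpw.1 d hd
      rw [hfil, AA_cons, AA_cons]
      have hcong : AA g L (fun b => n b + if a = b then 1 else 0) = AA g L n := by
        refine AA_congr g L _ _ fun d hd => ?_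
        have : a ≠ d := fun h => hnot (h ▸ hd)
        simp [this]
      rw [hcong, mul_assoc, mul_eq_mul_cm (AA g L n) (g a)]
      simp only [if_true, pow_succ, mul_assoc]
    · have hcL : c ∈ L := by
        rcases List.mem_cons.1 hc with h | h
        · exact absurd h.symm hac
        · exact h
      have hlt : a < c := hpw.1 c hcL
      have hfil : (a :: L).filter (c < ·) = L.filter (c < ·) := by
        rw [List.filter_cons_of_neg]
        simpa using hlt.le
      rw [hfil, AA_cons, AA_cons, mul_assoc, ih hpw.2 hcL, mul_assoc]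
      have hca : c ≠ a := fun h => hac h.symm
      simp [hca]

variable (ι ly) in
/-- The part of the collected form lying in `H`. -/
def EE (x : List α) : H :=
  (∏ a, ∏ b, Yy ly g a b ^ (if b < a then C2 a b x else 0))
    * (∏ a, ∏ b, ∏ d, Zz ι ly g a b d ^ (if b < a then C3 a b d x else 0))
    * (∏ c, ∏ a, Zz ι ly g a c a ^ (if c < a then T1 c a x else 0))
    * (∏ c, ∏ a, ∏ d, Zz ι ly g a c d ^ (if c < a ∧ a < d then T2 c a d x else 0))

theorem prod_prod_split {β : Type*} [Fintype β] (f : α → β → H) (e : α → β → ℕ) (e' : β → ℕ) (c : α) :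
    ∏ c', ∏ a, f c' a ^ (e c' a + if c' = c then e' a else 0)
      = (∏ c', ∏ a, f c' a ^ e c' a) * ∏ a, f c a ^ e' a := by
  simp only [pow_add, Finset.prod_mul_distrib]
  congr 1
  rw [Finset.prod_eq_single c]
  · simp
  · intro b _ hb
    simp [hb]
  · simp

include hly hZ in
/-- The collection formula in class three. -/
theorem collected (hι : Function.Injective ι) (x : List α) :
    (x.map g).prod = AA g (Finset.univ.sort (· ≤ ·)) (fun a => x.count a) * ι (EE ι ly g x) := by
  set L := (Finset.univ : Finset α).sort (· ≤ ·) with hLdef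
  have hLs : L.Pairwise (· < ·) := List.sortedLT_iff_pairwise.1 (Finset.sortedLT_sort _)
  have hLm : ∀ a, a ∈ L := fun a => (Finset.mem_sort _).2 (Finset.mem_univ a)
  induction x using List.reverseRecOn with
  | nil =>
    have h1 : AA g L (fun a => ([] : List α).count a) = 1 := by
      simp [AA]
    rw [h1]
    simp [EE, C2, C3, T1, T2]
  | append_singleton x c ih =>
    set n : α → ℕ := fun a => x.count a with hn
    set S := L.filter (c < ·) with hSdef
    have hS : ∀ a, a ∈ S ↔ c < a := by
      intro a
      simp [hSdef, hLm]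
    set E := EE ι ly g x with hE
    -- the homomorphism
    let φ : H →* H := MonoidHom.mk' (fun X => ly (ι X) (g c)) (by
      intro X Y
      apply hι
      rw [map_mul, hly, map_mul, hly, hly, (hZ X).cm_mul_left])
    have hφY : ∀ a b, φ (Yy ly g a b) = Zz ι ly g a b c := fun a b => rfl
    have hφZ : ∀ a b d, φ (Zz ι ly g a b d) = 1 := by
      intro a b d
      apply hι
      rw [map_one]
      show ι (ly (ι (ly (ι (ly (g a) (g b))) (g d))) (g c)) = 1
      rw [hly, hly]
      exact (hZ _ (g d)).cm_left (g c)
    have hΦ : φ E = ∏ a, ∏ b, Zz ι ly g a b c ^ (if b < a then C2 a b x else 0) := by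
      simp only [hE, EE, map_mul, map_prod, map_pow, hφY, hφZ, one_pow, Finset.prod_const_one, mul_one]
    -- the four parts
    have P1 : ∏ a, ∏ b, Yy ly g a b ^ (if b < a then C2 a b (x ++ [c]) else 0)
        = (∏ a, ∏ b, Yy ly g a b ^ (if b < a then C2 a b x else 0))
          * ∏ a, Yy ly g a c ^ (if a ∈ S then n a else 0) := by
      rw [← Finset.prod_mul_distrib]
      refine Finset.prod_congr rfl fun a _ => ?_
      rw [← prod_split_single (fun b => Yy ly g a b) _ (fun _ => if a ∈ S then n a else 0) c]
      refine Finset.prod_congr rfl fun b _ => ?_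
      congr 1
      rw [C2_snoc]
      by_cases hb : b = c
      · rw [hb]
        by_cases hca : c < a
        · have hm : a ∈ S := (hS a).2 hca
          simp [hca, hm, hn]
        · have hm : a ∉ S := fun h => hca ((hS a).1 h)
          simp [hca, hm]
      · have hcb : c ≠ b := fun h => hb h.symm
        by_cases hba : b < a <;> simp [hb, hcb, hba]
    have P2 : ∏ a, ∏ b, ∏ d, Zz ι ly g a b d ^ (if b < a then C3 a b d (x ++ [c]) else 0)
        = (∏ a, ∏ b, ∏ d, Zz ι ly g a b d ^ (if b < a then C3 a b d x else 0))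
          * ∏ a, ∏ b, Zz ι ly g a b c ^ (if b < a then C2 a b x else 0) := by
      rw [← Finset.prod_mul_distrib]
      refine Finset.prod_congr rfl fun a _ => ?_
      rw [← Finset.prod_mul_distrib]
      refine Finset.prod_congr rfl fun b _ => ?_
      rw [← prod_split_single (fun d => Zz ι ly g a b d) _ (fun _ => if b < a then C2 a b x else 0) c]
      refine Finset.prod_congr rfl fun d _ => ?_
      congr 1
      rw [C3_snoc]
      by_cases hd : d = c
      · rw [hd]
        by_cases hba : b < a <;> simp [hba]
      · have hcd : c ≠ d := fun h => hd h.symm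
        by_cases hba : b < a <;> simp [hd, hcd, hba]
    have P3 : ∏ c', ∏ a, Zz ι ly g a c' a ^ (if c' < a then T1 c' a (x ++ [c]) else 0)
        = (∏ c', ∏ a, Zz ι ly g a c' a ^ (if c' < a then T1 c' a x else 0))
          * ∏ a, Zz ι ly g a c a ^ (if a ∈ S then (n a).choose 2 else 0) := by
      rw [← prod_prod_split (fun c' a => Zz ι ly g a c' a)]
      refine Finset.prod_congr rfl fun c' _ => ?_
      refine Finset.prod_congr rfl fun a _ => ?_
      congr 1
      rw [T1_snoc]
      by_cases hb : c' = c
      · rw [hb]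
        by_cases hca : c < a
        · have hm : a ∈ S := (hS a).2 hca
          simp [hca, hm, hn]
        · have hm : a ∉ S := fun h => hca ((hS a).1 h)
          simp [hca, hm]
      · have hcb : c ≠ c' := fun h => hb h.symm
        by_cases hba : c' < a <;> simp [hb, hcb, hba]
    have P4 : ∏ c', ∏ a, ∏ d, Zz ι ly g a c' d ^ (if c' < a ∧ a < d then T2 c' a d (x ++ [c]) else 0)
        = (∏ c', ∏ a, ∏ d, Zz ι ly g a c' d ^ (if c' < a ∧ a < d then T2 c' a d x else 0))
          * ∏ a, ∏ d, Zz ι ly g a c d ^ (if a ∈ S ∧ d ∈ S ∧ a < d then n a * n d else 0) := by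
      have hsplit : ∀ c' a d, (if c' < a ∧ a < d then T2 c' a d (x ++ [c]) else 0)
          = (if c' < a ∧ a < d then T2 c' a d x else 0)
            + (if c' = c then (if a ∈ S ∧ d ∈ S ∧ a < d then n a * n d else 0) else 0) := by
        intro c' a d
        rw [T2_snoc]
        by_cases hb : c' = c
        · rw [hb]
          by_cases h3 : c < a ∧ a < d
          · have hm : a ∈ S := (hS a).2 h3.1
            have hm' : d ∈ S := (hS d).2 (h3.1.trans h3.2)
            simp [h3, hm, hm', hn]
          · have hm : ¬ (a ∈ S ∧ d ∈ S ∧ a < d) := fun h => h3 ⟨(hS a).1 h.1, h.2.2⟩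
            simp [h3, hm]
        · have hcb : c ≠ c' := fun h => hb h.symm
          simp [hb, hcb]
      simp only [hsplit, pow_add, Finset.prod_mul_distrib]
      congr 1
      rw [Finset.prod_eq_single c]
      · simp
      · intro b _ hb
        simp [hb]
      · simp
    -- assembling
    have hEE : EE ι ly g (x ++ [c]) = CC ι ly g c S n * E * φ E := by
      rw [hΦ]
      simp only [EE, P1, P2, P3, P4, CC, hE]
      ac_rfl
    have hcount : (fun a => (x ++ [c]).count a) = fun a => n a + if c = a then 1 else 0 := by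
      funext a
      rw [count_snoc']
    have hAA := AA_mul_letter g L hLs c (hLm c) n
    have hCC := cm_AA_left (ι := ι) (ly := ly) g hly hZ c S
      (List.Pairwise.filter _ hLs) n
    have hφE : ι (φ E) = cm (ι E) (g c) := hly _ _
    rw [List.map_append, List.prod_append, ih, hEE, hcount, map_mul, map_mul, hφE, hCC]
    simp only [List.map_cons, List.map_nil, List.prod_cons, List.prod_nil, mul_one]
    rw [mul_assoc, mul_eq_mul_cm (ι E) (g c), ← mul_assoc, ← mul_assoc, hAA]
    simp only [mul_assoc]
    rfl

end collect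

end Vale.Agent.P329
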