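import Vale.Agent.P329.Defs
import Mathlib.Data.Fintype.Basic
import Mathlib.Data.Fintype.Pi
import Mathlib.Data.Fintype.Sets
import Mathlib.Data.Finset.Lattice.Fold
import Mathlib.Data.Finite.Prod
import Mathlib.Data.Set.Finite.Basic

open Computability

namespace Vale.Agent.P329

universe u v w

variable {α : Type u}

/-- The language of words satisfying a predicate. -/
def lang (P : List α → Prop) : Language α := P

@[simp] theorem mem_lang {P : List α → Prop} {x : List α} : x ∈ lang P ↔ P x := Iff.rfl

section closure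

variable {L M : Language α} {k : ℕ}

theorem GenStarHeightLE.mono {l : ℕ} (h : GenStarHeightLE L k) (hkl : k ≤ l) :
    GenStarHeightLE L l := by
  obtain ⟨E, hE, rfl⟩ := h
  exact ⟨E, hE.trans hkl, rfl⟩

theorem GenStarHeightLE.zero (k : ℕ) : GenStarHeightLE (0 : Language α) k :=
  ⟨GenRegExp.zero, Nat.zero_le _, rfl⟩

theorem GenStarHeightLE.one (k : ℕ) : GenStarHeightLE (1 : Language α) k :=
  ⟨GenRegExp.one, Nat.zero_le _, rfl⟩

theorem GenStarHeightLE.letter (a : α) (k : ℕ) : GenStarHeightLE ({[a]} : Language α) k :=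
  ⟨GenRegExp.letter a, Nat.zero_le _, rfl⟩

theorem GenStarHeightLE.add (hL : GenStarHeightLE L k) (hM : GenStarHeightLE M k) :
    GenStarHeightLE (L + M) k := by
  obtain ⟨E, hE, rfl⟩ := hL
  obtain ⟨F, hF, rfl⟩ := hM
  exact ⟨GenRegExp.plus E F, max_le hE hF, rfl⟩

theorem GenStarHeightLE.mul (hL : GenStarHeightLE L k) (hM : GenStarHeightLE M k) :
    GenStarHeightLE (L * M) k := by
  obtain ⟨E, hE, rfl⟩ := hL
  obtain ⟨F, hF, rfl⟩ := hM
  exact ⟨GenRegExp.concat E F, max_le hE hF, rfl⟩

theorem GenStarHeightLE.compl (hL : GenStarHeightLE L k) : GenStarHeightLE (Lᶜ) k := by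
  obtain ⟨E, hE, rfl⟩ := hL
  exact ⟨GenRegExp.compl E, hE, rfl⟩

theorem GenStarHeightLE.star (hL : GenStarHeightLE L k) : GenStarHeightLE (L∗) (k + 1) := by
  obtain ⟨E, hE, rfl⟩ := hL
  exact ⟨GenRegExp.star E, Nat.succ_le_succ hE, rfl⟩

theorem GenStarHeightLE.pow (hL : GenStarHeightLE L k) (n : ℕ) : GenStarHeightLE (L ^ n) k := by
  induction n with
  | zero => simpa using GenStarHeightLE.one k
  | succ n ih => simpa [pow_succ] using ih.mul hL

theorem GenStarHeightLE.congr {L M : Language α} (h : GenStarHeightLE L k) (hLM : ∀ x, x ∈ L ↔ x ∈ M) :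
    GenStarHeightLE M k := by
  have : L = M := Language.ext hLM
  rwa [← this]

theorem GenStarHeightLE.inf {P Q : List α → Prop}
    (hL : GenStarHeightLE (lang P) k) (hM : GenStarHeightLE (lang Q) k) :
    GenStarHeightLE (lang fun x => P x ∧ Q x) k := by
  refine ((hL.compl.add hM.compl).compl).congr ?_
  intro x
  show ¬ (¬ P x ∨ ¬ Q x) ↔ (P x ∧ Q x)
  tauto

theorem GenStarHeightLE.univ (k : ℕ) : GenStarHeightLE (lang fun _ : List α => True) k := by
  refine ((GenStarHeightLE.zero k).compl).congr ?_
  intro x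
  show ¬ (x ∈ (0 : Language α)) ↔ True
  simp

/-- Finite unions. -/
theorem GenStarHeightLE.iUnion {ι : Type v} [Finite ι] (f : ι → Language α)
    (h : ∀ i, GenStarHeightLE (f i) k) :
    GenStarHeightLE (lang fun x => ∃ i, x ∈ f i) k := by
  classical
  cases nonempty_fintype ι
  suffices H : ∀ s : Finset ι, GenStarHeightLE (lang fun x => ∃ i ∈ s, x ∈ f i) k by
    refine (H Finset.univ).congr ?_
    intro x
    simp
  intro s
  induction s using Finset.induction_on with
  | empty =>
    refine (GenStarHeightLE.zero k).congr ?_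
    intro x
    simp [Language.notMem_zero]
  | insert a s ha ih =>
    refine ((h a).add ih).congr ?_
    intro x
    simp only [Language.mem_add, mem_lang, Finset.mem_insert]
    constructor
    · rintro (hx | ⟨i, hi, hx⟩)
      · exact ⟨a, Or.inl rfl, hx⟩
      · exact ⟨i, Or.inr hi, hx⟩
    · rintro ⟨i, rfl | hi, hx⟩
      · exact Or.inl hx
      · exact Or.inr ⟨i, hi, hx⟩

/-- Intersections over a finite type. -/
theorem GenStarHeightLE.iInter {ι : Type v} [Finite ι] (f : ι → Language α)
    (h : ∀ i, GenStarHeightLE (f i) k) :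
    GenStarHeightLE (lang fun x => ∀ i, x ∈ f i) k := by
  refine (GenStarHeightLE.iUnion (fun i => (f i)ᶜ) (fun i => (h i).compl)).compl.congr ?_
  intro x
  show ¬ (∃ i, ¬ x ∈ f i) ↔ ∀ i, x ∈ f i
  simp

/-- A finite observation: all fibres of `F` have star height at most `k`. -/
def Obs {T : Type v} (k : ℕ) (F : List α → T) : Prop :=
  ∀ t, GenStarHeightLE (lang fun x => F x = t) k

theorem Obs.map {T : Type v} {T' : Type w} [Finite T] {F : List α → T} (hF : Obs k F) (g : T → T') :
    Obs k (fun x => g (F x)) := by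
  intro t'
  refine (GenStarHeightLE.iUnion (fun t : {t : T // g t = t'} => lang fun x => F x = t.1)
    (fun t => hF t.1)).congr ?_
  intro x
  constructor
  · rintro ⟨⟨t, ht⟩, hx⟩
    have hx' : F x = t := hx
    show g (F x) = t'
    rw [hx', ht]
  · intro hx
    exact ⟨⟨F x, hx⟩, rfl⟩

theorem Obs.prod {T : Type v} {T' : Type w} {F : List α → T} {F' : List α → T'} (hF : Obs k F)
    (hF' : Obs k F') : Obs k (fun x => (F x, F' x)) := by
  rintro ⟨t, t'⟩
  refine (GenStarHeightLE.inf (hF t) (hF' t')).congr ?_
  intro x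
  show (F x = t ∧ F' x = t') ↔ (F x, F' x) = (t, t')
  simp

theorem Obs.pi {ι : Type v} {T : ι → Type w} [Finite ι] {F : ∀ i, List α → T i}
    (hF : ∀ i, Obs k (F i)) : Obs k (fun x i => F i x) := by
  intro t
  refine (GenStarHeightLE.iInter (fun i => lang fun x => F i x = t i) (fun i => hF i (t i))).congr ?_
  intro x
  show (∀ i, F i x = t i) ↔ (fun i => F i x) = t
  exact funext_iff.symm

/-- If `F` determines `G`, observations of `F` give observations of `G`. -/
theorem Obs.of_determines {T : Type v} {T' : Type w} [Finite T] {F : List α → T} {G : List α → T'}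
    {k : ℕ} (hF : Obs k F) (hd : ∀ x y, F x = F y → G x = G y) : Obs k G := by
  intro t'
  refine (GenStarHeightLE.iUnion (fun t : {t : T // ∃ x, F x = t ∧ G x = t'} => lang fun x => F x = t.1)
    (fun t => hF t.1)).congr ?_
  intro x
  constructor
  · rintro ⟨⟨t, y, hy1, hy2⟩, hx⟩
    have hx' : F x = t := hx
    show G x = t'
    rw [hd x y (hx'.trans hy1.symm), hy2]
  · intro hx
    exact ⟨⟨F x, x, rfl, hx⟩, rfl⟩

/-- From an observation to arbitrary preimages. -/
theorem Obs.preimage {T : Type v} [Finite T] {F : List α → T} (hF : Obs k F) (S : Set T) :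
    GenStarHeightLE (lang fun x => F x ∈ S) k := by
  refine (GenStarHeightLE.iUnion (fun t : S => lang fun x => F x = t.1) (fun t => hF t.1)).congr ?_
  intro x
  constructor
  · rintro ⟨⟨t, ht⟩, hx⟩
    have hx' : F x = t := hx
    show F x ∈ S
    rw [hx']
    exact ht
  · intro hx
    exact ⟨⟨F x, hx⟩, rfl⟩

end closure

section letters

variable [Finite α] {k : ℕ}

/-- Words all of whose letters lie in `A`. -/
theorem GenStarHeightLE.allIn (A : Set α) (k : ℕ) :
    GenStarHeightLE (lang fun x => ∀ c ∈ x, c ∈ A) k := by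
  classical
  have hL : GenStarHeightLE (lang fun x => ∃ c : {c : α // c ∉ A}, x ∈ ({[c.1]} : Language α)) k :=
    GenStarHeightLE.iUnion _ (fun c => GenStarHeightLE.letter c.1 k)
  refine (((GenStarHeightLE.univ (α := α) k).mul hL).mul (GenStarHeightLE.univ k)).compl.congr ?_
  intro x
  constructor
  · intro hx c hc
    by_contra hcA
    apply hx
    obtain ⟨u, v, rfl⟩ := List.append_of_mem hc
    refine Language.mem_mul.2 ⟨u ++ [c], Language.mem_mul.2 ⟨u, trivial, [c], ⟨⟨c, hcA⟩, rfl⟩, rfl⟩,
      v, trivial, by simp⟩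
  · intro hx hmem
    obtain ⟨u, hu, v, hv, rfl⟩ := Language.mem_mul.1 hmem
    obtain ⟨u', _, v', hv', rfl⟩ := Language.mem_mul.1 hu
    obtain ⟨⟨c, hc⟩, hc'⟩ := hv'
    have : v' = [c] := hc'
    subst this
    exact hc (hx c (by simp))

end letters

/-! ### Deterministic automata -/

section dfa

variable {Q : Type v} (δ : Q → α → Q)

/-- The run of a complete deterministic automaton. -/
def run (p : Q) (x : List α) : Q := x.foldl δ p

@[simp] theorem run_nil (p : Q) : run δ p ([] : List α) = p := rfl
@[simp] theorem run_cons (p : Q) (c : α) (x : List α) : run δ p (c :: x) = run δ (δ p c) x := rfl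
theorem run_append (p : Q) (x y : List α) : run δ p (x ++ y) = run δ (run δ p x) y := by
  simp [run, List.foldl_append]
theorem run_snoc (p : Q) (x : List α) (c : α) : run δ p (x ++ [c]) = δ (run δ p x) c := by
  simp [run_append]

/-- All states met by the run from `p` on `x`, including `p` itself, lie in `U`. -/
def stay (U : Set Q) : Q → List α → Prop
  | p, [] => p ∈ U
  | p, c :: x => p ∈ U ∧ stay U (δ p c) x

theorem stay_append (U : Set Q) (p : Q) (x y : List α) :
    stay δ U p (x ++ y) ↔ stay δ U p x ∧ stay δ U (run δ p x) y := by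
  induction x generalizing p with
  | nil =>
    simp only [List.nil_append, run_nil, stay]
    constructor
    · intro h
      refine ⟨?_, h⟩
      cases y with
      | nil => exact h
      | cons c y => exact h.1
    · exact fun h => h.2
  | cons c x ih =>
    simp only [List.cons_append, stay, run_cons, ih, and_assoc]

theorem stay_snoc (U : Set Q) (p : Q) (x : List α) (c : α) :
    stay δ U p (x ++ [c]) ↔ stay δ U p x ∧ δ (run δ p x) c ∈ U := by
  rw [stay_append]
  simp only [stay]
  constructor
  · rintro ⟨h1, _, h3⟩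
    exact ⟨h1, h3⟩
  · rintro ⟨h1, h3⟩
    refine ⟨h1, ?_, h3⟩
    have : ∀ (y : List α) (p : Q), stay δ U p y → run δ p y ∈ U := by
      intro y
      induction y with
      | nil => intro p h; exact h
      | cons d y ih => intro p h; exact ih _ h.2
    exact this x p h1

theorem run_mem_of_stay (U : Set Q) (p : Q) (x : List α) (h : stay δ U p x) : run δ p x ∈ U := by
  induction x generalizing p with
  | nil => exact h
  | cons d y ih => exact ih _ h.2

/-- Words leading from `p` to `q` inside `U`. -/
def path (U : Set Q) (p q : Q) : Language α := lang fun x => stay δ U p x ∧ run δ p x = q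

/-- The number of nonempty prefixes of `x` after which the run from `p` is at `h`. -/
def ret [DecidableEq Q] (h : Q) : Q → List α → ℕ
  | _, [] => 0
  | p, c :: x => (if δ p c = h then 1 else 0) + ret h (δ p c) x

theorem ret_append [DecidableEq Q] (h p : Q) (x y : List α) :
    ret δ h p (x ++ y) = ret δ h p x + ret δ h (run δ p x) y := by
  induction x generalizing p with
  | nil => simp [ret]
  | cons c x ih =>
    simp only [List.cons_append, ret, run_cons, ih]
    omega

theorem ret_snoc [DecidableEq Q] (h p : Q) (x : List α) (c : α) :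
    ret δ h p (x ++ [c]) = ret δ h p x + (if δ (run δ p x) c = h then 1 else 0) := by
  simp [ret_append, ret]

end dfa

section localLemma

variable {Q : Type v} (δ : Q → α → Q) (U : Set Q)

/-- Each letter either fixes every state of `U`, or leaves `U` from all states of `U` but at most one. -/
def LocalOn : Prop :=
  ∀ b, (∀ s ∈ U, δ s b = s) ∨ (∀ s ∈ U, ∀ s' ∈ U, δ s b ∈ U → δ s' b ∈ U → s = s')

variable {δ U}

open Classical in
theorem sf_path_local [Finite Q] [Finite α] (hloc : LocalOn δ U) (p q : Q) (hp : p ∈ U) :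
    GenStarHeightLE (path δ U p q) 0 := by
  classical
  -- neutral letters and targets
  let N : Set α := {b | ∀ s ∈ U, δ s b = s}
  let tgt : α → Q := fun b => if h : ∃ s ∈ U, δ s b ∈ U then δ h.choose b else p
  let δ' : Q → α → Q := fun s b => if b ∈ N then s else tgt b
  let st : List α → Q := run δ' p
  have htgtU : ∀ b, tgt b ∈ U := by
    intro b
    by_cases h : ∃ s ∈ U, δ s b ∈ U
    · simp only [tgt, dif_pos h]
      exact h.choose_spec.2
    · simp only [tgt, dif_neg h]
      exact hp
  have hstU : ∀ x, st x ∈ U := by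
    intro x
    induction x using List.reverseRecOn with
    | nil => exact hp
    | append_singleton x c ih =>
      show run δ' p (x ++ [c]) ∈ U
      rw [run_snoc]
      by_cases hc : c ∈ N
      · simp only [δ', if_pos hc]; exact ih
      · simp only [δ', if_neg hc]; exact htgtU c
  have hF2 : ∀ s ∈ U, ∀ b, δ s b ∈ U → δ' s b = δ s b := by
    intro s hs b hb
    by_cases hbN : b ∈ N
    · simp only [δ', if_pos hbN]
      exact (hbN s hs).symm
    · simp only [δ', if_neg hbN]
      have h : ∃ s ∈ U, δ s b ∈ U := ⟨s, hs, hb⟩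
      simp only [tgt, dif_pos h]
      rcases hloc b with h1 | h1
      · exact absurd h1 hbN
      · rw [h1 _ h.choose_spec.1 s hs h.choose_spec.2 hb]
  have hF3 : ∀ x, stay δ U p x → run δ p x = st x := by
    intro x
    induction x using List.reverseRecOn with
    | nil => intro _; rfl
    | append_singleton x c ih =>
      intro h
      rw [stay_snoc] at h
      show run δ p (x ++ [c]) = run δ' p (x ++ [c])
      rw [run_snoc, run_snoc]
      have h2 := ih h.1
      have h3 : run δ' p x = run δ p x := h2.symm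
      rw [h3]
      exact (hF2 _ (run_mem_of_stay δ U p x h.1) c h.2).symm
  let allOK : List α → Prop := fun x => ∀ u c v, x = u ++ c :: v → δ (st u) c ∈ U
  have hOKsnoc : ∀ x c, allOK (x ++ [c]) ↔ allOK x ∧ δ (st x) c ∈ U := by
    intro x c
    constructor
    · intro h
      refine ⟨?_, h x c [] rfl⟩
      intro u d v hx
      exact h u d (v ++ [c]) (by simp [hx])
    · rintro ⟨h1, h2⟩ u d v hx
      rcases List.eq_nil_or_concat v with rfl | ⟨v', e, rfl⟩
      · have : x = u ∧ [c] = [d] := List.append_inj' hx (by simp)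
        obtain ⟨rfl, h3⟩ := this
        have : c = d := by simpa using h3
        subst this
        exact h2
      · have hx' : x ++ [c] = (u ++ d :: v') ++ [e] := by simpa using hx
        have := List.append_inj' hx' (by simp)
        exact h1 u d v' this.1
  have hF4 : ∀ x, stay δ U p x ↔ allOK x := by
    intro x
    induction x using List.reverseRecOn with
    | nil =>
      constructor
      · intro _ u c v h
        simp at h
      · intro _
        exact hp
    | append_singleton x c ih =>
      rw [stay_snoc, hOKsnoc, ← ih]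
      constructor
      · rintro ⟨h1, h2⟩
        refine ⟨h1, ?_⟩
        rwa [hF3 x h1] at h2
      · rintro ⟨h1, h2⟩
        refine ⟨h1, ?_⟩
        rwa [hF3 x h1]
  -- the language of words with `st x = s`
  have hNstar : GenStarHeightLE (lang fun x : List α => ∀ c ∈ x, c ∈ N) 0 :=
    GenStarHeightLE.allIn N 0
  have hT : ∀ s, GenStarHeightLE (lang fun x => st x = s) 0 := by
    intro s
    have h1 : GenStarHeightLE (lang fun x : List α => (∀ c ∈ x, c ∈ N) ∧ p = s) 0 := by
      by_cases hps : p = s
      · simpa [hps] using hNstar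
      · refine (GenStarHeightLE.zero 0).congr ?_
        intro x
        simp [hps, Language.notMem_zero]
    have h2 : GenStarHeightLE (lang fun x : List α =>
        ∃ c : {c : α // c ∉ N ∧ tgt c = s},
          x ∈ (lang fun _ : List α => True) * ({[c.1]} : Language α) * (lang fun x : List α => ∀ c ∈ x, c ∈ N)) 0 :=
      GenStarHeightLE.iUnion _ (fun c => ((GenStarHeightLE.univ 0).mul (GenStarHeightLE.letter c.1 0)).mul hNstar)
    refine (h1.add h2).congr ?_
    intro x
    induction x using List.reverseRecOn with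
    | nil =>
      simp only [Language.mem_add, mem_lang]
      constructor
      · rintro (⟨_, h⟩ | ⟨c, hc⟩)
        · exact h
        · exfalso
          obtain ⟨a, ha, b, hb, hab⟩ := Language.mem_mul.1 hc
          obtain ⟨a', _, b', hb', rfl⟩ := Language.mem_mul.1 ha
          have : b' = [c.1] := hb'
          subst this
          simp at hab
      · intro h
        exact Or.inl ⟨by simp, h⟩
    | append_singleton x e ih =>
      simp only [Language.mem_add, mem_lang] at ih ⊢
      have hstsnoc : st (x ++ [e]) = δ' (st x) e := run_snoc δ' p x e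
      rw [hstsnoc]
      by_cases he : e ∈ N
      · have : δ' (st x) e = st x := by simp only [δ', if_pos he]
        rw [this, ← ih]
        constructor
        · rintro (⟨h1, h2⟩ | ⟨c, hc⟩)
          · exact Or.inl ⟨fun d hd => h1 d (by simp [hd]), h2⟩
          · obtain ⟨a, ha, b, hb, hab⟩ := Language.mem_mul.1 hc
            rcases List.eq_nil_or_concat b with rfl | ⟨b', e', rfl⟩
            · exfalso
              obtain ⟨a', _, b', hb', rfl⟩ := Language.mem_mul.1 ha
              have : b' = [c.1] := hb'
              subst this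
              have h3 : x ++ [e] = a' ++ [c.1] := by simpa using hab.symm
              have := List.append_inj' h3 (by simp)
              have h4 : e = c.1 := by simpa using this.2
              exact c.2.1 (h4 ▸ he)
            · have h3 : x ++ [e] = (a ++ b') ++ [e'] := by simpa using hab.symm
              have h4 := List.append_inj' h3 (by simp)
              refine Or.inr ⟨c, Language.mem_mul.2 ⟨a, ha, b', fun d hd => hb d (by simp [hd]), h4.1.symm⟩⟩
        · rintro (⟨h1, h2⟩ | ⟨c, hc⟩)
          · refine Or.inl ⟨fun d hd => ?_, h2⟩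
            simp only [List.mem_append, List.mem_singleton] at hd
            rcases hd with hd | rfl
            · exact h1 d hd
            · exact he
          · obtain ⟨a, ha, b, hb, hab⟩ := Language.mem_mul.1 hc
            refine Or.inr ⟨c, Language.mem_mul.2 ⟨a, ha, b ++ [e], fun d hd => ?_, by simp [← hab]⟩⟩
            simp only [List.mem_append, List.mem_singleton] at hd
            rcases hd with hd | rfl
            · exact hb d hd
            · exact he
      · have : δ' (st x) e = tgt e := by simp only [δ', if_neg he]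
        rw [this]
        constructor
        · rintro (⟨h1, _⟩ | ⟨c, hc⟩)
          · exact absurd (h1 e (by simp)) he
          · obtain ⟨a, ha, b, hb, hab⟩ := Language.mem_mul.1 hc
            rcases List.eq_nil_or_concat b with rfl | ⟨b', e', rfl⟩
            · obtain ⟨a', _, b', hb', rfl⟩ := Language.mem_mul.1 ha
              have : b' = [c.1] := hb'
              subst this
              have h3 : x ++ [e] = a' ++ [c.1] := by simpa using hab.symm
              have := List.append_inj' h3 (by simp)
              have h4 : e = c.1 := by simpa using this.2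
              rw [h4]
              exact c.2.2
            · exfalso
              have h3 : x ++ [e] = (a ++ b') ++ [e'] := by simpa using hab.symm
              have h4 := List.append_inj' h3 (by simp)
              have h5 : e = e' := by simpa using h4.2
              exact he (h5 ▸ hb e' (by simp))
        · intro h
          refine Or.inr ⟨⟨e, he, h⟩, Language.mem_mul.2 ⟨x ++ [e], Language.mem_mul.2 ⟨x, trivial, [e], rfl, rfl⟩, [], by simp, by simp⟩⟩
  -- assemble
  have hBad : GenStarHeightLE (lang fun x : List α =>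
      ∃ i : {i : Q × α // δ i.1 i.2 ∉ U},
        x ∈ (lang fun x => st x = i.1.1) * ({[i.1.2]} : Language α) * (lang fun _ : List α => True)) 0 :=
    GenStarHeightLE.iUnion _ (fun i => ((hT i.1.1).mul (GenStarHeightLE.letter i.1.2 0)).mul (GenStarHeightLE.univ 0))
  refine (GenStarHeightLE.inf (P := fun x => ¬ ∃ i : {i : Q × α // δ i.1 i.2 ∉ U},
        x ∈ (lang fun x => st x = i.1.1) * ({[i.1.2]} : Language α) * (lang fun _ : List α => True))
      hBad.compl (hT q)).congr ?_
  intro x
  show ((¬ ∃ i : {i : Q × α // δ i.1 i.2 ∉ U},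
        x ∈ (lang fun x => st x = i.1.1) * ({[i.1.2]} : Language α) * (lang fun _ : List α => True)) ∧ st x = q)
      ↔ (stay δ U p x ∧ run δ p x = q)
  constructor
  · rintro ⟨h1, h2⟩
    have hs : stay δ U p x := by
      rw [hF4]
      intro u c v hx
      by_contra hc
      apply h1
      refine ⟨⟨(st u, c), hc⟩, Language.mem_mul.2 ⟨u ++ [c], Language.mem_mul.2 ⟨u, rfl, [c], rfl, rfl⟩, v, trivial, by simp [hx]⟩⟩
    exact ⟨hs, (hF3 x hs).trans h2⟩
  · rintro ⟨h1, h2⟩
    refine ⟨?_, (hF3 x h1).symm.trans h2⟩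
    rintro ⟨⟨⟨s, c⟩, hc⟩, hmem⟩
    obtain ⟨a, ha, v, _, rfl⟩ := Language.mem_mul.1 hmem
    obtain ⟨u, hu, b', hb', rfl⟩ := Language.mem_mul.1 ha
    have hb'' : b' = [c] := hb'
    subst hb''
    have hu' : st u = s := hu
    have := (hF4 _).1 h1 u c v (by simp)
    rw [hu'] at this
    exact hc this

end localLemma

section twoLayers

variable {Q : Type v} {δ : Q → α → Q}

theorem stay_of_closed {U₁ U₂ : Set Q}
    (hcl : ∀ s ∈ U₂, ∀ b, δ s b ∈ U₁ ∪ U₂ → δ s b ∈ U₂)
    (x : List α) (p : Q) (hp : p ∈ U₂) (h : stay δ (U₁ ∪ U₂) p x) : stay δ U₂ p x := by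
  induction x generalizing p with
  | nil => exact hp
  | cons c x ih =>
    have h1 : δ p c ∈ U₂ := by
      apply hcl p hp
      cases x with
      | nil => exact h.2
      | cons d y => exact h.2.1
    exact ⟨hp, ih _ h1 h.2⟩

theorem stay_mono {U U' : Set Q} (hU : U ⊆ U') (x : List α) (p : Q) (h : stay δ U p x) :
    stay δ U' p x := by
  induction x generalizing p with
  | nil => exact hU h
  | cons c x ih => exact ⟨hU h.1, ih _ h.2⟩

theorem sf_path_two [Finite Q] [Finite α] {U₁ U₂ : Set Q}
    (hcl : ∀ s ∈ U₂, ∀ b, δ s b ∈ U₁ ∪ U₂ → δ s b ∈ U₂)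
    (h₁ : ∀ p q, p ∈ U₁ → GenStarHeightLE (path δ U₁ p q) 0)
    (h₂ : ∀ p q, p ∈ U₂ → GenStarHeightLE (path δ U₂ p q) 0)
    (p q : Q) (hp : p ∈ U₁ ∪ U₂) : GenStarHeightLE (path δ (U₁ ∪ U₂) p q) 0 := by
  classical
  rcases hp with hp1 | hp2
  swap
  · -- starting in the upper layer
    refine (h₂ p q hp2).congr ?_
    intro x
    constructor
    · rintro ⟨h1, h2⟩
      exact ⟨stay_mono Set.subset_union_right x p h1, h2⟩
    · rintro ⟨h1, h2⟩
      exact ⟨stay_of_closed hcl x p hp2 h1, h2⟩
  · by_cases hp2 : p ∈ U₂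
    · refine (h₂ p q hp2).congr ?_
      intro x
      constructor
      · rintro ⟨h1, h2⟩
        exact ⟨stay_mono Set.subset_union_right x p h1, h2⟩
      · rintro ⟨h1, h2⟩
        exact ⟨stay_of_closed hcl x p hp2 h1, h2⟩
    · have hcross : GenStarHeightLE (lang fun x : List α =>
          ∃ i : {i : Q × α // i.1 ∈ U₁ ∧ δ i.1 i.2 ∈ U₂},
            x ∈ path δ U₁ p i.1.1 * ({[i.1.2]} : Language α) * path δ U₂ (δ i.1.1 i.1.2) q) 0 :=
        GenStarHeightLE.iUnion _ (fun i =>
          ((h₁ p i.1.1 hp1).mul (GenStarHeightLE.letter i.1.2 0)).mul (h₂ _ q i.2.2))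
      refine ((h₁ p q hp1).add hcross).congr ?_
      intro x
      simp only [Language.mem_add, mem_lang]
      constructor
      · rintro (⟨h1, h2⟩ | ⟨⟨⟨r, c⟩, hr, hc⟩, hmem⟩)
        · exact ⟨stay_mono Set.subset_union_left x p h1, h2⟩
        · obtain ⟨a, ha, v, hv, rfl⟩ := Language.mem_mul.1 hmem
          obtain ⟨u, hu, b', hb', rfl⟩ := Language.mem_mul.1 ha
          have hb'' : b' = [c] := hb'
          subst hb''
          obtain ⟨hu1, hu2⟩ := hu
          obtain ⟨hv1, hv2⟩ := hv
          simp only at hv1 hv2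
          constructor
          · rw [stay_append, stay_append]
            refine ⟨⟨stay_mono Set.subset_union_left u p hu1, ?_⟩, ?_⟩
            · simp only [stay, hu2]
              exact ⟨Or.inl hr, Or.inr hc⟩
            · simp only [run_append, hu2, run_cons, run_nil]
              exact stay_mono Set.subset_union_right v _ hv1
          · simp only [run_append, hu2, run_cons, run_nil, hv2]
      · intro hx
        -- structural induction on the word, generalizing the start state in the lower layer
        have key : ∀ (x : List α) (p : Q), p ∈ U₁ ∪ U₂ → p ∉ U₂ → stay δ (U₁ ∪ U₂) p x → run δ p x = q →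
            (stay δ U₁ p x ∧ run δ p x = q) ∨
            ∃ i : {i : Q × α // i.1 ∈ U₁ ∧ δ i.1 i.2 ∈ U₂},
              x ∈ path δ U₁ p i.1.1 * ({[i.1.2]} : Language α) * path δ U₂ (δ i.1.1 i.1.2) q := by
          intro x
          induction x with
          | nil =>
            intro p hp hp2 _ h
            left
            refine ⟨?_, h⟩
            rcases hp with hp | hp
            · exact hp
            · exact absurd hp hp2
          | cons c x ih =>
            intro p hp hp2 hs hr
            have hpU : p ∈ U₁ := by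
              rcases hp with hp | hp
              · exact hp
              · exact absurd hp hp2
            have hc : δ p c ∈ U₁ ∪ U₂ := by
              cases x with
              | nil => exact hs.2
              | cons d y => exact hs.2.1
            by_cases hc2 : δ p c ∈ U₂
            · right
              refine ⟨⟨(p, c), hpU, hc2⟩, Language.mem_mul.2 ⟨[c], Language.mem_mul.2 ⟨[], ⟨hpU, rfl⟩, [c], rfl, rfl⟩, x, ?_, rfl⟩⟩
              exact ⟨stay_of_closed hcl x _ hc2 hs.2, hr⟩
            · rcases ih (δ p c) hc hc2 hs.2 hr with ⟨h1, h2⟩ | ⟨i, hmem⟩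
              · exact Or.inl ⟨⟨hpU, h1⟩, h2⟩
              · right
                refine ⟨i, ?_⟩
                obtain ⟨a, ha, v, hv, rfl⟩ := Language.mem_mul.1 hmem
                obtain ⟨u, hu, b', hb', rfl⟩ := Language.mem_mul.1 ha
                refine Language.mem_mul.2 ⟨c :: u ++ b', Language.mem_mul.2 ⟨c :: u, ⟨⟨hpU, hu.1⟩, hu.2⟩, b', hb', rfl⟩, v, hv, by simp⟩
        exact key x p (Or.inl hp1) hp2 hx.1 hx.2

end twoLayers

section hub

variable {Q : Type v} [DecidableEq Q] (δ : Q → α → Q) (h : Q)

/-- Words leading from `p` to `q` whose run meets the hub `h` exactly `j` times after the start. -/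
def Y (p q : Q) (j : ℕ) : Language α := lang fun x => run δ p x = q ∧ ret δ h p x = j

theorem mem_Y {p q : Q} {j : ℕ} {x : List α} : x ∈ Y δ h p q j ↔ run δ p x = q ∧ ret δ h p x = j :=
  Iff.rfl

theorem ret_pos (p : Q) (x : List α) (hx : x ≠ []) (hr : run δ p x = h) : 1 ≤ ret δ h p x := by
  rcases List.eq_nil_or_concat' x with rfl | ⟨y, c, rfl⟩
  · exact absurd rfl hx
  · rw [run_snoc] at hr
    rw [ret_snoc, hr]
    simp

theorem Y_succ (p q : Q) (j : ℕ) : Y δ h p q (j + 1) = Y δ h p h 1 * Y δ h h q j := by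
  ext x
  rw [Language.mem_mul]
  constructor
  · rintro ⟨hx1, hx2⟩
    induction x generalizing p with
    | nil => simp [ret] at hx2
    | cons c x ih =>
      by_cases hc : δ p c = h
      · refine ⟨[c], ?_, x, ?_, rfl⟩
        · simp [mem_Y, ret, hc]
        · simp only [run_cons, ret, hc, if_true] at hx1 hx2
          exact ⟨hx1, by omega⟩
      · simp only [run_cons, ret, hc, if_false, zero_add] at hx1 hx2
        obtain ⟨u, hu, v, hv, rfl⟩ := ih (δ p c) hx1 hx2
        refine ⟨c :: u, ?_, v, hv, rfl⟩
        obtain ⟨hu1, hu2⟩ := hu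
        exact ⟨hu1, by simp [ret, hc, hu2]⟩
  · rintro ⟨u, ⟨hu1, hu2⟩, v, ⟨hv1, hv2⟩, rfl⟩
    refine ⟨?_, ?_⟩
    · rw [run_append, hu1, hv1]
    · rw [ret_append, hu1, hu2, hv2]
      omega

theorem Y_hub_zero : Y δ h h h 0 = 1 := by
  ext x
  rw [Language.mem_one]
  constructor
  · rintro ⟨hx1, hx2⟩
    by_contra hne
    have := ret_pos δ h h x hne hx1
    omega
  · rintro rfl
    exact ⟨rfl, rfl⟩

theorem Y_hub (q : Q) (j : ℕ) : Y δ h h q j = (Y δ h h h 1) ^ j * Y δ h h q 0 := by
  induction j with
  | zero => simp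
  | succ j ih => rw [Y_succ, ih, pow_succ', mul_assoc]

variable {δ h}

theorem stay_iff_ret (p : Q) (hp : p ≠ h) (x : List α) :
    stay δ {s | s ≠ h} p x ↔ ret δ h p x = 0 := by
  induction x generalizing p with
  | nil => simpa [stay, ret] using hp
  | cons c x ih =>
    simp only [stay, ret]
    by_cases hc : δ p c = h
    · simp only [hc, if_true]
      constructor
      · rintro ⟨_, h2⟩
        exfalso
        cases x with
        | nil => exact h2 rfl
        | cons d y => exact h2.1 rfl
      · intro h3
        omega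
    · simp only [hc, if_false, zero_add, ih _ hc]
      constructor
      · exact fun h2 => h2.2
      · exact fun h2 => ⟨hp, h2⟩

theorem hub_obs [Finite Q] [Finite α]
    (hSF : ∀ p q, p ≠ h → GenStarHeightLE (path δ {s | s ≠ h} p q) 0) (m : ℕ) (hm : 0 < m) (p : Q) :
    Obs 1 (fun x => (run δ p x, ret δ h p x % m)) := by
  classical
  -- `Y p q 0` has star height zero
  have hZ1 : ∀ p q, p ≠ h → GenStarHeightLE (Y δ h p q 0) 0 := by
    intro p q hp
    refine (hSF p q hp).congr ?_
    intro x
    show (stay δ {s | s ≠ h} p x ∧ run δ p x = q) ↔ (run δ p x = q ∧ ret δ h p x = 0)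
    rw [stay_iff_ret p hp]
    tauto
  have hZ2 : ∀ q, GenStarHeightLE (Y δ h h q 0) 0 := by
    intro q
    by_cases hq : q = h
    · subst hq
      rw [Y_hub_zero]
      exact GenStarHeightLE.one 0
    · have h1 : GenStarHeightLE (lang fun x : List α =>
          ∃ c : {c : α // δ h c ≠ h}, x ∈ ({[c.1]} : Language α) * Y δ h (δ h c.1) q 0) 0 :=
        GenStarHeightLE.iUnion _ (fun c => (GenStarHeightLE.letter c.1 0).mul (hZ1 _ q c.2))
      refine h1.congr ?_
      intro x
      constructor
      · rintro ⟨⟨c, hc⟩, hmem⟩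
        obtain ⟨u, hu, v, ⟨hv1, hv2⟩, rfl⟩ := Language.mem_mul.1 hmem
        have hu' : u = [c] := hu
        subst hu'
        simp only at hv1 hv2
        refine ⟨by simpa using hv1, by simp [ret, hc, hv2]⟩
      · rintro ⟨hx1, hx2⟩
        cases x with
        | nil => exact absurd hx1.symm hq
        | cons c x =>
          simp only [ret] at hx2
          have hc : δ h c ≠ h := by
            intro hc
            simp [hc] at hx2
          simp only [hc, if_false, zero_add] at hx2
          exact ⟨⟨c, hc⟩, Language.mem_mul.2 ⟨[c], rfl, x, ⟨hx1, hx2⟩, rfl⟩⟩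
  have hZ : ∀ p q, GenStarHeightLE (Y δ h p q 0) 0 := by
    intro p q
    by_cases hp : p = h
    · subst hp
      exact hZ2 q
    · exact hZ1 p q hp
  -- first returns
  have hO : ∀ p, GenStarHeightLE (Y δ h p h 1) 0 := by
    intro p
    have h1 : GenStarHeightLE (lang fun x : List α =>
        ∃ i : {i : Q × α // δ i.1 i.2 = h}, x ∈ Y δ h p i.1.1 0 * ({[i.1.2]} : Language α)) 0 :=
      GenStarHeightLE.iUnion _ (fun i => (hZ p i.1.1).mul (GenStarHeightLE.letter i.1.2 0))
    refine h1.congr ?_
    intro x
    constructor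
    · rintro ⟨⟨⟨r, d⟩, hrd⟩, hmem⟩
      obtain ⟨u, ⟨hu1, hu2⟩, v, hv, rfl⟩ := Language.mem_mul.1 hmem
      have hv' : v = [d] := hv
      subst hv'
      simp only at hu1 hu2 hrd
      refine ⟨?_, ?_⟩
      · rw [run_snoc, hu1, hrd]
      · rw [ret_snoc, hu2, hu1, hrd]
        simp
    · rintro ⟨hx1, hx2⟩
      rcases List.eq_nil_or_concat' x with rfl | ⟨y, d, rfl⟩
      · simp [ret] at hx2
      · rw [run_snoc] at hx1
        rw [ret_snoc, hx1] at hx2
        simp only [if_true] at hx2
        refine ⟨⟨(run δ p y, d), hx1⟩, Language.mem_mul.2 ⟨y, ⟨rfl, by omega⟩, [d], rfl, rfl⟩⟩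
  -- the main fibre
  rintro ⟨q, r⟩
  by_cases hrm : r < m
  swap
  · refine (GenStarHeightLE.zero 1).congr ?_
    intro x
    simp only [Language.notMem_zero, false_iff]
    intro hx
    have hx' : (run δ p x, ret δ h p x % m) = (q, r) := hx
    simp only [Prod.mk.injEq] at hx'
    exact hrm (hx'.2 ▸ Nat.mod_lt _ hm)
  set X := Y δ h h h 1 with hX
  have hX0 : GenStarHeightLE X 0 := hO h
  set r' := (r + m - 1) % m with hr'
  have hmain : GenStarHeightLE (Y δ h p h 1 * X ^ r' * (X ^ m)∗ * Y δ h h q 0) 1 :=
    ((((hO p).mono (Nat.zero_le 1)).mul ((hX0.pow r').mono (Nat.zero_le 1))).mul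
      ((hX0.pow m).star)).mul ((hZ h q).mono (Nat.zero_le 1))
  have hfirst : GenStarHeightLE (lang fun x : List α => r = 0 ∧ x ∈ Y δ h p q 0) 1 := by
    by_cases hr : r = 0
    · refine ((hZ p q).mono (Nat.zero_le 1)).congr ?_
      intro x
      simp [hr]
    · refine (GenStarHeightLE.zero 1).congr ?_
      intro x
      simp [hr, Language.notMem_zero]
  refine (hfirst.add hmain).congr ?_
  intro x
  simp only [Language.mem_add, mem_lang]
  have hsplit : x ∈ Y δ h p h 1 * X ^ r' * (X ^ m)∗ * Y δ h h q 0 ↔
      ∃ k, x ∈ Y δ h p q (r' + m * k + 1) := by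
    rw [mul_assoc, mul_assoc, Language.kstar_eq_iSup_pow]
    constructor
    · intro hx
      obtain ⟨u, hu, v, hv, rfl⟩ := Language.mem_mul.1 hx
      obtain ⟨a, ha, b, hb, rfl⟩ := Language.mem_mul.1 hv
      obtain ⟨c, hc, d, hd, rfl⟩ := Language.mem_mul.1 hb
      obtain ⟨k, hk⟩ := Language.mem_iSup.1 hc
      refine ⟨k, ?_⟩
      rw [Y_succ, Y_hub, pow_add, pow_mul]
      refine Language.mem_mul.2 ⟨u, hu, _, Language.mem_mul.2 ⟨a ++ c, Language.mem_mul.2 ⟨a, ha, c, hk, rfl⟩, d, hd, rfl⟩, ?_⟩
      simp [List.append_assoc]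
    · rintro ⟨k, hk⟩
      rw [Y_succ, Y_hub, pow_add, pow_mul] at hk
      obtain ⟨u, hu, v, hv, rfl⟩ := Language.mem_mul.1 hk
      obtain ⟨a, ha, d, hd, rfl⟩ := Language.mem_mul.1 hv
      obtain ⟨a', ha', c, hc, rfl⟩ := Language.mem_mul.1 ha
      refine Language.mem_mul.2 ⟨u, hu, _, Language.mem_mul.2 ⟨a', ha', _, Language.mem_mul.2 ⟨c, Language.mem_iSup.2 ⟨k, hc⟩, d, hd, rfl⟩, rfl⟩, ?_⟩
      simp [List.append_assoc]
  rw [hsplit]
  have hr'val : (r = 0 ∧ r' + 1 = m) ∨ (r ≠ 0 ∧ r' + 1 = r) := by
    by_cases hr : r = 0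
    · left
      refine ⟨hr, ?_⟩
      have : r' = m - 1 := by
        rw [hr', hr, Nat.zero_add]
        exact Nat.mod_eq_of_lt (by omega)
      omega
    · right
      refine ⟨hr, ?_⟩
      have : r' = r - 1 := by
        rw [hr']
        have h1 : r + m - 1 = (r - 1) + m := by omega
        rw [h1, Nat.add_mod_right]
        exact Nat.mod_eq_of_lt (by omega)
      omega
  constructor
  · rintro (⟨hr, hx1, hx2⟩ | ⟨k, hx1, hx2⟩)
    · show (run δ p x, ret δ h p x % m) = (q, r)
      rw [hx1, hx2]
      simp [hr]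
    · show (run δ p x, ret δ h p x % m) = (q, r)
      rw [hx1, hx2]
      simp only [Prod.mk.injEq, true_and]
      rcases hr'val with ⟨hr, h1⟩ | ⟨hr, h1⟩
      · have : r' + m * k + 1 = m * (k + 1) := by
          rw [Nat.mul_add]
          omega
        rw [this, Nat.mul_mod_right, hr]
      · have : r' + m * k + 1 = r + m * k := by omega
        rw [this, Nat.add_mul_mod_self_left]
        exact Nat.mod_eq_of_lt hrm
  · intro hx
    have hx' : (run δ p x, ret δ h p x % m) = (q, r) := hx
    simp only [Prod.mk.injEq] at hx'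
    obtain ⟨hx1, hx2⟩ := hx'
    have hdiv := Nat.div_add_mod (ret δ h p x) m
    rw [hx2] at hdiv
    rcases hr'val with ⟨hr, h1⟩ | ⟨hr, h1⟩
    · by_cases hj : ret δ h p x = 0
      · exact Or.inl ⟨hr, hx1, hj⟩
      · right
        have hk : ret δ h p x / m ≠ 0 := by
          intro h0
          rw [h0, hr] at hdiv
          simp at hdiv
          omega
        refine ⟨ret δ h p x / m - 1, hx1, ?_⟩
        obtain ⟨k, hk'⟩ := Nat.exists_eq_succ_of_ne_zero hk
        rw [hk'] at hdiv ⊢
        simp only [Nat.succ_sub_one]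
        rw [Nat.succ_eq_add_one, Nat.mul_add] at hdiv
        omega
    · right
      refine ⟨ret δ h p x / m, hx1, ?_⟩
      omega

theorem hub_obs_fin [Finite Q] [Finite α]
    (hSF : ∀ p q, p ≠ h → GenStarHeightLE (path δ {s | s ≠ h} p q) 0) (m : ℕ) (hm : 0 < m) (p : Q) :
    Obs 1 (fun x => (run δ p x, (⟨ret δ h p x % m, Nat.mod_lt _ hm⟩ : Fin m))) := by
  rintro ⟨q, r⟩
  refine (hub_obs hSF m hm p (q, r.1)).congr ?_
  intro x
  show (run δ p x, ret δ h p x % m) = (q, r.1) ↔ (run δ p x, (⟨ret δ h p x % m, Nat.mod_lt _ hm⟩ : Fin m)) = (q, r)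
  simp only [Prod.mk.injEq, Fin.ext_iff]

theorem hub_obs_run [Finite Q] [Finite α]
    (hSF : ∀ p q, p ≠ h → GenStarHeightLE (path δ {s | s ≠ h} p q) 0) (p : Q) :
    Obs 1 (run δ p : List α → Q) :=
  (hub_obs_fin hSF 1 Nat.one_pos p).map Prod.fst

theorem hub_obs_ret [Finite Q] [Finite α]
    (hSF : ∀ p q, p ≠ h → GenStarHeightLE (path δ {s | s ≠ h} p q) 0) (m : ℕ) (hm : 0 < m) (p : Q) :
    Obs 1 (fun x : List α => (⟨ret δ h p x % m, Nat.mod_lt _ hm⟩ : Fin m)) :=
  (hub_obs_fin hSF m hm p).map Prod.snd


end hub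

end Vale.Agent.P329
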