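import Vale.Agent.P329.Good
import Mathlib.Data.ZMod.Basic
import Mathlib.Algebra.BigOperators.Group.Finset.Basic
import Mathlib.Data.Fintype.Pigeonhole
import Mathlib.Data.Int.ModEq
import Mathlib.Tactic.Ring
import Mathlib.Tactic.Linarith

namespace Vale.Agent.P329

variable {A Q : Type}

open scoped Classical

/-- The number of counted transitions along a run. -/
noncomputable def gain (act : A → Q → Q) (e : A → Q → Prop) (q : Q) : List A → ℕ
  | [] => 0
  | a :: w => (if e a q then 1 else 0) + gain act e (act a q) w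

variable (act : A → Q → Q) (e : A → Q → Prop)

@[simp] theorem gain_nil (q : Q) : gain act e q [] = 0 := rfl

theorem gain_cons (q : Q) (a : A) (w : List A) :
    gain act e q (a :: w) = (if e a q then 1 else 0) + gain act e (act a q) w := rfl

theorem gain_append (q : Q) (v w : List A) :
    gain act e q (v ++ w) = gain act e q v + gain act e (run act q v) w := by
  induction v generalizing q with
  | nil => simp
  | cons a v ih =>
    simp only [List.cons_append, gain_cons, ih, run_cons]
    omega

/-- The cover of an automaton by a cyclic counter of the counted transitions. -/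
noncomputable def cact (M : ℕ) (a : A) (s : Q × ZMod M) : Q × ZMod M :=
  (act a s.1, s.2 + if e a s.1 then 1 else 0)

theorem run_cact (M : ℕ) (w : List A) (q : Q) (h : ZMod M) :
    run (cact act e M) (q, h) w = (run act q w, h + (gain act e q w : ZMod M)) := by
  induction w generalizing q h with
  | nil => simp
  | cons a w ih =>
    rw [run_cons, run_cons, gain_cons]
    simp only [cact]
    rw [ih]
    congr 1
    push_cast
    split_ifs <;> ring

/-- Landing: every counted transition ends at the root. -/
theorem exists_prefix_gain (r : Q) (hl : ∀ a q, e a q → act a q = r) (k : ℕ) (hk : 1 ≤ k)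
    (w : List A) (q : Q) (hg : k ≤ gain act e q w) :
    ∃ v, v <+: w ∧ gain act e q v = k ∧ run act q v = r := by
  induction w generalizing q k with
  | nil => simp at hg; omega
  | cons a w ih =>
    rw [gain_cons] at hg
    by_cases he : e a q
    · rw [if_pos he] at hg
      by_cases hk1 : k = 1
      · subst hk1
        refine ⟨[a], by simp, ?_, hl a q he⟩
        simp [gain_cons, he]
      · obtain ⟨v, hv, hv1, hv2⟩ := ih (k - 1) (by omega) (act a q) (by omega)
        refine ⟨a :: v, List.cons_prefix_cons.2 ⟨rfl, hv⟩, ?_, hv2⟩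
        rw [gain_cons, if_pos he, hv1]
        omega
    · rw [if_neg he] at hg
      obtain ⟨v, hv, hv1, hv2⟩ := ih k hk (act a q) (by omega)
      refine ⟨a :: v, List.cons_prefix_cons.2 ⟨rfl, hv⟩, ?_, hv2⟩
      rw [gain_cons, if_neg he, hv1]
      omega

/-- Every nontrivial cycle of a word has a counted transition. -/
def CountsCycles : Prop :=
  ∀ (u : List A) (x : Q) (c : ℕ), 0 < c → (fun y => run act y u)^[c] x = x →
    gain act e x (wpow u c) = 0 → run act x u = x

theorem gain_wpow_mul (u : List A) (x : Q) (c : ℕ) (hx : (fun y => run act y u)^[c] x = x)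
    (K : ℕ) : gain act e x (wpow u (c * K)) = K * gain act e x (wpow u c) := by
  induction K with
  | zero => simp
  | succ K ih =>
    rw [Nat.mul_succ, Nat.add_comm, wpow_add, gain_append, run_wpow, hx, ih]
    ring

theorem gain_all_zero (u : List A) (x : Q) (c : ℕ) (hc : 0 < c)
    (hx : (fun y => run act y u)^[c] x = x) (hg : gain act e x (wpow u c) = 0) (K : ℕ) :
    gain act e x (wpow u K) = 0 := by
  have h1 : gain act e x (wpow u (c * K)) = 0 := by
    rw [gain_wpow_mul act e u x c hx K, hg, Nat.mul_zero]
  have hle : K ≤ c * K := Nat.le_mul_of_pos_left K hc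
  obtain ⟨L, hL⟩ := Nat.exists_eq_add_of_le hle
  rw [hL, wpow_add, gain_append] at h1
  omega

/-- A counted transition somewhere inside a power of a word contradicts vanishing gain. -/
theorem gain_zero_letter (u1 u2 : List A) (s : A) (x : Q) (K : ℕ)
    (h0 : ∀ K, gain act e x (wpow (u1 ++ s :: u2) K) = 0) :
    ¬ e s (run act (run act x (wpow (u1 ++ s :: u2) K)) u1) := by
  intro he
  have h1 := h0 (K + 1)
  rw [wpow_add, gain_append] at h1
  have h2 : wpow (u1 ++ s :: u2) 1 = u1 ++ s :: u2 := by simp [wpow_succ]
  rw [h2, gain_append, gain_cons, if_pos he] at h1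
  omega

theorem exists_periodic [Finite Q] (f : Q → Q) (q : Q) :
    ∃ n c, 0 < c ∧ f^[c] (f^[n] q) = f^[n] q := by
  obtain ⟨a, b, hab, h⟩ := Finite.exists_ne_map_eq_of_infinite (fun n : ℕ => f^[n] q)
  rcases lt_or_gt_of_ne hab with hlt | hlt
  · refine ⟨a, b - a, by omega, ?_⟩
    rw [← Function.iterate_add_apply, Nat.sub_add_cancel hlt.le, h]
  · refine ⟨b, a - b, by omega, ?_⟩
    rw [← Function.iterate_add_apply, Nat.sub_add_cancel hlt.le, h]

theorem exists_cast_eq (M : ℕ) [NeZero M] (z : ZMod M) :
    ∃ k : ℕ, 1 ≤ k ∧ k ≤ M ∧ (k : ZMod M) = z := by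
  by_cases hz : z.val = 0
  · refine ⟨M, Nat.one_le_iff_ne_zero.2 (NeZero.ne M), le_rfl, ?_⟩
    rw [ZMod.natCast_self]
    exact ((ZMod.val_eq_zero z).1 hz).symm
  · refine ⟨z.val, by omega, (ZMod.val_lt z).le, ZMod.natCast_zmod_val z⟩

/-- The cover of an automaton whose cycles are all counted is good. -/
theorem cover_good [Finite Q] (r : Q) (hl : ∀ a q, e a q → act a q = r)
    (H : CountsCycles act e) (M : ℕ) [NeZero M] : Good (cact act e M) (r, 0) := by
  rintro u ⟨q, h⟩
  obtain ⟨n, c, hc, hx⟩ := exists_periodic (fun y => run act y u) q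
  set x := (fun y => run act y u)^[n] q with hxdef
  have hiter : (fun y => run (cact act e M) y u)^[n] (q, h) =
      (x, h + (gain act e q (wpow u n) : ZMod M)) := by
    rw [← run_wpow, run_cact, run_wpow]
  by_cases hg : gain act e x (wpow u c) = 0
  · left
    refine ⟨n, ?_⟩
    rw [hiter, run_cact, H u x c hc hx hg]
    have hgu : gain act e x u = 0 := by
      obtain ⟨c', rfl⟩ : ∃ c', c = c' + 1 := ⟨c - 1, by omega⟩
      rw [wpow_succ, gain_append] at hg
      omega
    simp [hgu]
  · right
    have hpos : M ≤ gain act e x (wpow u (c * M)) := by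
      rw [gain_wpow_mul act e u x c hx M]
      exact Nat.le_mul_of_pos_right _ (Nat.pos_of_ne_zero hg)
    obtain ⟨k, hk1, hk2, hk3⟩ := exists_cast_eq M (-(h + (gain act e q (wpow u n) : ZMod M)))
    obtain ⟨v, hv, hv1, hv2⟩ := exists_prefix_gain act e r hl k hk1 _ x (hk2.trans hpos)
    refine ⟨n + c * M, wpow u n ++ v, ?_, ?_⟩
    · rw [wpow_add]
      exact (List.prefix_append_right_inj _).2 hv
    · rw [run_append, run_wpow, hiter, run_cact, hv1, hk3, hv2]
      simp

/-- The state and the counter of a cover with counted cycles are measurable. -/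
theorem cover_meas [Finite Q] [Finite A] (r : Q) (hl : ∀ a q, e a q → act a q = r)
    (H : CountsCycles act e) (M : ℕ) [NeZero M] (x0 : Q) :
    Meas 1 (fun w : List A => (run act x0 w, (gain act e x0 w : ZMod M))) := by
  rintro ⟨q, m⟩
  have := good_path_dfn (cact act e M) (r, 0) (cover_good act e r hl H M) (x0, 0) (q, m)
  refine this.congr (fun w => ?_)
  rw [run_cact, zero_add]

/-- Integer functions of words all of whose residues are measurable. -/
def CM {S : Type} (f : List S → ℤ) : Prop :=
  ∀ (M : ℕ) [NeZero M], Meas 1 (fun x => ((f x : ℤ) : ZMod M))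

namespace CM

variable {S : Type} {f g : List S → ℤ}

theorem congr (hf : CM f) (h : ∀ x, f x = g x) : CM g := by
  have : f = g := funext h
  rwa [← this]

theorem add (hf : CM f) (hg : CM g) : CM (fun x => f x + g x) := by
  intro M _
  refine ((hf M).pair (hg M)).of_det (fun x y hxy => ?_)
  simp only [Prod.mk.injEq] at hxy
  push_cast
  rw [hxy.1, hxy.2]

theorem sub (hf : CM f) (hg : CM g) : CM (fun x => f x - g x) := by
  intro M _
  refine ((hf M).pair (hg M)).of_det (fun x y hxy => ?_)
  simp only [Prod.mk.injEq] at hxy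
  push_cast
  rw [hxy.1, hxy.2]

theorem of_meas {β : Type} [Finite β] {F : List S → β} (hF : ∀ (M : ℕ) [NeZero M],
    Meas 1 F) (G : β → ℤ) : CM (fun x => G (F x)) := by
  intro M _
  exact (hF M).of_det (fun x y hxy => by simp only [hxy])

theorem zero : CM (S := S) (fun _ => 0) := by
  intro M _ b
  exact (Dfn.const (((0 : ℤ) : ZMod M) = b)).congr (fun x => Iff.rfl)

theorem sum {ι : Type} (s : Finset ι) {F : ι → List S → ℤ} (hF : ∀ i ∈ s, CM (F i)) :
    CM (fun x => ∑ i ∈ s, F i x) := by
  induction s using Finset.induction_on with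
  | empty => simpa using zero
  | insert a s ha ih =>
    have h1 := hF a (by simp)
    have h2 := ih (fun i hi => hF i (by simp [hi]))
    refine (h1.add h2).congr (fun x => ?_)
    rw [Finset.sum_insert ha]

/-- Division by a nonzero constant. -/
theorem of_mul (k : ℕ) (hk : k ≠ 0) (hf : CM (fun x => (k : ℤ) * f x)) : CM f := by
  intro M _
  have : NeZero (k * M) := ⟨Nat.mul_ne_zero hk (NeZero.ne M)⟩
  refine (hf (k * M)).of_det (fun x y hxy => ?_)
  have h1 : ((k : ℤ) * f x : ℤ) ≡ (k : ℤ) * f y [ZMOD ((k * M : ℕ) : ℤ)] :=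
    (ZMod.intCast_eq_intCast_iff _ _ _).1 hxy
  have h2 : f x ≡ f y [ZMOD (M : ℤ)] := by
    have hk' : (k : ℤ) ≠ 0 := by exact_mod_cast hk
    push_cast at h1
    exact Int.ModEq.mul_left_cancel' hk' h1
  exact (ZMod.intCast_eq_intCast_iff _ _ _).2 h2

/-- Division by a nonzero integer constant. -/
theorem of_int_mul (k : ℤ) (hk : k ≠ 0) (hf : CM (fun x => k * f x)) : CM f := by
  have h1 : CM (fun x => ((k.natAbs : ℕ) : ℤ) * f x) := by
    intro M _
    refine (hf M).of_det (fun x y hxy => ?_)
    rcases Int.natAbs_eq k with h | h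
    · rw [← h]
      exact hxy
    · have hk2 : ((k.natAbs : ℕ) : ℤ) = -k := by omega
      rw [hk2]
      push_cast at hxy ⊢
      rw [neg_mul, neg_mul, hxy]
  exact of_mul k.natAbs (Int.natAbs_ne_zero.2 hk) h1

/-- Multiplication by an integer constant. -/
theorem mul_const (hf : CM f) (k : ℤ) : CM (fun x => k * f x) := by
  intro M _
  refine (hf M).of_det (fun x y hxy => ?_)
  push_cast
  rw [hxy]

end CM

/-- The counter of counted transitions has measurable residues. -/
theorem gain_CM [Finite Q] [Finite A] (r : Q) (hl : ∀ a q, e a q → act a q = r)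
    (H : CountsCycles act e) (x0 : Q) : CM (fun w : List A => (gain act e x0 w : ℤ)) := by
  intro M _
  refine (cover_meas act e r hl H M x0).of_det (fun x y hxy => ?_)
  simp only [Prod.mk.injEq] at hxy
  push_cast
  exact hxy.2

/-- The final state in a cover with counted cycles is measurable. -/
theorem state_meas [Finite Q] [Finite A] (r : Q) (hl : ∀ a q, e a q → act a q = r)
    (H : CountsCycles act e) (x0 : Q) : Meas 1 (fun w : List A => run act x0 w) := by
  refine (cover_meas act e r hl H 1 x0).of_det (fun x y hxy => ?_)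
  simp only [Prod.mk.injEq] at hxy
  exact hxy.1

end Vale.Agent.P329
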