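import Mathlib.Computability.Language

open Computability

namespace Vale.Agent.P329

universe u

/-- Generalized regular expressions over the alphabet `α`: the constants `0`, `1`, the letters,
union, concatenation, complement and Kleene star. -/
inductive GenRegExp (α : Type u) : Type u
  | zero : GenRegExp α
  | one : GenRegExp α
  | letter (a : α) : GenRegExp α
  | plus (P Q : GenRegExp α) : GenRegExp α
  | concat (P Q : GenRegExp α) : GenRegExp α
  | compl (P : GenRegExp α) : GenRegExp α
  | star (P : GenRegExp α) : GenRegExp α

namespace GenRegExp

variable {α : Type u}

/-- The language denoted by an expression; complement is taken in the set of all words. -/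
def denote : GenRegExp α → Language α
  | zero => 0
  | one => 1
  | letter a => {[a]}
  | plus P Q => denote P + denote Q
  | concat P Q => denote P * denote Q
  | compl P => (denote P)ᶜ
  | star P => (denote P)∗

/-- The star height of an expression: only the Kleene star increases it. -/
def starHeight : GenRegExp α → ℕ
  | zero => 0
  | one => 0
  | letter _ => 0
  | plus P Q => max (starHeight P) (starHeight Q)
  | concat P Q => max (starHeight P) (starHeight Q)
  | compl P => starHeight P
  | star P => starHeight P + 1

end GenRegExp

/-- `L` has generalized star height at most `k`: some generalized regular expression of
star height at most `k` denotes `L`. -/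
def GenStarHeightLE {α : Type u} (L : Language α) (k : ℕ) : Prop :=
  ∃ E : GenRegExp α, E.starHeight ≤ k ∧ E.denote = L

end Vale.Agent.P329
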