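import Mathlib.Computability.Language

/-!
Generalized regular expressions over an alphabet, their semantics and star height.
-/

open scoped Computability

namespace Vale.Agent.P329

/-- Generalized regular expressions over the alphabet `S`: the constants `0`, `1`, the letters,
union, concatenation, complement and Kleene star. -/
inductive GExp (S : Type) : Type
  | zero : GExp S
  | one : GExp S
  | letter : S → GExp S
  | add : GExp S → GExp S → GExp S
  | mul : GExp S → GExp S → GExp S
  | compl : GExp S → GExp S
  | star : GExp S → GExp S

namespace GExp

variable {S : Type}

/-- The language denoted by a generalized regular expression; complement is taken in all words. -/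
def lang : GExp S → Language S
  | zero => 0
  | one => 1
  | letter a => {[a]}
  | add P Q => P.lang + Q.lang
  | mul P Q => P.lang * Q.lang
  | compl P => (P.lang)ᶜ
  | star P => (P.lang)∗

/-- The star height of a generalized regular expression. -/
def height : GExp S → ℕ
  | zero => 0
  | one => 0
  | letter _ => 0
  | add P Q => max P.height Q.height
  | mul P Q => max P.height Q.height
  | compl P => P.height
  | star P => P.height + 1

end GExp

end Vale.Agent.P329
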