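import Vale.Agent.P329.GroupStep
import Mathlib.GroupTheory.QuotientGroup.Basic
import Mathlib.GroupTheory.OrderOfElement
import Mathlib.GroupTheory.Coset.Card
import Mathlib.Algebra.Group.Subgroup.ZPowers.Basic
import Mathlib.Algebra.BigOperators.Ring.Finset

namespace Vale.Agent.P329

open scoped Classical

section Maps

variable {S T T' : Type} [Group T] [Group T'] [Fintype T]

/-- Counters push forward along group homomorphisms. -/
theorem C_map (π : S → T) (ψ : T →* T') (κ : T') (a : S) (t : T) (x : List S)
    [DecidablePred (fun u => ψ u = κ)] :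
    C (fun s => ψ (π s)) κ a (ψ t) x =
      ∑ u ∈ Finset.univ.filter (fun u => ψ u = κ), C π u a t x := by
  induction x generalizing t with
  | nil => simp [C]
  | cons s x ih =>
    simp only [C]
    rw [← map_mul, ih, Finset.sum_add_distrib]
    congr 1
    by_cases hs : s = a
    · subst hs
      by_cases hk : ψ t = κ
      · rw [Finset.sum_eq_single t]
        · simp [hk]
        · intro b _ hb
          simp [Ne.symm hb]
        · intro h
          exact absurd (Finset.mem_filter.2 ⟨Finset.mem_univ t, hk⟩) h
      · rw [Finset.sum_eq_zero]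
        · simp [hk]
        · intro u hu
          have hu' : ψ u = κ := (Finset.mem_filter.1 hu).2
          have : t ≠ u := by
            rintro rfl
            exact hk hu'
          simp [this]
    · simp [hs]

end Maps

section Elem

variable {T : Type} [CommGroup T] [Fintype T]

/-- The averaging identity on a finite abelian group of prime exponent. -/
theorem sum_lines (p : ℕ) (hp : p.Prime) (hexp : ∀ v : T, v ^ p = 1) (N : T → ℤ) (q : T) :
    ∑ v ∈ Finset.univ.filter (fun v : T => v ≠ 1), ∑ k ∈ Finset.range p, N (q * v ^ k) =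
      ((Fintype.card T : ℤ) - p) * N q + ((p : ℤ) - 1) * ∑ u : T, N u := by
  -- each nonzero power is a bijection
  have hbij : ∀ k, k < p → k ≠ 0 → ∑ v : T, N (q * v ^ k) = ∑ u : T, N u := by
    intro k hk' hk0
    have hinj : Function.Injective (fun v : T => q * v ^ k) := by
      intro v w hvw
      have h1 : v ^ k = w ^ k := mul_left_cancel hvw
      have h2 : (v * w⁻¹) ^ k = 1 := by
        rw [mul_pow, inv_pow, h1, mul_inv_cancel]
      have h3 : (v * w⁻¹) ^ p = 1 := hexp _
      have h4 : orderOf (v * w⁻¹) ∣ Nat.gcd p k :=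
        Nat.dvd_gcd (orderOf_dvd_of_pow_eq_one h3) (orderOf_dvd_of_pow_eq_one h2)
      have hco : Nat.gcd p k = 1 :=
        (Nat.Prime.coprime_iff_not_dvd hp).2 (Nat.not_dvd_of_pos_of_lt (Nat.pos_of_ne_zero hk0) hk')
      rw [hco, Nat.dvd_one, orderOf_eq_one_iff] at h4
      exact mul_inv_eq_one.1 h4
    exact Function.Bijective.sum_comp (Finite.injective_iff_bijective.1 hinj) N
  have hsplit : ∀ k, k < p → k ≠ 0 →
      ∑ v ∈ Finset.univ.filter (fun v : T => v ≠ 1), N (q * v ^ k) = ∑ u : T, N u - N q := by
    intro k hk hk0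
    have h1 := Finset.sum_filter_add_sum_filter_not (Finset.univ : Finset T) (fun v : T => v ≠ 1)
      (fun v => N (q * v ^ k))
    have h2 : Finset.univ.filter (fun v : T => ¬ v ≠ 1) = {1} := by
      ext v
      simp
    rw [h2, Finset.sum_singleton, hbij k hk hk0] at h1
    simp only [one_pow, mul_one] at h1
    linarith
  rw [Finset.sum_comm]
  obtain ⟨p', rfl⟩ : ∃ p', p = p' + 1 := ⟨p - 1, by have := hp.pos; omega⟩
  rw [Finset.sum_range_succ']
  have h0 : ∑ v ∈ Finset.univ.filter (fun v : T => v ≠ 1), N (q * v ^ 0) =
      ((Fintype.card T : ℤ) - 1) * N q := by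
    simp only [pow_zero, mul_one, Finset.sum_const, nsmul_eq_mul]
    congr 1
    have : (Finset.univ.filter (fun v : T => v ≠ 1)).card = Fintype.card T - 1 := by
      rw [Finset.filter_ne', Finset.card_erase_of_mem (Finset.mem_univ _), Finset.card_univ]
    rw [this, Nat.cast_sub Fintype.card_pos]
    simp
  have h1 : ∑ k ∈ Finset.range p', ∑ v ∈ Finset.univ.filter (fun v : T => v ≠ 1),
      N (q * v ^ (k + 1)) = (p' : ℤ) * (∑ u : T, N u - N q) := by
    rw [Finset.sum_congr rfl (fun k hk => hsplit (k + 1) (by
      have := Finset.mem_range.1 hk; omega) (by omega))]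
    simp only [Finset.sum_const, Finset.card_range, nsmul_eq_mul]
  rw [h0, h1]
  push_cast
  ring

/-- The fibre of the quotient by the cyclic subgroup generated by `v`. -/
theorem sum_fiber (p : ℕ) (hp : p.Prime) (hexp : ∀ v : T, v ^ p = 1) (N : T → ℤ) (q v : T)
    (hv : v ≠ 1) :
    ∑ u ∈ Finset.univ.filter (fun u : T => (QuotientGroup.mk u : T ⧸ Subgroup.zpowers v) =
      QuotientGroup.mk q), N u = ∑ k ∈ Finset.range p, N (q * v ^ k) := by
  have : Fact p.Prime := ⟨hp⟩
  have hord : orderOf v = p := orderOf_eq_prime (hexp v) hv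
  have hfib : Finset.univ.filter (fun u : T => (QuotientGroup.mk u : T ⧸ Subgroup.zpowers v) =
      QuotientGroup.mk q) = (Finset.range p).image (fun k => q * v ^ k) := by
    ext u
    simp only [Finset.mem_filter, Finset.mem_univ, true_and, Finset.mem_image, Finset.mem_range]
    rw [eq_comm, QuotientGroup.eq]
    constructor
    · intro h
      have h1 := (mem_zpowers_iff_mem_range_orderOf).1 h
      rw [hord] at h1
      obtain ⟨k, hk, hk'⟩ := Finset.mem_image.1 h1
      exact ⟨k, Finset.mem_range.1 hk, by rw [hk']; simp⟩
    · rintro ⟨k, hk, rfl⟩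
      simp
  rw [hfib, Finset.sum_image]
  intro a ha b hb hab
  have h1 : v ^ a = v ^ b := mul_left_cancel hab
  have h2 := pow_injOn_Iio_orderOf (x := v)
  rw [hord] at h2
  exact h2 (by simpa using ha) (by simpa using hb) h1

end Elem

section Main

variable {S : Type} [Fintype S]

/-- All counters over a finite abelian group of prime exponent have measurable residues. -/
theorem C_elem_CM (p : ℕ) (hp : p.Prime) : ∀ (n : ℕ) (T : Type) [CommGroup T] [Finite T],
    Nat.card T = n → (∀ v : T, v ^ p = 1) → ∀ (π : S → T) (j : T) (a : S), CM (C π j a 1) := by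
  intro n
  induction n using Nat.strong_induction_on with
  | _ n ih =>
    intro T _ _ hn hexp π j a
    have : Fintype T := Fintype.ofFinite T
    by_cases hcard : Nat.card T = p
    · -- prime order: the basic case
      have : Fact p.Prime := ⟨hp⟩
      have hgen : ∀ g h : T, g ≠ 1 → ∃ k : ℕ, g ^ k = h := by
        intro g h hg
        exact (Submonoid.mem_powers_iff _ _).1 (mem_powers_of_prime_card hcard hg)
      exact C_CM hgen j a
    · have hc : (Fintype.card T : ℤ) - p ≠ 0 := by
        rw [← Nat.card_eq_fintype_card]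
        intro h
        apply hcard
        have : ((Nat.card T : ℕ) : ℤ) = p := by linarith
        exact_mod_cast this
      -- the sum over the quotients by cyclic subgroups
      have h1 : CM (fun x => ∑ v ∈ Finset.univ.filter (fun v : T => v ≠ 1),
          C (fun s => (QuotientGroup.mk (π s) : T ⧸ Subgroup.zpowers v)) (QuotientGroup.mk j) a 1 x) := by
        refine CM.sum _ (fun v hv => ?_)
        have hv1 : v ≠ 1 := (Finset.mem_filter.1 hv).2
        have hlt : Nat.card (T ⧸ Subgroup.zpowers v) < n := by
          have h2 := Subgroup.card_eq_card_quotient_mul_card_subgroup (Subgroup.zpowers v)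
          rw [hn] at h2
          have hpos : 0 < n := by
            rw [← hn]; exact Nat.card_pos
          have h3 : 1 < Nat.card (Subgroup.zpowers v) := by
            rw [Nat.card_zpowers]
            have := orderOf_eq_prime (p := p) (hp := ⟨hp⟩) (hexp v) hv1
            rw [this]
            exact hp.one_lt
          have h4 : 0 < Nat.card (T ⧸ Subgroup.zpowers v) := Nat.card_pos
          rw [h2]
          exact lt_mul_of_one_lt_right h4 h3
        refine ih _ hlt _ rfl (fun κ => ?_) _ _ _
        obtain ⟨u, rfl⟩ := QuotientGroup.mk_surjective κ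
        rw [← QuotientGroup.mk_pow, hexp]
        rfl
      have h2 : CM (fun x : List S => ((gain (fun _ _ => ()) (fun s _ => s = a) () x : ℕ) : ℤ)) :=
        gain_CM _ _ () (fun _ _ _ => rfl) (by
          intro u x c _ _ _
          rfl) ()
      have h3 : CM (fun x => ((Fintype.card T : ℤ) - p) * C π j a 1 x) := by
        refine (h1.sub (h2.mul_const ((p : ℤ) - 1))).congr (fun x => ?_)
        have h4 : ∀ v ∈ Finset.univ.filter (fun v : T => v ≠ 1),
            C (fun s => (QuotientGroup.mk (π s) : T ⧸ Subgroup.zpowers v)) (QuotientGroup.mk j) a 1 x =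
            ∑ k ∈ Finset.range p, C π (j * v ^ k) a 1 x := by
          intro v hv
          have hv1 : v ≠ 1 := (Finset.mem_filter.1 hv).2
          have h5 := C_map π (QuotientGroup.mk' (Subgroup.zpowers v)) (QuotientGroup.mk j) a 1 x
          rw [map_one] at h5
          exact Eq.trans h5 (sum_fiber p hp hexp (fun u => C π u a 1 x) j v hv1)
        rw [Finset.sum_congr rfl h4,
          sum_lines p hp hexp (fun u => C π u a 1 x) j, sum_C]
        ring
      exact CM.of_int_mul _ hc h3

/-- Flow conservation for counters: departures minus arrivals at a group element. -/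
theorem flow {T : Type} [Group T] [Fintype T] (π : S → T) (j t : T) (x : List S) :
    (∑ a : S, (C π j a t x - C π (j * (π a)⁻¹) a t x)) =
      (if t = j then 1 else 0) - (if t * wt π x = j then 1 else 0) := by
  induction x generalizing t with
  | nil => simp [C]
  | cons s x ih =>
    have h1 : ∀ a : S, C π j a t (s :: x) - C π (j * (π a)⁻¹) a t (s :: x) =
        (if s = a ∧ t = j then 1 else 0) - (if s = a ∧ t * π s = j then 1 else 0) +
          (C π j a (t * π s) x - C π (j * (π a)⁻¹) a (t * π s) x) := by
      intro a
      simp only [C]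
      by_cases hs : s = a
      · subst hs
        have h2 : (t = j * (π s)⁻¹) ↔ t * π s = j := by
          constructor
          · rintro rfl
            simp
          · rintro rfl
            simp
        by_cases h3 : t = j <;> by_cases h4 : t * π s = j <;>
          simp [h3, h4, h2] <;> simp_all <;> omega
      · simp [hs]
    simp only [h1]
    rw [Finset.sum_add_distrib, ih, Finset.sum_sub_distrib]
    have h5 : (∑ a : S, if s = a ∧ t = j then (1 : ℤ) else 0) = if t = j then 1 else 0 := by
      by_cases h : t = j <;> simp [h]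
    have h6 : (∑ a : S, if s = a ∧ t * π s = j then (1 : ℤ) else 0) =
        if t * π s = j then 1 else 0 := by
      by_cases h : t * π s = j <;> simp [h]
    rw [h5, h6, wt_cons, mul_assoc]
    ring

/-- The top value is determined by the counters. -/
theorem top_of_counters {T : Type} [Group T] [Fintype T] (π : S → T)
    (hC : ∀ i s, CM (C π i s 1)) : Meas 1 (fun x : List S => wt π x) := by
  have hF : Meas 1 (fun x : List S => fun (i : T) (s : S) =>
      ((C π i s 1 x : ℤ) : ZMod 3)) :=
    Meas.pi (fun i => Meas.pi (fun s => hC i s 3))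
  refine hF.of_det (fun x y hxy => ?_)
  have h1 : ∀ j : T, ((∑ a : S, (C π j a 1 x - C π (j * (π a)⁻¹) a 1 x) : ℤ) : ZMod 3) =
      ((∑ a : S, (C π j a 1 y - C π (j * (π a)⁻¹) a 1 y) : ℤ) : ZMod 3) := by
    intro j
    push_cast
    apply Finset.sum_congr rfl
    intro a _
    rw [congrFun (congrFun hxy j) a, congrFun (congrFun hxy (j * (π a)⁻¹)) a]
  have h2 := h1 (wt π x)
  rw [flow, flow] at h2
  simp only [one_mul, if_true] at h2
  by_contra hne
  rw [if_neg (Ne.symm hne)] at h2
  by_cases h3 : (1 : T) = wt π x
  · rw [if_pos h3] at h2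
    simp at h2
  · rw [if_neg h3] at h2
    simp at h2

end Main

/-- Every language recognized by a finite group which has an abelian normal subgroup whose
quotient is abelian of prime exponent has star height at most one. -/
theorem abelian_by_elementary {S G : Type} [Finite S] [Group G] [Finite G] (A : Subgroup G)
    [A.Normal] (hA : ∀ x ∈ A, ∀ y ∈ A, x * y = y * x) (p : ℕ) (hp : p.Prime)
    (hcomm : ∀ x y : G, x * y * x⁻¹ * y⁻¹ ∈ A) (hexp : ∀ x : G, x ^ p ∈ A)
    (f : S → G) (X : Set G) : Dfn 1 (fun x : List S => (x.map f).prod ∈ X) := by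
  have : Fintype S := Fintype.ofFinite S
  have : Fintype (G ⧸ A) := Fintype.ofFinite _
  let inst : CommGroup (G ⧸ A) :=
    { (inferInstance : Group (G ⧸ A)) with
      mul_comm := fun a b => by
        obtain ⟨x, rfl⟩ := QuotientGroup.mk_surjective a
        obtain ⟨y, rfl⟩ := QuotientGroup.mk_surjective b
        have h := (QuotientGroup.eq_one_iff _).2 (hcomm x y)
        simp only [QuotientGroup.mk_mul, QuotientGroup.mk_inv] at h
        have h2 := mul_inv_eq_one.1 h
        exact mul_inv_eq_iff_eq_mul.1 h2 }
  have hexp' : ∀ v : G ⧸ A, v ^ p = 1 := by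
    intro v
    obtain ⟨x, rfl⟩ := QuotientGroup.mk_surjective v
    rw [← QuotientGroup.mk_pow]
    exact (QuotientGroup.eq_one_iff _).2 (hexp x)
  have hC : ∀ i s, CM (C (fun s => (QuotientGroup.mk (f s) : G ⧸ A)) i s 1) :=
    fun i s => C_elem_CM p hp _ (G ⧸ A) rfl hexp' _ i s
  exact dfn_of_counters A hA f X (top_of_counters _ hC) hC

end Vale.Agent.P329
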