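import Vale.Agent.P329.StarFree

namespace Vale.Agent.P329

variable {A Q : Type}

/-- Powers of a word. -/
def wpow (u : List A) : ℕ → List A
  | 0 => []
  | K + 1 => u ++ wpow u K

@[simp] theorem wpow_zero (u : List A) : wpow u 0 = [] := rfl

theorem wpow_succ (u : List A) (K : ℕ) : wpow u (K + 1) = u ++ wpow u K := rfl

theorem wpow_add (u : List A) (K L : ℕ) : wpow u (K + L) = wpow u K ++ wpow u L := by
  induction K with
  | zero => simp
  | succ K ih => simp [Nat.succ_add, wpow_succ, ih]

theorem run_wpow (act : A → Q → Q) (u : List A) (K : ℕ) (q : Q) :
    run act q (wpow u K) = (fun x => run act x u)^[K] q := by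
  induction K generalizing q with
  | zero => rfl
  | succ K ih =>
    rw [wpow_succ, run_append, ih, Function.iterate_succ_apply]

/-- A rooted automaton is good when the thread of every state under every word either reaches a
fixed point of the word or passes through the root. -/
def Good (act : A → Q → Q) (r : Q) : Prop :=
  ∀ (u : List A) (q : Q),
    (∃ n, run act ((fun x => run act x u)^[n] q) u = (fun x => run act x u)^[n] q) ∨
    ∃ K v, v <+: wpow u K ∧ run act q v = r

section Kill

open scoped Classical

/-- The automaton which dies as soon as a letter is read at the root; `true` marks a state which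
may be left even if it is the root. -/
noncomputable def kact (act : A → Q → Q) (r : Q) (a : A) : Option (Bool × Q) → Option (Bool × Q)
  | none => none
  | some (true, q) => some (false, act a q)
  | some (false, q) => if q = r then none else some (false, act a q)

variable (act : A → Q → Q) (r : Q)

@[simp] theorem run_kact_none (w : List A) : run (kact act r) none w = none := by
  induction w with
  | nil => rfl
  | cons a w ih => simpa [kact] using ih

theorem run_kact_alive_or (w : List A) (q : Q) :
    run (kact act r) (some (false, q)) w = none ∨
    run (kact act r) (some (false, q)) w = some (false, run act q w) := by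
  induction w generalizing q with
  | nil => right; rfl
  | cons a w ih =>
    rw [run_cons, run_cons]
    by_cases hq : q = r
    · left
      simp [kact, hq]
    · simp only [kact, hq, if_false]
      exact ih _

theorem run_kact_dead (v w : List A) (q : Q) (hv : run act q v = r) (hw : w ≠ []) :
    run (kact act r) (some (false, q)) (v ++ w) = none := by
  induction v generalizing q with
  | nil =>
    cases w with
    | nil => exact absurd rfl hw
    | cons a w =>
      have : q = r := hv
      simp [kact, this]
  | cons a v ih =>
    rw [List.cons_append, run_cons]
    by_cases hq : q = r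
    · simp [kact, hq]
    · simp only [kact, hq, if_false]
      exact ih _ hv

theorem kact_aper (h : Good act r) : Aper (kact act r) := by
  intro u x
  by_cases hu : u = []
  · subst hu
    exact ⟨0, rfl⟩
  -- the thread of a state in normal form
  have hiter : ∀ (q : Q) (n : ℕ),
      (fun y => run (kact act r) y u)^[n] (some (false, q)) = none ∨
      (fun y => run (kact act r) y u)^[n] (some (false, q)) =
        some (false, (fun y => run act y u)^[n] q) := by
    intro q n
    induction n with
    | zero => right; rfl
    | succ n ih =>
      rw [Function.iterate_succ_apply', Function.iterate_succ_apply']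
      rcases ih with ih | ih
      · left; rw [ih]; exact run_kact_none act r u
      · rw [ih]; exact run_kact_alive_or act r u _
  have hnone : ∀ (y : Option (Bool × Q)) (n : ℕ),
      (fun y => run (kact act r) y u)^[n] y = none →
      run (kact act r) ((fun y => run (kact act r) y u)^[n] y) u =
        (fun y => run (kact act r) y u)^[n] y := by
    intro y n hy
    rw [hy]
    exact run_kact_none act r u
  have hmain : ∀ q : Q, ∃ n,
      run (kact act r) ((fun y => run (kact act r) y u)^[n] (some (false, q))) u =
        (fun y => run (kact act r) y u)^[n] (some (false, q)) := by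
    intro q
    rcases h u q with ⟨n, hn⟩ | ⟨K, v, ⟨w, hvw⟩, hv⟩
    · rcases hiter q n with h0 | h0
      · exact ⟨n, hnone _ n h0⟩
      · rcases run_kact_alive_or act r u ((fun y => run act y u)^[n] q) with h1 | h1
        · refine ⟨n + 1, hnone _ _ ?_⟩
          rw [Function.iterate_succ_apply', h0]
          exact h1
        · refine ⟨n, ?_⟩
          rw [h0, h1, hn]
    · refine ⟨K + 1, hnone _ _ ?_⟩
      rw [← run_wpow, wpow_add, ← hvw]
      have hne : wpow u 1 ≠ [] := by simpa [wpow_succ] using hu
      rw [List.append_assoc]
      apply run_kact_dead act r _ _ _ hv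
      simp [hne]
  rcases x with _ | ⟨b, q⟩
  · exact ⟨0, run_kact_none act r u⟩
  · cases b with
    | false => exact hmain q
    | true =>
      -- after one iteration we are in normal form or dead
      have h1 : run (kact act r) (some (true, q)) u = none ∨
          ∃ q', run (kact act r) (some (true, q)) u = some (false, q') := by
        cases u with
        | nil => exact absurd rfl hu
        | cons a w =>
          rw [run_cons]
          simp only [kact]
          rcases run_kact_alive_or act r w (act a q) with h | h
          · exact Or.inl h
          · exact Or.inr ⟨_, h⟩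
      rcases h1 with h1 | ⟨q', h1⟩
      · exact ⟨1, by
          simp only [Function.iterate_one]
          rw [h1]
          exact run_kact_none act r u⟩
      · obtain ⟨n, hn⟩ := hmain q'
        refine ⟨n + 1, ?_⟩
        rw [Function.iterate_succ_apply, h1]
        exact hn

/-- Paths from `p` to `q` without interior visits to the root. -/
def EE (p q : Q) (w : List A) : Prop :=
  (w = [] ∧ p = q) ∨ run (kact act r) (some (true, p)) w = some (false, q)

theorem run_of_false_alive (w : List A) (q q' : Q)
    (h : run (kact act r) (some (false, q)) w = some (false, q')) : run act q w = q' := by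
  rcases run_kact_alive_or act r w q with h1 | h1
  · rw [h1] at h; simp at h
  · rw [h1] at h; simpa using h

theorem run_of_EE (p q : Q) (w : List A) (h : EE act r p q w) : run act p w = q := by
  rcases h with ⟨rfl, rfl⟩ | h
  · rfl
  · cases w with
    | nil => simp at h
    | cons a w =>
      rw [run_cons] at h
      simp only [kact] at h
      exact run_of_false_alive act r w _ _ h

/-- First visit to the root. -/
theorem first_visit (w : List A) (q : Q) :
    run (kact act r) (some (false, q)) w = some (false, run act q w) ∨
    ∃ w1 w2, w = w1 ++ w2 ∧ w2 ≠ [] ∧ run (kact act r) (some (false, q)) w1 = some (false, r) := by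
  induction w generalizing q with
  | nil => left; rfl
  | cons a w ih =>
    by_cases hq : q = r
    · right
      subst hq
      exact ⟨[], a :: w, rfl, by simp, rfl⟩
    · rw [run_cons, run_cons]
      simp only [kact, hq, if_false]
      rcases ih (act a q) with h | ⟨w1, w2, rfl, h2, h3⟩
      · exact Or.inl h
      · right
        refine ⟨a :: w1, w2, rfl, h2, ?_⟩
        rw [run_cons]
        simp only [kact, hq, if_false]
        exact h3

theorem first_visit' (w : List A) (p : Q) :
    EE act r p (run act p w) w ∨
    ∃ w1 w2, w = w1 ++ w2 ∧ w2 ≠ [] ∧ w1 ≠ [] ∧ EE act r p r w1 := by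
  cases w with
  | nil => left; left; exact ⟨rfl, rfl⟩
  | cons a w =>
    rcases first_visit act r w (act a p) with h | ⟨w1, w2, rfl, h2, h3⟩
    · left; right
      rw [run_cons, run_cons]
      simpa only [kact] using h
    · right
      refine ⟨a :: w1, w2, rfl, h2, by simp, Or.inr ?_⟩
      rw [run_cons]
      simpa only [kact] using h3

/-- The return language and its star. -/
def XStar (w : List A) : Prop :=
  ∃ L : List (List A), w = L.flatten ∧ ∀ y ∈ L, run (kact act r) (some (true, r)) y = some (false, r)

theorem run_of_XStar (w : List A) (h : XStar act r w) : run act r w = r := by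
  obtain ⟨L, rfl, hL⟩ := h
  induction L with
  | nil => rfl
  | cons y L ih =>
    rw [List.flatten_cons, run_append]
    have hy : run act r y = r := run_of_EE act r r r y (Or.inr (hL y (by simp)))
    rw [hy]
    exact ih (fun z hz => hL z (by simp [hz]))

theorem last_visit (n : ℕ) (w : List A) (hn : w.length ≤ n) (q : Q) (hq : run act r w = q) :
    ∃ w' w3, w = w' ++ w3 ∧ XStar act r w' ∧ EE act r r q w3 := by
  induction n generalizing w with
  | zero =>
    have : w = [] := by simpa using hn
    subst this
    exact ⟨[], [], rfl, ⟨[], rfl, by simp⟩, Or.inl ⟨rfl, hq⟩⟩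
  | succ n ih =>
    rcases first_visit' act r w r with h | ⟨w1, w2, rfl, h2, h1, h3⟩
    · rw [hq] at h
      exact ⟨[], w, rfl, ⟨[], rfl, by simp⟩, h⟩
    · have hlen : w2.length ≤ n := by
        have : 0 < w1.length := List.length_pos_iff.2 h1
        simp only [List.length_append] at hn
        omega
      have hq2 : run act r w2 = q := by
        rw [run_append, run_of_EE act r r r w1 h3] at hq
        exact hq
      obtain ⟨w', w3, rfl, ⟨L, rfl, hL⟩, h5⟩ := ih w2 hlen hq2
      have hw1 : run (kact act r) (some (true, r)) w1 = some (false, r) := by
        rcases h3 with ⟨rfl, _⟩ | h3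
        · exact absurd rfl h1
        · exact h3
      refine ⟨w1 ++ L.flatten, w3, by simp, ⟨w1 :: L, by simp, ?_⟩, h5⟩
      intro y hy
      rcases List.mem_cons.1 hy with rfl | hy
      · exact hw1
      · exact hL y hy

/-- The main formula for path languages in a rooted automaton. -/
theorem path_iff (p q : Q) (w : List A) :
    run act p w = q ↔
      EE act r p q w ∨
      ∃ w1 z, w = w1 ++ z ∧ EE act r p r w1 ∧ ∃ w2 w3, z = w2 ++ w3 ∧ XStar act r w2 ∧
        EE act r r q w3 := by
  constructor
  · intro hw
    rcases first_visit' act r w p with h | ⟨w1, w2, rfl, _, _, h3⟩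
    · rw [hw] at h
      exact Or.inl h
    · right
      have hq2 : run act r w2 = q := by
        rw [run_append, run_of_EE act r p r w1 h3] at hw
        exact hw
      obtain ⟨w', w3, rfl, h4, h5⟩ := last_visit act r _ w2 le_rfl q hq2
      exact ⟨w1, _, rfl, h3, w', w3, rfl, h4, h5⟩
  · rintro (h | ⟨w1, z, rfl, h1, w2, w3, rfl, h2, h3⟩)
    · exact run_of_EE act r p q w h
    · rw [run_append, run_of_EE act r p r w1 h1, run_append, run_of_XStar act r w2 h2,
        run_of_EE act r r q w3 h3]

/-- Path languages of good automata have star height at most one. -/
theorem good_path_dfn [Finite Q] [Finite A] (h : Good act r) (p q : Q) :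
    Dfn 1 (fun w => run act p w = q) := by
  have hap := kact_aper act r h
  have hE : ∀ p q, Dfn 0 (EE act r p q) := by
    intro p q
    have h1 : Dfn 0 (fun w : List A => w = [] ∧ p = q) := Dfn.nil.and (Dfn.const _)
    exact h1.or (path_dfn (kact act r) hap _ _)
  have hX : Dfn 1 (XStar act r) := (path_dfn (kact act r) hap _ _).star
  have hmain := ((hE p q).mono (Nat.zero_le 1)).or
    (((hE p r).mono (Nat.zero_le 1)).concat (hX.concat ((hE r q).mono (Nat.zero_le 1))))
  exact hmain.congr (fun w => by
    rw [path_iff act r p q w])

end Kill

end Vale.Agent.P329
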