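import Vale.Agent.P329.PrimeTop
import Mathlib.GroupTheory.QuotientGroup.Defs
import Mathlib.GroupTheory.Index
import Mathlib.GroupTheory.SpecificGroups.Cyclic.Basic
import Mathlib.Algebra.FreeMonoid.Basic
import Mathlib.GroupTheory.OrderOfElement
import Mathlib.Algebra.BigOperators.Group.Finset.Basic
import Mathlib.Algebra.Group.Subgroup.Finite

namespace Vale.Agent.P329

open scoped Classical

section Abstract

variable {S T A : Type} [Group T] [Fintype S] [Fintype T] [CommGroup A]

/-- The product of the cocycle values along a run. -/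
noncomputable def BB (π : S → T) (c : T → S → A) (t : T) : List S → A
  | [] => 1
  | s :: x => c t s * BB π c (t * π s) x

theorem BB_eq (π : S → T) (c : T → S → A) (t : T) (x : List S) :
    BB π c t x = ∏ i : T, ∏ s : S, (c i s) ^ (C π i s t x) := by
  induction x generalizing t with
  | nil => simp [BB, C]
  | cons s x ih =>
    rw [BB, ih]
    simp only [C, zpow_add, Finset.prod_mul_distrib]
    congr 1
    rw [Finset.prod_eq_single t]
    · rw [Finset.prod_eq_single s]
      · simp
      · intro b _ hb
        simp [Ne.symm hb]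
      · simp
    · intro i _ hi
      apply Finset.prod_eq_one
      intro b _
      simp [Ne.symm hi]
    · simp

/-- The value of the cocycle product only depends on the residues of the counters. -/
theorem BB_eq_of_residues [Finite A] (π : S → T) (c : T → S → A) (t : T) (x y : List S)
    (h : ∀ i s, ((C π i s t x : ℤ) : ZMod (Nat.card A)) = ((C π i s t y : ℤ) : ZMod (Nat.card A))) :
    BB π c t x = BB π c t y := by
  rw [BB_eq, BB_eq]
  apply Finset.prod_congr rfl
  intro i _
  apply Finset.prod_congr rfl
  intro s _
  have h1 := (ZMod.intCast_eq_intCast_iff _ _ _).1 (h i s)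
  obtain ⟨k, hk⟩ := h1.dvd
  have h2 : C π i s t y = C π i s t x + (Nat.card A : ℤ) * k := by linarith
  rw [h2, zpow_add, zpow_mul, zpow_natCast, pow_card_eq_one', one_zpow, mul_one]

/-- The telescoping formula. -/
theorem telescope {G : Type} [Group G] (π : S → T) (τ : T → G) (f : S → G) (ι : A →* G)
    (c : T → S → A) (hc : ∀ t s, ι (c t s) * τ (t * π s) = τ t * f s) (t : T) (x : List S) :
    ι (BB π c t x) * τ (t * wt π x) = τ t * (x.map f).prod := by
  induction x generalizing t with
  | nil => simp [BB]
  | cons s x ih =>
    have h1 := ih (t * π s)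
    rw [BB, map_mul, wt_cons, mul_assoc (ι _), ← mul_assoc t, h1, ← mul_assoc, hc]
    simp [mul_assoc]

/-- The value of a word is determined by the top value and the residues of the counters. -/
theorem value_det {G : Type} [Group G] [Finite A] (π : S → T) (τ : T → G) (f : S → G) (ι : A →* G)
    (c : T → S → A) (hc : ∀ t s, ι (c t s) * τ (t * π s) = τ t * f s) (x y : List S)
    (h1 : wt π x = wt π y)
    (h : ∀ i s, ((C π i s 1 x : ℤ) : ZMod (Nat.card A)) = ((C π i s 1 y : ℤ) : ZMod (Nat.card A))) :
    (x.map f).prod = (y.map f).prod := by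
  have hx := telescope π τ f ι c hc 1 x
  have hy := telescope π τ f ι c hc 1 y
  rw [BB_eq_of_residues π c 1 x y h, h1, hy] at hx
  exact (mul_left_cancel hx).symm

end Abstract

section Concrete

variable {S G : Type} [Fintype S] [Group G] [Finite G]

/-- Extension step: if the top value and all its counters are measurable for `G ⧸ A`, with `A`
abelian and normal, then every language recognized through `G` has star height at most one. -/
theorem dfn_of_counters (A : Subgroup G) [A.Normal] (hA : ∀ x ∈ A, ∀ y ∈ A, x * y = y * x)
    (f : S → G) (X : Set G)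
    (htop : Meas 1 (fun x : List S => wt (fun s => (QuotientGroup.mk (f s) : G ⧸ A)) x))
    (hC : ∀ i s, CM (C (fun s => (QuotientGroup.mk (f s) : G ⧸ A)) i s 1)) :
    Dfn 1 (fun x : List S => (x.map f).prod ∈ X) := by
  have : Fintype (G ⧸ A) := Fintype.ofFinite _
  have : Finite A := inferInstance
  let inst : CommGroup A :=
    { (inferInstance : Group A) with mul_comm := fun x y => Subtype.ext (hA x x.2 y y.2) }
  set π : S → G ⧸ A := fun s => (QuotientGroup.mk (f s) : G ⧸ A) with hπ
  let τ : G ⧸ A → G := fun t => Quotient.out t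
  have hτ : ∀ t, (QuotientGroup.mk (τ t) : G ⧸ A) = t := fun t => QuotientGroup.out_eq' t
  have hmem : ∀ t s, τ t * f s * (τ (t * π s))⁻¹ ∈ A := by
    intro t s
    rw [← QuotientGroup.eq_one_iff]
    simp only [QuotientGroup.mk_mul, QuotientGroup.mk_inv, hτ, hπ]
    simp
  let c : G ⧸ A → S → A := fun t s => ⟨τ t * f s * (τ (t * π s))⁻¹, hmem t s⟩
  have hc : ∀ t s, A.subtype (c t s) * τ (t * π s) = τ t * f s := by
    intro t s
    simp [c]
  have hF : Meas 1 (fun x : List S => (wt π x, fun (i : G ⧸ A) (s : S) =>
      ((C π i s 1 x : ℤ) : ZMod (Nat.card A)))) := by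
    refine htop.pair (Meas.pi (fun i => Meas.pi (fun s => ?_)))
    exact hC i s _
  have hdet : Meas 1 (fun x : List S => (x.map f).prod) := by
    refine hF.of_det (fun x y hxy => ?_)
    simp only [Prod.mk.injEq] at hxy
    exact value_det π τ f A.subtype c hc x y hxy.1
      (fun i s => congrFun (congrFun hxy.2 i) s)
  exact hdet.preimage X

end Concrete

/-- Every language recognized by a finite group with an abelian normal subgroup of prime index has
star height at most one. -/
theorem abelian_prime_index {S G : Type} [Finite S] [Group G] [Finite G] (A : Subgroup G)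
    [A.Normal] (hA : ∀ x ∈ A, ∀ y ∈ A, x * y = y * x) (hp : A.index.Prime)
    (f : S → G) (X : Set G) : Dfn 1 (fun x : List S => (x.map f).prod ∈ X) := by
  have : Fintype S := Fintype.ofFinite S
  have : Fintype (G ⧸ A) := Fintype.ofFinite _
  have : Fact A.index.Prime := ⟨hp⟩
  have hgen : ∀ g h : G ⧸ A, g ≠ 1 → ∃ k : ℕ, g ^ k = h := by
    intro g h hg
    have := mem_powers_of_prime_card (G := G ⧸ A) (p := A.index) (g := g) (g' := h) rfl hg
    exact Submonoid.mem_powers_iff _ _ |>.1 this
  exact dfn_of_counters A hA f X (top_meas hgen) (fun i s => C_CM hgen i s)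

end Vale.Agent.P329
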