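import Vale.Agent.P329.Core
import Mathlib.Data.ZMod.Basic
import Mathlib.Tactic.Ring

open Computability

namespace Vale.Agent.P329

universe u v

variable {α : Type u}

section rank

variable {Q : Type v} {δ : Q → α → Q}

/-- If inside `U` every transition either stays put or strictly increases an injective rank,
then the paths inside `U` form star-free languages. -/
theorem sf_path_rank [Finite Q] [Finite α] {U : Set Q} (r : Q → ℕ)
    (hinj : ∀ s ∈ U, ∀ s' ∈ U, r s = r s' → s = s')
    (hstep : ∀ s ∈ U, ∀ b, δ s b ∈ U → δ s b = s ∨ r s < r (δ s b))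
    (p q : Q) (hp : p ∈ U) : GenStarHeightLE (path δ U p q) 0 := by
  classical
  cases nonempty_fintype Q
  obtain ⟨R, hR⟩ : ∃ R, ∀ s, r s < R := by
    refine ⟨(Finset.univ.sup r) + 1, fun s => ?_⟩
    have := Finset.le_sup (f := r) (Finset.mem_univ s)
    omega
  have key : ∀ k n, n + k = R → ∀ p q, p ∈ {s | s ∈ U ∧ n ≤ r s} →
      GenStarHeightLE (path δ {s | s ∈ U ∧ n ≤ r s} p q) 0 := by
    intro k
    induction k with
    | zero =>
      intro n hn p q hp
      have h1 := hR p
      have h2 := hp.2
      omega
    | succ k ih =>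
      intro n hn p q hp
      have hsplit : {s | s ∈ U ∧ n ≤ r s} = {s | s ∈ U ∧ r s = n} ∪ {s | s ∈ U ∧ n + 1 ≤ r s} := by
        ext s
        simp only [Set.mem_union]
        show (s ∈ U ∧ n ≤ r s) ↔ (s ∈ U ∧ r s = n) ∨ (s ∈ U ∧ n + 1 ≤ r s)
        constructor
        · rintro ⟨h1, h2⟩
          rcases Nat.eq_or_lt_of_le h2 with h3 | h3
          · exact Or.inl ⟨h1, h3.symm⟩
          · exact Or.inr ⟨h1, h3⟩
        · rintro (⟨h1, h2⟩ | ⟨h1, h2⟩)
          · exact ⟨h1, h2.ge⟩
          · exact ⟨h1, by omega⟩
      rw [hsplit]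
      refine sf_path_two ?_ (fun p q hp => sf_path_local ?_ p q hp)
        (fun p q hp => ih (n + 1) (by omega) p q hp) p q (by rw [← hsplit]; exact hp)
      · rintro s ⟨hsU, hsr⟩ b (hb | hb)
        · rcases hstep s hsU b hb.1 with h1 | h1
          · rw [h1]
            exact ⟨hsU, hsr⟩
          · have h2 := hb.2
            omega
        · exact hb
      · intro b
        right
        rintro s ⟨h1, h2⟩ s' ⟨h1', h2'⟩ - -
        exact hinj s h1 s' h1' (h2.trans h2'.symm)
  have h0 := key R 0 (by omega) p q ⟨hp, Nat.zero_le _⟩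
  refine h0.congr ?_
  intro x
  have hU : {s | s ∈ U ∧ 0 ≤ r s} = U := by
    ext s
    simp
  rw [hU]

end rank

section glevel

variable {N : ℕ} [NeZero N] (k : α → ZMod N)

/-- The sum of the levels of the letters of a word. -/
def glev (x : List α) : ZMod N := run (fun t b => t + k b) 0 x

theorem glev_snoc (x : List α) (b : α) : glev k (x ++ [b]) = glev k x + k b := run_snoc _ _ _ _

/-- The automaton following the level relative to a hub, where letters in `E` arriving at
level zero do not enter the hub. -/
def gStep (E : α → Prop) [DecidablePred E] (s : Option (ZMod N)) (b : α) : Option (ZMod N) :=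
  if s.getD 0 + k b = 0 ∧ E b then none else some (s.getD 0 + k b)

theorem gStep_getD (E : α → Prop) [DecidablePred E] (s : Option (ZMod N)) (b : α) :
    (gStep k E s b).getD 0 = s.getD 0 + k b := by
  unfold gStep
  split_ifs with h
  · simpa using h.1.symm
  · simp

theorem gStep_eq_hub (E : α → Prop) [DecidablePred E] (s : Option (ZMod N)) (b : α) :
    gStep k E s b = some 0 ↔ (s.getD 0 + k b = 0 ∧ ¬ E b) := by
  unfold gStep
  by_cases h : s.getD 0 + k b = 0 <;> by_cases hE : E b <;> simp [h, hE]

theorem run_g_getD (E : α → Prop) [DecidablePred E] (s : Option (ZMod N)) (x : List α) :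
    (run (gStep k E) s x).getD 0 = s.getD 0 + glev k x := by
  induction x using List.reverseRecOn with
  | nil => simp [glev]
  | append_singleton x b ih =>
    rw [run_snoc, gStep_getD, ih, glev_snoc, add_assoc]

theorem g_sf [Finite α] (hN : 1 < N) (hk : ∀ b, k b = 0 ∨ k b = 1) (E : α → Prop) [DecidablePred E]
    (hE : ∀ b, E b → k b = 0) (p q : Option (ZMod N)) (hp : p ≠ some 0) :
    GenStarHeightLE (path (gStep k E) {s | s ≠ some 0} p q) 0 := by
  haveI : Fact (1 < N) := ⟨hN⟩
  have hone : (1 : ZMod N) ≠ 0 := one_ne_zero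
  refine sf_path_rank (fun s => (s.map ZMod.val).getD 0) ?_ ?_ p q hp
  · rintro s hs s' hs' hr
    rcases s with _ | s <;> rcases s' with _ | s'
    · rfl
    · exfalso
      simp only [Option.map_none, Option.getD_none, Option.map_some, Option.getD_some] at hr
      apply hs'
      rw [(ZMod.val_eq_zero s').1 hr.symm]
    · exfalso
      simp only [Option.map_none, Option.getD_none, Option.map_some, Option.getD_some] at hr
      apply hs
      rw [(ZMod.val_eq_zero s).1 hr]
    · simp only [Option.map_some, Option.getD_some] at hr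
      rw [ZMod.val_injective N hr]
  · intro s hs b hb
    rcases s with _ | s
    · -- from the shadow state
      rcases hk b with h0 | h1
      · left
        by_cases hEb : E b
        · simp [gStep, h0, hEb]
        · exfalso
          apply hb
          simp [gStep, h0, hEb]
      · right
        have hne : ¬ ((none : Option (ZMod N)).getD 0 + k b = 0) := by
          simp [h1]
        simp only [gStep, h1, Option.getD_none, zero_add, hone, false_and, if_false]
        simp [ZMod.val_one]
    · have hs0 : s ≠ 0 := fun h => hs (by rw [h])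
      rcases hk b with h0 | h1
      · left
        simp [gStep, h0, hs0]
      · right
        have hEb : ¬ E b := fun h => hone (by rw [← h1, hE b h])
        by_cases hz : s + 1 = 0
        · exfalso
          apply hb
          simp [gStep, h1, hz, hEb]
        · simp only [gStep, h1, Option.getD_some, hz, false_and, if_false]
          simp only [Option.map_some, Option.getD_some]
          have hv : (s + 1).val = (s.val + 1) % N := by
            rw [ZMod.val_add, ZMod.val_one]
          have hlt : s.val < N := ZMod.val_lt s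
          have hne : s.val + 1 ≠ N := by
            intro h
            apply hz
            rw [← ZMod.val_eq_zero, hv, h, Nat.mod_self]
          rw [hv, Nat.mod_eq_of_lt (by omega)]
          omega

variable [DecidableEq α] (a : α)

/-- The number of occurrences of the letter `a` at level `ℓ`, together with the level. -/
def gcntStep (ℓ : ZMod N) (t : ZMod N × ℕ) (b : α) : ZMod N × ℕ :=
  (t.1 + k b, t.2 + if b = a ∧ t.1 + k b = ℓ then 1 else 0)

/-- The number of occurrences of the letter `a` at level `ℓ`. -/
def gcnt (ℓ : ZMod N) (x : List α) : ℕ := (run (gcntStep k a ℓ) (0, 0) x).2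

theorem gcnt_fst (ℓ : ZMod N) (x : List α) : (run (gcntStep k a ℓ) (0, 0) x).1 = glev k x := by
  induction x using List.reverseRecOn with
  | nil => rfl
  | append_singleton x b ih =>
    rw [run_snoc, glev_snoc]
    simp only [gcntStep, ih]

theorem gcnt_snoc (ℓ : ZMod N) (x : List α) (b : α) :
    gcnt k a ℓ (x ++ [b]) = gcnt k a ℓ x + if b = a ∧ glev k (x ++ [b]) = ℓ then 1 else 0 := by
  unfold gcnt
  rw [run_snoc, glev_snoc]
  simp only [gcntStep, gcnt_fst]

theorem gret_eq (ℓ : ZMod N) (x : List α) :
    ret (gStep k (fun _ => False)) (some 0) (some (-ℓ)) x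
      = ret (gStep k (fun b => b = a)) (some 0) (some (-ℓ)) x + gcnt k a ℓ x := by
  induction x using List.reverseRecOn with
  | nil => rfl
  | append_singleton x b ih =>
    rw [ret_snoc, ret_snoc, gcnt_snoc, ih]
    have h1 : ∀ (E : α → Prop) [DecidablePred E],
        (run (gStep k E) (some (-ℓ)) x).getD 0 + k b = glev k (x ++ [b]) - ℓ := by
      intro E _
      rw [run_g_getD, glev_snoc]
      simp only [Option.getD_some]
      ring
    have h2 : ∀ t : ZMod N, t - ℓ = 0 ↔ t = ℓ := fun t => sub_eq_zero
    simp only [gStep_eq_hub, h1, h2, not_false_eq_true, and_true]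
    by_cases hb : b = a <;> by_cases hl : glev k (x ++ [b]) = ℓ <;> simp [hb, hl] <;> omega

/-- The occurrences of a non-moving letter at a given level of a monotone level function can be
counted modulo `M`. -/
theorem obs_gcnt [Finite α] (hN : 1 < N) (hk : ∀ b, k b = 0 ∨ k b = 1) (ha : k a = 0)
    (ℓ : ZMod N) (M : ℕ) (hM : 0 < M) :
    Obs 1 (fun x : List α => (⟨gcnt k a ℓ x % M, Nat.mod_lt _ hM⟩ : Fin M)) := by
  have h1 := hub_obs_ret (fun p q hp => g_sf k hN hk (fun _ => False) (fun b hb => hb.elim) p q hp)
    M hM (some (-ℓ))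
  have h2 := hub_obs_ret (fun p q hp => g_sf k hN hk (fun b => b = a) (fun b hb => hb ▸ ha) p q hp)
    M hM (some (-ℓ))
  refine (h1.prod h2).of_determines ?_
  intro x y hxy
  have e1 := Fin.ext_iff.1 (Prod.ext_iff.1 hxy).1
  have e2 := Fin.ext_iff.1 (Prod.ext_iff.1 hxy).2
  simp only at e1 e2
  rw [gret_eq k a ℓ x, gret_eq k a ℓ y] at e1
  apply Fin.ext
  have e3 : gcnt k a ℓ x ≡ gcnt k a ℓ y [MOD M] :=
    Nat.ModEq.add_left_cancel (n := M) e2 e1
  exact e3

end glevel

end Vale.Agent.P329
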