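import Vale.Agent.P329.Level
import Mathlib.Algebra.BigOperators.Ring.Finset
import Mathlib.Data.Nat.Choose.Basic

namespace Vale.Agent.P329

universe u v

variable {α : Type u} [DecidableEq α]

section mk

variable {R : Type v} [AddCommMonoid R]

/-- Auxiliary form of `mk`, with the prefix read so far. -/
def mkAux (y : α) (φ : List α → R) : List α → List α → R
  | _, [] => 0
  | pre, c :: x => (if c = y then φ pre else 0) + mkAux y φ (pre ++ [c]) x

/-- The sum over the occurrences of the letter `y` in a word of a function of the prefix before
the occurrence. -/
def mk (y : α) (φ : List α → R) (x : List α) : R := mkAux y φ [] x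

theorem mkAux_snoc (y : α) (φ : List α → R) (pre x : List α) (c : α) :
    mkAux y φ pre (x ++ [c]) = mkAux y φ pre x + if c = y then φ (pre ++ x) else 0 := by
  induction x generalizing pre with
  | nil => simp [mkAux]
  | cons d x ih =>
    simp only [List.cons_append, mkAux, ih, add_assoc, List.append_assoc, List.singleton_append, List.nil_append]

@[simp] theorem mk_nil (y : α) (φ : List α → R) : mk y φ [] = 0 := rfl

theorem mk_snoc (y : α) (φ : List α → R) (x : List α) (c : α) :
    mk y φ (x ++ [c]) = mk y φ x + if c = y then φ x else 0 := by
  simp [mk, mkAux_snoc]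

end mk

theorem mk_cast {R : Type v} [Semiring R] (y : α) (φ : List α → ℕ) (x : List α) :
    ((mk y φ x : ℕ) : R) = mk y (fun v => (φ v : R)) x := by
  induction x using List.reverseRecOn with
  | nil => simp
  | append_singleton x c ih =>
    rw [mk_snoc, mk_snoc, Nat.cast_add, ih]
    by_cases h : c = y <;> simp [h]

theorem mk_add {R : Type v} [AddCommMonoid R] (y : α) (φ ψ : List α → R) (x : List α) :
    mk y (fun v => φ v + ψ v) x = mk y φ x + mk y ψ x := by
  induction x using List.reverseRecOn with
  | nil => simp
  | append_singleton x c ih =>
    simp only [mk_snoc, ih]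
    by_cases h : c = y <;> simp [h, add_add_add_comm]

theorem mk_sub {R : Type v} [AddCommGroup R] (y : α) (φ ψ : List α → R) (x : List α) :
    mk y (fun v => φ v - ψ v) x = mk y φ x - mk y ψ x := by
  induction x using List.reverseRecOn with
  | nil => simp
  | append_singleton x c ih =>
    simp only [mk_snoc, ih]
    by_cases h : c = y <;> simp [h, add_sub_add_comm]

/-- The number of scattered occurrences of the word `a b`. -/
def C2 (a b : α) (x : List α) : ℕ := mk b (fun v => v.count a) x

/-- The number of scattered occurrences of the word `a b d`. -/
def C3 (a b d : α) (x : List α) : ℕ := mk d (C2 a b) x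

/-- The sum over the occurrences of `c` of the binomial of the number of earlier `a`. -/
def T1 (c a : α) (x : List α) : ℕ := mk c (fun v => (v.count a).choose 2) x

/-- The sum over the occurrences of `c` of the product of the numbers of earlier `a` and `d`. -/
def T2 (c a d : α) (x : List α) : ℕ := mk c (fun v => v.count a * v.count d) x

theorem C2_snoc (a b : α) (x : List α) (c : α) :
    C2 a b (x ++ [c]) = C2 a b x + if c = b then x.count a else 0 := mk_snoc _ _ _ _

theorem C3_snoc (a b d : α) (x : List α) (c : α) :
    C3 a b d (x ++ [c]) = C3 a b d x + if c = d then C2 a b x else 0 := mk_snoc _ _ _ _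

theorem T1_snoc (c' a : α) (x : List α) (c : α) :
    T1 c' a (x ++ [c]) = T1 c' a x + if c = c' then (x.count a).choose 2 else 0 := mk_snoc _ _ _ _

theorem T2_snoc (c' a d : α) (x : List α) (c : α) :
    T2 c' a d (x ++ [c]) = T2 c' a d x + if c = c' then x.count a * x.count d else 0 :=
  mk_snoc _ _ _ _

theorem count_snoc' (a : α) (x : List α) (c : α) :
    (x ++ [c]).count a = x.count a + if c = a then 1 else 0 := by
  simp [List.count_append, List.count_singleton]

/-- Two subword counts of two letters add up to a product. -/
theorem C2_add_C2 (a b : α) (hab : a ≠ b) (x : List α) :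
    C2 a b x + C2 b a x = x.count a * x.count b := by
  induction x using List.reverseRecOn with
  | nil => simp [C2]
  | append_singleton x c ih =>
    rw [C2_snoc, C2_snoc, count_snoc', count_snoc']
    by_cases h1 : c = a
    · subst h1
      have : c ≠ b := hab
      simp only [this, if_false, if_true, add_zero, add_mul, one_mul]
      omega
    · by_cases h2 : c = b
      · subst h2
        simp only [h1, if_false, if_true, add_zero, mul_add, mul_one]
        omega
      · simp [h1, h2, ih]

theorem C2_self (a : α) (x : List α) : C2 a a x = (x.count a).choose 2 := by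
  induction x using List.reverseRecOn with
  | nil => simp [C2]
  | append_singleton x c ih =>
    rw [C2_snoc, count_snoc', ih]
    by_cases h : c = a
    · simp [h, Nat.choose_succ_succ', add_comm]
    · simp [h]

/-- Polarization of binomials. -/
theorem choose_two_add (a b : ℕ) : (a + b).choose 2 = a.choose 2 + b.choose 2 + a * b := by
  induction b with
  | zero => simp
  | succ b ih =>
    rw [← add_assoc, Nat.choose_succ_succ' (a + b) 1, ih, Nat.choose_succ_succ' b 1]
    simp only [Nat.choose_one_right]
    ring

end Vale.Agent.P329
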