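import Vale.Agent.P329.Marks
import Mathlib.Tactic.LinearCombination

namespace Vale.Agent.P329

universe u v

variable {α : Type u} [DecidableEq α]

section formulas

variable {R : Type v} [CommRing R]

/-- The count of `a b d` with `d ≠ b`, by its middle letter. -/
theorem C3_ne (a b d : α) (hdb : d ≠ b) (x : List α) :
    (C3 a b d x : R) = (x.count d : R) * (C2 a b x : R) - (T2 b a d x : R) := by
  induction x using List.reverseRecOn with
  | nil => simp [C3, C2, T2]
  | append_singleton x c ih =>
    rw [C3_snoc, count_snoc', C2_snoc, T2_snoc]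
    by_cases hcd : c = d
    · subst hcd
      simp only [hdb, if_true, if_false, Nat.cast_add, add_zero, Nat.cast_one, ih]
      ring
    · by_cases hcb : c = b
      · subst hcb
        simp only [hcd, if_true, if_false, Nat.cast_add, add_zero, ih, Nat.cast_mul]
        ring
      · simp only [hcd, hcb, if_false, add_zero, ih]

/-- The count of `a b b`. -/
theorem C3_self (a b : α) (hab : a ≠ b) (x : List α) :
    (C3 a b b x : R) = ((x.count b).choose 2 : ℕ) * (x.count a : R) - (x.count b : R) * (C2 b a x : R)
      + (mk a (fun v => (((v.count b + 1).choose 2 : ℕ) : R)) x) := by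
  have hT : ∀ n : ℕ, (((n + 1).choose 2 : ℕ) : R) = ((n.choose 2 : ℕ) : R) + n := by
    intro n
    rw [Nat.choose_succ_succ' n 1, Nat.choose_one_right, Nat.cast_add, add_comm]
  have hTT : ∀ n : ℕ, ((n.choose 2 : ℕ) : R) * 2 + n = n * n := by
    intro n
    induction n with
    | zero => simp
    | succ n ih =>
      rw [hT]
      push_cast
      linear_combination ih
  induction x using List.reverseRecOn with
  | nil => simp [C3, C2]
  | append_singleton x c ih =>
    rw [C3_snoc, count_snoc', count_snoc', C2_snoc, mk_snoc]
    by_cases hca : c = a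
    · subst hca
      simp only [hab, if_true, if_false, Nat.cast_add, add_zero, Nat.cast_one, ih]
      rw [hT (x.count b)]
      linear_combination (-1 : R) * hTT (x.count b)
    · by_cases hcb : c = b
      · subst hcb
        have h2 : (C2 a c x : R) + C2 c a x = x.count a * x.count c := by
          have h3 := congrArg (Nat.cast : ℕ → R) (C2_add_C2 a c hab x)
          push_cast at h3
          exact h3
        simp only [hca, if_true, if_false, Nat.cast_add, add_zero, Nat.cast_one, ih]
        rw [hT (x.count c)]
        linear_combination h2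
      · simp only [hca, hcb, if_false, add_zero, ih]

end formulas

section same

variable (M : ℕ) [NeZero M]

/-- The level function counting the letters of `B`, modulo `2 M`. -/
def kB (B : Finset α) (b : α) : ZMod (2 * M) := if b ∈ B then 1 else 0

theorem kB_cases (B : Finset α) (b : α) : kB M B b = 0 ∨ kB M B b = 1 := by
  unfold kB
  by_cases h : b ∈ B <;> simp [h]

theorem glev_single (a : α) (v : List α) : glev (kB M {a}) v = (v.count a : ZMod (2 * M)) := by
  induction v using List.reverseRecOn with
  | nil => simp [glev, run]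
  | append_singleton v c ih =>
    rw [glev_snoc, ih, count_snoc', Nat.cast_add]
    by_cases h : c = a <;> simp [kB, h]

theorem glev_pair (a d : α) (had : a ≠ d) (v : List α) :
    glev (kB M {a, d}) v = ((v.count a + v.count d : ℕ) : ZMod (2 * M)) := by
  induction v using List.reverseRecOn with
  | nil => simp [glev, run]
  | append_singleton v c ih =>
    rw [glev_snoc, ih, count_snoc', count_snoc']
    by_cases h : c = a
    · subst h
      have : c ≠ d := had
      simp only [kB, Finset.mem_insert, Finset.mem_singleton, true_or, if_true, this, if_false, add_zero]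
      push_cast
      ring
    · by_cases h' : c = d
      · subst h'
        simp only [kB, Finset.mem_insert, Finset.mem_singleton, or_true, if_true, h, if_false, add_zero]
        push_cast
        ring
      · simp [kB, h, h']

/-- Sum over the occurrences of a letter of a function of the level. -/
theorem mk_eq_sum {N : ℕ} [NeZero N] (k : α → ZMod N) (z : α) (hz : k z = 0) {R : Type v} [CommRing R]
    (F : ZMod N → R) (x : List α) :
    mk z (fun v => F (glev k v)) x = ∑ ℓ, (gcnt k z ℓ x : R) * F ℓ := by
  induction x using List.reverseRecOn with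
  | nil => simp [gcnt, run]
  | append_singleton x c ih =>
    rw [mk_snoc, ih]
    simp only [gcnt_snoc, Nat.cast_add, add_mul, Finset.sum_add_distrib]
    congr 1
    by_cases hc : c = z
    · subst hc
      simp only [if_true, glev_snoc, hz, add_zero, true_and]
      rw [Finset.sum_eq_single (glev k x)]
      · simp
      · intro b _ hb
        simp [Ne.symm hb]
      · simp
    · simp [hc]

/-- The data of a word used to determine its image. -/
def Same (x y : List α) : Prop :=
  (∀ a, (x.count a : ZMod (2 * M)) = y.count a) ∧
    ∀ (B : Finset α) (z : α) (_ : z ∉ B) (ℓ : ZMod (2 * M)),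
      (gcnt (kB M B) z ℓ x : ZMod M) = gcnt (kB M B) z ℓ y

variable {M}

theorem Same.mk_level {x y : List α} (h : Same M x y) (B : Finset α) (z : α) (hz : z ∉ B)
    (F : ZMod (2 * M) → ZMod M) :
    mk z (fun v => F (glev (kB M B) v)) x = mk z (fun v => F (glev (kB M B) v)) y := by
  have hk : kB M B z = 0 := by simp [kB, hz]
  rw [mk_eq_sum _ z hk, mk_eq_sum _ z hk]
  exact Finset.sum_congr rfl fun ℓ _ => by rw [h.2 B z hz ℓ]

variable (M) in
/-- From `2 M` to `M`. -/
def c2 (t : ZMod (2 * M)) : ZMod M := (t.val : ZMod M)

variable (M) in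
/-- The binomial of a residue modulo `2 M`, as a residue modulo `M`. -/
def bin2 (t : ZMod (2 * M)) : ZMod M := ((t.val.choose 2 : ℕ) : ZMod M)

theorem c2_natCast (n : ℕ) : c2 M (n : ZMod (2 * M)) = (n : ZMod M) := by
  unfold c2
  rw [ZMod.val_natCast]
  apply (ZMod.natCast_eq_natCast_iff' _ _ _).2
  rw [Nat.mod_mod_of_dvd]
  exact Dvd.intro_left 2 rfl

theorem choose_two_period (a : ℕ) : (((a + 2 * M).choose 2 : ℕ) : ZMod M) = ((a.choose 2 : ℕ) : ZMod M) := by
  rw [choose_two_add]
  have h1 : (2 * M).choose 2 = M * (2 * M - 1) := by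
    rw [Nat.choose_two_right]
    rw [mul_assoc, Nat.mul_div_cancel_left _ (by norm_num : 0 < 2)]
  rw [h1]
  push_cast
  simp

theorem bin2_natCast (n : ℕ) : bin2 M (n : ZMod (2 * M)) = ((n.choose 2 : ℕ) : ZMod M) := by
  unfold bin2
  rw [ZMod.val_natCast]
  have : ∀ q r : ℕ, (((r + 2 * M * q).choose 2 : ℕ) : ZMod M) = ((r.choose 2 : ℕ) : ZMod M) := by
    intro q r
    induction q with
    | zero => simp
    | succ q ih =>
      rw [mul_add, mul_one, ← add_assoc, choose_two_period, ih]
  conv_rhs => rw [← Nat.mod_add_div n (2 * M)]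
  rw [this]

theorem Same.count_modEq {x y : List α} (h : Same M x y) (a : α) :
    (x.count a : ZMod M) = y.count a := by
  have := congrArg (c2 M) (h.1 a)
  rwa [c2_natCast, c2_natCast] at this

theorem Same.C2 {x y : List α} (h : Same M x y) (a b : α) (hab : a ≠ b) :
    (C2 a b x : ZMod M) = C2 a b y := by
  have hz : b ∉ ({a} : Finset α) := by simpa using Ne.symm hab
  have key := h.mk_level {a} b hz (c2 M)
  simp only [glev_single, c2_natCast] at key
  have e : ∀ w, ((Vale.Agent.P329.C2 a b w : ℕ) : ZMod M) = mk b (fun v => ((v.count a : ℕ) : ZMod M)) w :=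
    fun w => mk_cast _ _ _
  rw [e, e]
  exact key

theorem Same.T1 {x y : List α} (h : Same M x y) (c a : α) (hca : a ≠ c) :
    (T1 c a x : ZMod M) = T1 c a y := by
  have hz : c ∉ ({a} : Finset α) := by simpa using Ne.symm hca
  have key := h.mk_level {a} c hz (bin2 M)
  simp only [glev_single, bin2_natCast] at key
  have e : ∀ w, ((Vale.Agent.P329.T1 c a w : ℕ) : ZMod M)
      = mk c (fun v => (((v.count a).choose 2 : ℕ) : ZMod M)) w := fun w => mk_cast _ _ _
  rw [e, e]
  exact key

theorem Same.T2 {x y : List α} (h : Same M x y) (c a d : α) (hca : a ≠ c) (hcd : d ≠ c) :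
    (T2 c a d x : ZMod M) = T2 c a d y := by
  by_cases had : a = d
  · subst had
    have hz : c ∉ ({a} : Finset α) := by simpa using Ne.symm hca
    have key := h.mk_level {a} c hz (fun t => c2 M t * c2 M t)
    simp only [glev_single, c2_natCast] at key
    rw [Vale.Agent.P329.T2, Vale.Agent.P329.T2, mk_cast, mk_cast]
    simpa only [Nat.cast_mul] using key
  · have hz1 : c ∉ ({a} : Finset α) := by simpa using Ne.symm hca
    have hz2 : c ∉ ({d} : Finset α) := by simpa using Ne.symm hcd
    have hz3 : c ∉ ({a, d} : Finset α) := by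
      simp [Ne.symm hca, Ne.symm hcd]
    have k1 := h.mk_level {a} c hz1 (bin2 M)
    have k2 := h.mk_level {d} c hz2 (bin2 M)
    have k3 := h.mk_level {a, d} c hz3 (bin2 M)
    simp only [glev_single, glev_pair M a d had, bin2_natCast] at k1 k2 k3
    have hpol : ∀ w : List α, (Vale.Agent.P329.T2 c a d w : ZMod M)
        = mk c (fun v => (((v.count a + v.count d).choose 2 : ℕ) : ZMod M)) w
          - mk c (fun v => (((v.count a).choose 2 : ℕ) : ZMod M)) w
          - mk c (fun v => (((v.count d).choose 2 : ℕ) : ZMod M)) w := by
      intro w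
      rw [← mk_sub, ← mk_sub, Vale.Agent.P329.T2, mk_cast]
      congr 1
      funext v
      rw [choose_two_add]
      push_cast
      ring
    rw [hpol, hpol, k1, k2, k3]

theorem Same.C3 {x y : List α} (h : Same M x y) (a b d : α) (hab : a ≠ b) :
    (C3 a b d x : ZMod M) = C3 a b d y := by
  by_cases hdb : d = b
  · subst hdb
    rw [C3_self a d hab, C3_self a d hab]
    have hz : a ∉ ({d} : Finset α) := by simpa using hab
    have key := h.mk_level {d} a hz (fun t => bin2 M (t + 1))
    simp only [glev_single] at key
    have hc : ∀ n : ℕ, bin2 M ((n : ZMod (2 * M)) + 1) = (((n + 1).choose 2 : ℕ) : ZMod M) := by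
      intro n
      rw [← Nat.cast_succ, bin2_natCast]
    simp only [hc] at key
    rw [h.C2 d a (Ne.symm hab), h.count_modEq a, h.count_modEq d, key]
    congr 2
    rw [← bin2_natCast, ← bin2_natCast, h.1 d]
  · rw [C3_ne a b d hdb, C3_ne a b d hdb, h.C2 a b hab, h.count_modEq d, h.T2 b a d hab hdb]

end same

end Vale.Agent.P329
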