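import Vale.Agent.P329.Collect
import Vale.Agent.P329.Same

namespace Vale.Agent.P329

universe u v

theorem pow_congr_zmod {H : Type*} [Monoid H] {y : H} {M : ℕ} (hM : y ^ M = 1) {k k' : ℕ}
    (h : (k : ZMod M) = k') : y ^ k = y ^ k' := by
  have h1 : k % M = k' % M := (ZMod.natCast_eq_natCast_iff k k' M).1 h
  rw [← Nat.mod_add_div k M, ← Nat.mod_add_div k' M, pow_add, pow_add, pow_mul, pow_mul, hM, h1]
  simp

theorem obs_glev {α : Type u} [Finite α] {N : ℕ} [NeZero N] (k : α → ZMod N) (hN : 1 < N)
    (hk : ∀ b, k b = 0 ∨ k b = 1) : Obs 1 (glev k) := by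
  refine (hub_obs_run (fun p q hp => g_sf k hN hk (fun _ => False) (fun b hb => hb.elim) p q hp)
    (some 0)).of_determines ?_
  intro x y h
  have h1 := congrArg (fun s => Option.getD s (0 : ZMod N)) h
  simpa [run_g_getD] using h1

section

variable {α : Type u} [Fintype α] [DecidableEq α] (M : ℕ) [NeZero M]

/-- The data of `Same` as a single observation. -/
def sameData (x : List α) : (α → ZMod (2 * M)) ×
    (((Σ B : Finset α, {z : α // z ∉ B}) × ZMod (2 * M)) → Fin M) :=
  (fun a => glev (kB M {a}) x,
    fun p => ⟨gcnt (kB M p.1.1) p.1.2.1 p.2 x % M, Nat.mod_lt _ (Nat.pos_of_ne_zero (NeZero.ne M))⟩)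

theorem obs_sameData : Obs 1 (sameData (α := α) M) := by
  have hN : 1 < 2 * M := by
    have : 0 < M := Nat.pos_of_ne_zero (NeZero.ne M)
    omega
  haveI : NeZero (2 * M) := ⟨by omega⟩
  refine (Obs.pi fun a => obs_glev _ hN (kB_cases M {a})).prod (Obs.pi fun p => ?_)
  refine obs_gcnt _ _ hN (kB_cases M p.1.1) ?_ p.2 M (Nat.pos_of_ne_zero (NeZero.ne M))
  simp [kB, p.1.2.2]

theorem same_of_sameData {x y : List α} (h : sameData M x = sameData M y) : Same M x y := by
  have h1 := (Prod.ext_iff.1 h).1
  have h2 := (Prod.ext_iff.1 h).2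
  constructor
  · intro a
    have := congrFun h1 a
    simpa [sameData, glev_single] using this
  · intro B z hz ℓ
    have := Fin.ext_iff.1 (congrFun h2 (⟨B, ⟨z, hz⟩⟩, ℓ))
    exact (ZMod.natCast_eq_natCast_iff' _ _ _).2 this

end

/-- The products of the letters in a finite group of nilpotency class at most three can be
observed in star height one. -/
theorem obs_class3 {α : Type u} [Finite α] {G : Type v} [Group G] [Finite G]
    (hG : Subgroup.upperCentralSeries G 3 = ⊤) (f : α → G) :
    Obs 1 (fun x : List α => (x.map f).prod) := by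
  cases nonempty_fintype α
  letI : LinearOrder α := LinearOrder.lift' (Fintype.equivFin α) (Equiv.injective _)
  have hZ0 : ∀ a b : G, Zt (cm a b) := zt_cm_of_upper hG
  let N : Subgroup G := Subgroup.closure (Set.range fun p : G × G => cm p.1 p.2)
  have hcomm : ∀ x ∈ (Set.range fun p : G × G => cm p.1 p.2), ∀ y ∈ (Set.range fun p : G × G => cm p.1 p.2),
      x * y = y * x := by
    rintro _ ⟨⟨a, b⟩, rfl⟩ _ ⟨⟨c, d⟩, rfl⟩
    have h := (hZ0 a b).cm_cm c d
    have h2 : cm a b * cm c d = cm c d * cm a b * cm (cm a b) (cm c d) := mul_eq_mul_cm _ _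
    simpa [h] using h2
  letI : CommGroup N := Subgroup.closureCommGroupOfComm hcomm
  let ι : N →* G := MonoidHom.mk' (fun X => X.1) (fun _ _ => rfl)
  have hι : Function.Injective ι := fun X Y h => Subtype.ext h
  let ly : G → G → N := fun a b => ⟨cm a b, Subgroup.subset_closure ⟨(a, b), rfl⟩⟩
  have hly : ∀ a b, ι (ly a b) = cm a b := fun _ _ => rfl
  have hZ : ∀ X : N, Zt (ι X) := by
    intro X
    have hX : X.1 ∈ N := X.2
    show Zt X.1
    refine Subgroup.closure_induction (p := fun y _ => Zt y) ?_ ?_ ?_ ?_ hX
    · rintro _ ⟨⟨a, b⟩, rfl⟩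
      exact hZ0 a b
    · exact Zt.one
    · intro _ _ _ _ hx hy
      exact hx.mul hy
    · intro _ _ hx
      exact hx.inv
  haveI : NeZero (Nat.card G) := ⟨Nat.card_pos.ne'⟩
  set M := Nat.card G with hMdef
  have hM1 : ∀ y : G, y ^ M = 1 := fun y => pow_card_eq_one'
  have hM2 : ∀ y : N, y ^ M = 1 := fun y => hι (by rw [map_pow, map_one]; exact hM1 _)
  refine (obs_sameData (α := α) M).of_determines ?_
  intro x y hxy
  have hS := same_of_sameData M hxy
  show (x.map f).prod = (y.map f).prod
  rw [collected f hly hZ hι x, collected f hly hZ hι y]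
  congr 1
  · unfold AA
    congr 1
    refine List.map_congr_left fun a _ => ?_
    exact pow_congr_zmod (hM1 _) (hS.count_modEq a)
  · congr 1
    unfold EE
    congr 1
    · congr 1
      · congr 1
        · refine Finset.prod_congr rfl fun a _ => Finset.prod_congr rfl fun b _ => ?_
          by_cases hba : b < a
          · simp only [hba, if_true]
            exact pow_congr_zmod (hM2 _) (hS.C2 a b (ne_of_gt hba))
          · simp only [hba, if_false]
        · refine Finset.prod_congr rfl fun a _ => Finset.prod_congr rfl fun b _ =>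
            Finset.prod_congr rfl fun d _ => ?_
          by_cases hba : b < a
          · simp only [hba, if_true]
            exact pow_congr_zmod (hM2 _) (hS.C3 a b d (ne_of_gt hba))
          · simp only [hba, if_false]
      · refine Finset.prod_congr rfl fun c _ => Finset.prod_congr rfl fun a _ => ?_
        by_cases hca : c < a
        · simp only [hca, if_true]
          exact pow_congr_zmod (hM2 _) (hS.T1 c a (ne_of_gt hca))
        · simp only [hca, if_false]
    · refine Finset.prod_congr rfl fun c _ => Finset.prod_congr rfl fun a _ =>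
        Finset.prod_congr rfl fun d _ => ?_
      by_cases hca : c < a ∧ a < d
      · simp only [hca, and_self, if_true]
        exact pow_congr_zmod (hM2 _) (hS.T2 c a d (ne_of_gt hca.1) (ne_of_gt (hca.1.trans hca.2)))
      · simp only [hca, if_false]

end Vale.Agent.P329
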