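import Vale.Agent.P329.Cover
import Mathlib.Algebra.BigOperators.Group.List.Basic
import Mathlib.Algebra.Group.Defs
import Mathlib.Data.Fintype.Pi
import Mathlib.Tactic.Group

namespace Vale.Agent.P329

open scoped Classical

section Top

variable {S T : Type} [Group T] (π : S → T)

/-- The group value of a word. -/
def wt (u : List S) : T := (u.map π).prod

@[simp] theorem wt_nil : wt π [] = 1 := rfl

@[simp] theorem wt_cons (s : S) (u : List S) : wt π (s :: u) = π s * wt π u := by
  simp [wt]

@[simp] theorem wt_append (u v : List S) : wt π (u ++ v) = wt π u * wt π v := by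
  simp [wt]

theorem wt_wpow (u : List S) (K : ℕ) : wt π (wpow u K) = (wt π u) ^ K := by
  induction K with
  | zero => simp
  | succ K ih => rw [wpow_succ, wt_append, ih, pow_succ']

theorem wt_eq_one (u : List S) (h : ∀ s ∈ u, π s = 1) : wt π u = 1 := by
  induction u with
  | nil => rfl
  | cons s u ih =>
    rw [wt_cons, h s (by simp), one_mul]
    exact ih (fun x hx => h x (by simp [hx]))

theorem exists_moving (u : List S) (h : wt π u ≠ 1) : ∃ s ∈ u, π s ≠ 1 := by
  by_contra hc
  push Not at hc
  exact h (wt_eq_one π u hc)

theorem mem_wpow (u : List S) (K : ℕ) (s : S) (h : s ∈ wpow u K) : s ∈ u := by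
  induction K with
  | zero => simp at h
  | succ K ih =>
    rw [wpow_succ, List.mem_append] at h
    rcases h with h | h
    · exact h
    · exact ih h

/-- Right multiplication on the group. -/
def tact : S → T → T := fun s t => t * π s

theorem run_tact (t : T) (u : List S) : run (tact π) t u = t * wt π u := by
  induction u generalizing t with
  | nil => simp
  | cons s u ih =>
    rw [run_cons, ih, wt_cons]
    simp [tact, mul_assoc]

/-- The counted transitions for the top automaton: arrivals at `t0` by moving letters and, at `t0`,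
readings of the fixing letters of `D`. -/
def e1 (t0 : T) (D : S → Prop) (s : S) (t : T) : Prop :=
  (π s ≠ 1 ∧ t * π s = t0) ∨ (D s ∧ t = t0 ∧ π s = 1)

theorem e1_landing (t0 : T) (D : S → Prop) (s : S) (t : T) (h : e1 π t0 D s t) :
    tact π s t = t0 := by
  rcases h with ⟨_, h⟩ | ⟨_, h1, h2⟩
  · exact h
  · simp [tact, h1, h2]

variable (hgen : ∀ g h : T, g ≠ 1 → ∃ k : ℕ, g ^ k = h)

include hgen in
theorem e1_cycles (t0 : T) (D : S → Prop) : CountsCycles (tact π) (e1 π t0 D) := by
  intro u x c hc hx hg
  have h0 := gain_all_zero _ _ u x c hc hx hg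
  rw [run_tact]
  by_contra hne
  have hW : wt π u ≠ 1 := by
    intro h1
    apply hne
    rw [h1, mul_one]
  obtain ⟨s, hs, hms⟩ := exists_moving π u hW
  obtain ⟨u1, u2, rfl⟩ := List.append_of_mem hs
  obtain ⟨k, hk⟩ := hgen _ (x⁻¹ * t0 * (wt π u1 * π s)⁻¹) hW
  apply gain_zero_letter (tact π) (e1 π t0 D) u1 u2 s x k h0
  left
  refine ⟨hms, ?_⟩
  rw [run_tact, run_tact, wt_wpow, hk]
  group

/-- The memory automaton: the top group with one bit remembering that the last moving letter
was `a`, read at the top element `j`. -/
noncomputable def pact (a : S) (j : T) (s : S) (z : T × Bool) : T × Bool :=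
  if π s = 1 then z else (z.1 * π s, decide (s = a ∧ z.1 = j))

/-- The counted transitions: arrivals at `t0` by moving letters, except the letters of `B` read
when the bit is set. -/
def e2 (t0 : T) (B : S → Prop) (s : S) (z : T × Bool) : Prop :=
  π s ≠ 1 ∧ z.1 * π s = t0 ∧ ¬ (z.2 = true ∧ B s)

theorem pact_fst (a : S) (j : T) (u : List S) (z : T × Bool) :
    (run (pact π a j) z u).1 = z.1 * wt π u := by
  induction u generalizing z with
  | nil => simp
  | cons s u ih =>
    rw [run_cons, ih, wt_cons]
    by_cases hs : π s = 1
    · simp [pact, hs]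
    · simp [pact, hs, mul_assoc]

theorem pact_fixing (a : S) (j : T) (u : List S) (h : ∀ s ∈ u, π s = 1) (z : T × Bool) :
    run (pact π a j) z u = z := by
  induction u with
  | nil => rfl
  | cons s u ih =>
    rw [run_cons]
    have : pact π a j s z = z := by simp [pact, h s (by simp)]
    rw [this]
    exact ih (fun x hx => h x (by simp [hx]))

/-- With a moving letter in the word, the final state does not depend on the initial bit. -/
theorem pact_indep (a : S) (j : T) (u : List S) (h : ∃ s ∈ u, π s ≠ 1) (t : T) (m m' : Bool) :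
    run (pact π a j) (t, m) u = run (pact π a j) (t, m') u := by
  induction u generalizing t with
  | nil => simp at h
  | cons s u ih =>
    rw [run_cons, run_cons]
    by_cases hs : π s = 1
    · have h1 : ∃ s ∈ u, π s ≠ 1 := by
        obtain ⟨x, hx, hx1⟩ := h
        rcases List.mem_cons.1 hx with rfl | hx
        · exact absurd hs hx1
        · exact ⟨x, hx, hx1⟩
      simpa [pact, hs] using ih h1 t
    · simp [pact, hs]

theorem pact_false_keep (a : S) (j : T) (u : List S) (h : ∀ s ∈ u, π s ≠ 1 → s ≠ a) (t : T) :
    (run (pact π a j) (t, false) u).2 = false := by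
  induction u generalizing t with
  | nil => rfl
  | cons s u ih =>
    rw [run_cons]
    have h' : ∀ x ∈ u, π x ≠ 1 → x ≠ a := fun x hx => h x (by simp [hx])
    by_cases hs : π s = 1
    · simpa [pact, hs] using ih h' t
    · have hsa : s ≠ a := h s (by simp) hs
      simpa [pact, hs, hsa] using ih h' (t * π s)

/-- With a moving letter in the word and no moving letter `a`, the final bit is off. -/
theorem pact_false (a : S) (j : T) (u : List S) (h : ∀ s ∈ u, π s ≠ 1 → s ≠ a)
    (h' : ∃ s ∈ u, π s ≠ 1) (z : T × Bool) : (run (pact π a j) z u).2 = false := by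
  obtain ⟨t, m⟩ := z
  rw [pact_indep π a j u h' t m false]
  exact pact_false_keep π a j u h t

theorem e2_landing (a : S) (j t0 : T) (B : S → Prop) (h0 : t0 ≠ j * π a) (s : S) (z : T × Bool)
    (h : e2 π t0 B s z) : pact π a j s z = (t0, false) := by
  obtain ⟨h1, h2, _⟩ := h
  simp only [pact, h1, if_false]
  ext
  · exact h2
  · simp only [decide_eq_false_iff_not, not_and]
    rintro rfl rfl
    exact h0 h2.symm

include hgen in
theorem e2_cycles (a : S) (j t0 : T) (B : S → Prop) (hB : ¬ B a) :
    CountsCycles (pact π a j) (e2 π t0 B) := by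
  rintro u ⟨t, m⟩ c hc hx hg
  have h0 := gain_all_zero _ _ u _ c hc hx hg
  -- the power of the value fixes the top element
  have hWc : (wt π u) ^ c = 1 := by
    have h1 := congrArg Prod.fst hx
    rw [← run_wpow, pact_fst, wt_wpow] at h1
    simpa using h1
  by_cases hW : wt π u = 1
  · by_cases hmov : ∃ s ∈ u, π s ≠ 1
    · -- the bit stabilises after one iteration
      obtain ⟨y, hy⟩ : ∃ y, y = run (pact π a j) (t, m) u := ⟨_, rfl⟩
      have hfst : y.1 = t := by
        rw [hy, pact_fst, hW]; simp
      have hy' : y = (t, y.2) := Prod.ext hfst rfl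
      have hfix : run (pact π a j) y u = y := by
        conv_lhs => rw [hy']
        rw [pact_indep π a j u hmov t y.2 m, hy]
      have hiter : ∀ k, (fun z => run (pact π a j) z u)^[k + 1] (t, m) = y := by
        intro k
        induction k with
        | zero => exact hy.symm
        | succ k ih => rw [Function.iterate_succ_apply', ih]; exact hfix
      obtain ⟨c', rfl⟩ : ∃ c', c = c' + 1 := ⟨c - 1, by omega⟩
      rw [hiter c'] at hx
      rw [← hy, hx]
    · push Not at hmov
      exact pact_fixing π a j u hmov _
  · exfalso
    -- every moving letter of `u`, read at the right iteration, arrives at `t0`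
    have key : ∀ u1 u2 s, u = u1 ++ s :: u2 → π s ≠ 1 →
        ∀ k, (wt π u) ^ k = t⁻¹ * t0 * (wt π u1 * π s)⁻¹ →
        (run (pact π a j) (t, m) (wpow u (k + c) ++ u1)).2 = true ∧ B s := by
      intro u1 u2 s hu hs k hk
      subst hu
      by_contra hnot
      apply gain_zero_letter (pact π a j) (e2 π t0 B) u1 u2 s (t, m) (k + c) h0
      rw [run_append] at hnot
      refine ⟨hs, ?_, hnot⟩
      rw [pact_fst, pact_fst, wt_wpow, pow_add, hWc, mul_one, hk]
      simp only
      group
    have hallB : ∀ s ∈ u, π s ≠ 1 → s ≠ a := by
      intro s hs hms hsa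
      obtain ⟨u1, u2, hu⟩ := List.append_of_mem hs
      obtain ⟨k, hk⟩ := hgen _ (t⁻¹ * t0 * (wt π u1 * π s)⁻¹) hW
      exact hB (hsa ▸ (key u1 u2 s hu hms k hk).2)
    obtain ⟨s, hs, hms⟩ := exists_moving π u hW
    obtain ⟨u1, u2, hu⟩ := List.append_of_mem hs
    obtain ⟨k, hk⟩ := hgen _ (t⁻¹ * t0 * (wt π u1 * π s)⁻¹) hW
    have h1 := (key u1 u2 s hu hms k hk).1
    -- the bit is off since all moving letters differ from `a`
    obtain ⟨c', rfl⟩ : ∃ c', c = c' + 1 := ⟨c - 1, by omega⟩
    have h2 : (run (pact π a j) (t, m) (wpow u (k + (c' + 1)) ++ u1)).2 = false := by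
      apply pact_false
      · intro x hx hmx
        rcases List.mem_append.1 hx with hx | hx
        · exact hallB x (mem_wpow u _ x hx) hmx
        · exact hallB x (by rw [hu]; simp [hx]) hmx
      · refine ⟨s, ?_, hms⟩
        apply List.mem_append_left
        rw [← Nat.add_assoc, wpow_succ]
        exact List.mem_append_left _ hs
    rw [h1] at h2
    exact absurd h2 (by simp)

/-- The number of readings of the letter `a` at the top element `j`. -/
noncomputable def C (j : T) (a : S) (t : T) : List S → ℤ
  | [] => 0
  | s :: x => (if t = j ∧ s = a then 1 else 0) + C j a (t * π s) x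

/-- The number of arrivals at `t0` by the letter `b` when the bit of the automaton `pact a j` is
set. -/
noncomputable def R (a : S) (j t0 : T) (b : S) (z : T × Bool) : List S → ℤ
  | [] => 0
  | s :: x => (if π s ≠ 1 ∧ z.1 * π s = t0 ∧ z.2 = true ∧ s = b then 1 else 0) +
      R a j t0 b (pact π a j s z) x

theorem pact_fst_step (a : S) (j : T) (s : S) (z : T × Bool) :
    (pact π a j s z).1 = tact π s z.1 := by
  by_cases hs : π s = 1
  · simp [pact, tact, hs]
  · simp [pact, tact, hs]

/-- The gain of the pattern automaton is the number of arrivals minus the pattern count. -/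
theorem gain_e2 (a : S) (j t0 : T) (b : S) (z : T × Bool) (x : List S) :
    ((gain (pact π a j) (e2 π t0 (fun s => s = b)) z x : ℕ) : ℤ) =
      (gain (tact π) (e1 π t0 (fun _ => False)) z.1 x : ℕ) - R π a j t0 b z x := by
  induction x generalizing z with
  | nil => simp [R]
  | cons s x ih =>
    rw [gain_cons, gain_cons, R]
    push_cast
    rw [ih, pact_fst_step]
    simp only [e1, e2, false_and, or_false]
    by_cases h1 : π s ≠ 1 <;> by_cases h2 : z.1 * π s = t0 <;> by_cases h3 : z.2 = true <;>
      by_cases h4 : s = b <;> simp [h1, h2, h3, h4] <;> ring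

variable {π}

include hgen in
/-- The pattern counts have measurable residues. -/
theorem R_CM [Finite S] [Finite T] (a b : S) (j t0 : T) (hab : a ≠ b) (ht0 : t0 ≠ j * π a)
    (z : T × Bool) : CM (R π a j t0 b z) := by
  have h1 : CM (fun x => ((gain (tact π) (e1 π t0 (fun _ => False)) z.1 x : ℕ) : ℤ)) :=
    gain_CM (tact π) (e1 π t0 (fun _ => False)) t0 (e1_landing π t0 _)
      (e1_cycles π hgen t0 _) z.1
  have h2 : CM (fun x => ((gain (pact π a j) (e2 π t0 (fun s => s = b)) z x : ℕ) : ℤ)) :=
    gain_CM (pact π a j) (e2 π t0 (fun s => s = b)) (t0, false)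
      (e2_landing π a j t0 _ ht0) (e2_cycles π hgen a j t0 _ hab) z
  refine (h1.sub h2).congr (fun x => ?_)
  rw [gain_e2]
  ring

include hgen in
/-- The memory automaton has a measurable state. -/
theorem pact_meas [Finite S] [Finite T] (a : S) (j : T) (ha : π a ≠ 1) (z : T × Bool) :
    Meas 1 (fun x => run (pact π a j) z x) := by
  refine state_meas (pact π a j) (e2 π j (fun _ => False)) (j, false)
    (e2_landing π a j j _ ?_) (e2_cycles π hgen a j j _ (by simp)) z
  intro h
  apply ha
  simpa using h

theorem C_fixing_eq (j : T) (a : S) (t : T) (s : S) (x : List S) (hs : π s = 1) (hsa : s ≠ a) :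
    C π j a t (s :: x) = C π j a t x := by
  simp [C, hs, hsa]

/-- The first identity. -/
theorem identity_one [Fintype S] (j : T) (a : S) (ha : π a ≠ 1) (x : List S) (z : T × Bool)
    (hz : z.2 = true → z.1 = j * π a) :
    C π j a z.1 x + (if z.2 = true then 1 else 0) =
      (∑ b ∈ Finset.univ.filter (fun b => π b ≠ 1), R π a j (j * π a * π b) b z x) +
        (if (run (pact π a j) z x).2 = true then 1 else 0) := by
  induction x generalizing z with
  | nil =>
    simp only [C, R, Finset.sum_const_zero, zero_add, run_nil]
    congr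
  | cons s x ih =>
    by_cases hs : π s = 1
    · have hsa : s ≠ a := by rintro rfl; exact ha hs
      have hp : pact π a j s z = z := by simp [pact, hs]
      have hR : ∀ b, R π a j (j * π a * π b) b z (s :: x) = R π a j (j * π a * π b) b z x := by
        intro b
        simp [R, hs, hp]
      rw [C_fixing_eq _ _ _ _ _ hs hsa, run_cons, hp]
      simp only [hR]
      exact ih z hz
    · have hp : pact π a j s z = (z.1 * π s, decide (s = a ∧ z.1 = j)) := by simp [pact, hs]
      have hz' : ((pact π a j s z).2 = true → (pact π a j s z).1 = j * π a) := by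
        rw [hp]
        simp only [decide_eq_true_eq]
        rintro ⟨rfl, rfl⟩
        rfl
      have hih := ih (pact π a j s z) hz'
      have hfst : (pact π a j s z).1 = z.1 * π s := by rw [hp]
      have hsnd : (if (pact π a j s z).2 = true then (1 : ℤ) else 0) =
          if z.1 = j ∧ s = a then 1 else 0 := by
        rw [hp]
        simp only [decide_eq_true_eq]
        by_cases h1 : s = a <;> by_cases h2 : z.1 = j <;> simp [h1, h2]
      have hsum : (∑ b ∈ Finset.univ.filter (fun b => π b ≠ 1),
          (if π s ≠ 1 ∧ z.1 * π s = j * π a * π b ∧ z.2 = true ∧ s = b then (1 : ℤ) else 0)) =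
          if z.2 = true then 1 else 0 := by
        by_cases hm : z.2 = true
        · have h0 := hz hm
          rw [if_pos hm, Finset.sum_eq_single s]
          · simp [hs, hm, h0]
          · intro b _ hb
            rw [if_neg]
            rintro ⟨_, _, _, h⟩
            exact hb h.symm
          · intro hh
            exact absurd (Finset.mem_filter.2 ⟨Finset.mem_univ s, hs⟩) hh
        · rw [if_neg hm]
          apply Finset.sum_eq_zero
          intro b _
          rw [if_neg]
          rintro ⟨_, _, h, _⟩
          exact hm h
      rw [hfst, hsnd] at hih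
      rw [C, run_cons]
      simp only [R, Finset.sum_add_distrib]
      rw [hsum]
      linarith

/-- The second identity. -/
theorem identity_two [Fintype S] (j' : T) (a : S) (ha : π a ≠ 1) (x : List S) (t : T) (c : S)
    (hc : π c ≠ 1) :
    C π j' a t x = ∑ b ∈ Finset.univ.filter (fun b => π b ≠ 1),
      R π b (j' * (π b)⁻¹) (j' * π a) a (t, decide (c = b ∧ t = j')) x := by
  induction x generalizing t c with
  | nil => simp [C, R]
  | cons s x ih =>
    by_cases hs : π s = 1
    · have hsa : s ≠ a := by rintro rfl; exact ha hs
      have hR : ∀ b m, R π b (j' * (π b)⁻¹) (j' * π a) a (t, m) (s :: x) =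
          R π b (j' * (π b)⁻¹) (j' * π a) a (t, m) x := by
        intro b m
        simp [R, hs, pact]
      rw [C_fixing_eq _ _ _ _ _ hs hsa]
      simp only [hR]
      exact ih t c hc
    · have hR : ∀ b, R π b (j' * (π b)⁻¹) (j' * π a) a (t, decide (c = b ∧ t = j')) (s :: x) =
          (if t * π s = j' * π a ∧ c = b ∧ t = j' ∧ s = a then 1 else 0) +
          R π b (j' * (π b)⁻¹) (j' * π a) a (t * π s, decide (s = b ∧ t * π s = j')) x := by
        intro b
        have h1 : pact π b (j' * (π b)⁻¹) s (t, decide (c = b ∧ t = j')) =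
            (t * π s, decide (s = b ∧ t * π s = j')) := by
          simp only [pact, hs, if_false]
          congr 1
          apply decide_eq_decide.2
          constructor
          · rintro ⟨rfl, h⟩
            exact ⟨rfl, by simp [h]⟩
          · rintro ⟨rfl, h⟩
            exact ⟨rfl, by rw [← h]; simp⟩
        rw [R, h1]
        congr 1
        simp only [hs, ne_eq, not_false_eq_true, true_and, decide_eq_true_eq]
        by_cases h2 : t * π s = j' * π a <;> by_cases h3 : c = b <;> by_cases h4 : t = j' <;>
          by_cases h5 : s = a <;> simp [h2, h3, h4, h5]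
      simp only [hR, Finset.sum_add_distrib]
      rw [C, ← ih (t * π s) s hs]
      congr 1
      rw [Finset.sum_eq_single c]
      · by_cases h4 : t = j' <;> by_cases h5 : s = a <;> simp [h4, h5]
      · intro b _ hb
        rw [if_neg]
        rintro ⟨_, h, _⟩
        exact hb h.symm
      · intro hh
        exact absurd (Finset.mem_filter.2 ⟨Finset.mem_univ c, hc⟩) hh

/-- Constants have measurable residues. -/
theorem CM_const {S' : Type} (k : ℤ) : CM (S := S') (fun _ => k) := by
  intro M _ b
  exact (Dfn.const (((k : ℤ) : ZMod M) = b)).congr (fun x => Iff.rfl)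

include hgen in
theorem C_delta_CM [Fintype S] [Finite T] (j : T) (a : S) (ha : π a ≠ 1) :
    CM (fun x => C π j a 1 x - C π (j * π a) a 1 x) := by
  have hF : ∀ b ∈ Finset.univ.filter (fun b => π b ≠ 1), CM (fun x =>
      R π a j (j * π a * π b) b (1, decide ((1 : T) = j * π a)) x -
      R π b (j * π a * (π b)⁻¹) (j * π a * π a) a (1, decide (a = b ∧ (1 : T) = j * π a)) x) := by
    intro b hb
    have hb1 : π b ≠ 1 := (Finset.mem_filter.1 hb).2
    by_cases hab : a = b
    · subst hab
      refine (CM_const 0).congr (fun x => ?_)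
      simp
    · refine CM.sub (R_CM hgen a b j _ hab ?_ _) (R_CM hgen b a _ _ (Ne.symm hab) ?_ _)
      · intro h
        apply hb1
        simpa using h
      · intro h
        apply ha
        simpa using h
  have hEnd : CM (fun x => if (run (pact π a j) (1, decide ((1 : T) = j * π a)) x).2 = true
      then (1 : ℤ) else 0) := by
    have h1 := pact_meas hgen a j ha (1, decide ((1 : T) = j * π a))
    exact CM.of_meas (fun _ _ => h1) (fun z => if z.2 = true then (1 : ℤ) else 0)
  have hall := ((CM.sum _ hF).add hEnd).sub
    (CM_const (S' := S) (if (decide ((1 : T) = j * π a)) = true then (1 : ℤ) else 0))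
  refine hall.congr (fun x => ?_)
  have h1 := identity_one j a ha x (1, decide ((1 : T) = j * π a)) (by simp)
  have h2 := identity_two (j * π a) a ha x 1 a ha
  simp only at h1
  rw [h2, Finset.sum_sub_distrib]
  linarith

include hgen in
theorem C_diff_CM [Fintype S] [Finite T] (j i : T) (a : S) (ha : π a ≠ 1) :
    CM (fun x => C π j a 1 x - C π i a 1 x) := by
  have hk : ∀ k : ℕ, CM (fun x => C π j a 1 x - C π (j * π a ^ k) a 1 x) := by
    intro k
    induction k with
    | zero =>
      refine (CM_const 0).congr (fun x => ?_)
      simp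
    | succ k ih =>
      refine (ih.add (C_delta_CM hgen (j * π a ^ k) a ha)).congr (fun x => ?_)
      rw [pow_succ, mul_assoc]
      ring_nf
  obtain ⟨k, hk'⟩ := hgen (π a) (j⁻¹ * i) ha
  have := hk k
  rw [hk'] at this
  simpa using this

theorem sum_C [Fintype T] (a : S) (t : T) (x : List S) :
    ∑ i : T, C π i a t x = (gain (fun _ _ => ()) (fun s _ => s = a) () x : ℕ) := by
  induction x generalizing t with
  | nil => simp [C]
  | cons s x ih =>
    simp only [C, Finset.sum_add_distrib, ih, gain_cons]
    push_cast
    congr 1
    by_cases hs : s = a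
    · simp [hs]
    · simp [hs]

include hgen in
theorem C_moving_CM [Fintype S] [Fintype T] (j : T) (a : S) (ha : π a ≠ 1) :
    CM (C π j a 1) := by
  have hc : Fintype.card T ≠ 0 := Fintype.card_ne_zero
  apply CM.of_mul (Fintype.card T) hc
  have h1 : CM (fun x => ∑ i : T, (C π j a 1 x - C π i a 1 x)) :=
    CM.sum _ (fun i _ => C_diff_CM hgen j i a ha)
  have h2 : CM (fun x : List S => ((gain (fun _ _ => ()) (fun s _ => s = a) () x : ℕ) : ℤ)) :=
    gain_CM _ _ () (fun _ _ _ => rfl) (by
      intro u x c _ _ _
      rfl) ()
  refine (h1.add h2).congr (fun x => ?_)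
  rw [Finset.sum_sub_distrib, sum_C]
  simp

theorem gain_e1_fixing (t0 : T) (d : S) (hd : π d = 1) (t : T) (x : List S) :
    ((gain (tact π) (e1 π t0 (fun s => s = d)) t x : ℕ) : ℤ) =
      (gain (tact π) (e1 π t0 (fun _ => False)) t x : ℕ) + C π t0 d t x := by
  induction x generalizing t with
  | nil => simp [C]
  | cons s x ih =>
    rw [gain_cons, gain_cons, C]
    push_cast
    rw [ih]
    simp only [e1, false_and, or_false]
    have htact : tact π s t = t * π s := rfl
    rw [htact]
    by_cases hs : s = d
    · subst hs
      by_cases ht : t = t0 <;> simp [ht, hd] <;> ring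
    · by_cases h1 : π s ≠ 1 ∧ t * π s = t0
      · simp only [h1, hs, true_or, if_true, and_false, if_false]
        simp
        ring
      · simp only [h1, hs, false_and, or_false, if_false, and_false]
        simp

include hgen in
/-- All the counters are measurable. -/
theorem C_CM [Fintype S] [Fintype T] (j : T) (a : S) : CM (C π j a 1) := by
  by_cases ha : π a = 1
  · have h1 := gain_CM (tact π) (e1 π j (fun s => s = a)) j (e1_landing π j _)
      (e1_cycles π hgen j _) 1
    have h2 := gain_CM (tact π) (e1 π j (fun _ => False)) j (e1_landing π j _)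
      (e1_cycles π hgen j _) 1
    refine (h1.sub h2).congr (fun x => ?_)
    rw [gain_e1_fixing j a ha]
    ring
  · exact C_moving_CM hgen j a ha

include hgen in
/-- The value in the top group is measurable. -/
theorem top_meas [Finite S] [Finite T] : Meas 1 (fun x : List S => wt π x) := by
  have h1 := state_meas (tact π) (e1 π 1 (fun _ => False)) 1 (e1_landing π 1 _)
      (e1_cycles π hgen 1 _) 1
  refine h1.of_det (fun x y hxy => ?_)
  simp only [run_tact, one_mul] at hxy
  exact hxy

end Top

end Vale.Agent.P329
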