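import Vale.Agent.P329.Basic

namespace Vale.Agent.P329

variable {A Q : Type}

/-- The run of a deterministic complete automaton. -/
def run (act : A → Q → Q) (q : Q) (w : List A) : Q := w.foldl (fun q a => act a q) q

@[simp] theorem run_nil (act : A → Q → Q) (q : Q) : run act q [] = q := rfl

@[simp] theorem run_cons (act : A → Q → Q) (q : Q) (a : A) (w : List A) :
    run act q (a :: w) = run act (act a q) w := rfl

@[simp] theorem run_append (act : A → Q → Q) (q : Q) (v w : List A) :
    run act q (v ++ w) = run act (run act q v) w := by
  simp [run, List.foldl_append]

/-- Every word acts on the automaton so that all iterates of every state reach a fixed point. -/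
def Aper (act : A → Q → Q) : Prop :=
  ∀ (u : List A) (q : Q), ∃ n,
    run act ((fun x => run act x u)^[n] q) u = (fun x => run act x u)^[n] q

end Vale.Agent.P329
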