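import Vale.Agent.P329.Subst
import Mathlib.Data.Fintype.Card
import Mathlib.SetTheory.Cardinal.NatCard
import Mathlib.SetTheory.Cardinal.Finite

namespace Vale.Agent.P329

section Step

variable {A Q : Type}

/-- The letters other than `a`. -/
abbrev Rest (a : A) : Type := {b : A // b ≠ a}

/-- The action restricted to the letters other than `a`. -/
def actB (act : A → Q → Q) (a : A) : Rest a → Q → Q := fun b q => act b.val q

theorem run_map_val (act : A → Q → Q) (a : A) (q : Q) (u : List (Rest a)) :
    run act q (u.map Subtype.val) = run (actB act a) q u := by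
  induction u generalizing q with
  | nil => rfl
  | cons b u ih => exact ih _

/-- The transformations of `Q` induced by the words without `a`. -/
abbrev Cls (act : A → Q → Q) (a : A) : Type :=
  {f : Q → Q // ∃ u : List (Rest a), f = fun q => run (actB act a) q u}

/-- The class of a word without `a`. -/
def cls (act : A → Q → Q) (a : A) (u : List (Rest a)) : Cls act a :=
  ⟨fun q => run (actB act a) q u, u, rfl⟩

/-- The image of the letter `a`. -/
abbrev Img (act : A → Q → Q) (a : A) : Type := {q : Q // ∃ r, act a r = q}

/-- The induced action on the image of `a`: a class followed by `a`. -/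
def actImg (act : A → Q → Q) (a : A) : Cls act a → Img act a → Img act a :=
  fun g q => ⟨act a (g.val q.val), g.val q.val, rfl⟩

/-- The language of a letter of the new alphabet: a word without `a` of that class, then `a`. -/
def hG (act : A → Q → Q) (a : A) (g : Cls act a) (x : List A) : Prop :=
  ∃ u : List (Rest a), cls act a u = g ∧ x = u.map Subtype.val ++ [a]

theorem map_val_cancel (a : A) (u u' : List (Rest a)) (z z' : List A)
    (h : u.map Subtype.val ++ [a] ++ z = u'.map Subtype.val ++ [a] ++ z') :
    u = u' ∧ z = z' := by
  induction u generalizing u' with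
  | nil =>
    cases u' with
    | nil => simpa using h
    | cons b u' =>
      simp only [List.map_nil, List.nil_append, List.map_cons,
        List.cons_append, List.cons.injEq] at h
      exact absurd h.1.symm b.2
  | cons b u ih =>
    cases u' with
    | nil =>
      simp only [List.map_nil, List.nil_append, List.map_cons,
        List.cons_append, List.cons.injEq] at h
      exact absurd h.1 b.2
    | cons b' u' =>
      simp only [List.map_cons, List.cons_append, List.cons.injEq] at h
      obtain ⟨h1, h2⟩ := h
      obtain ⟨rfl, rfl⟩ := ih u' h2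
      exact ⟨by rw [Subtype.ext h1], rfl⟩

theorem dec_uniq (act : A → Q → Q) (a : A) (w w' : List (Cls act a)) (x : List A)
    (h : Dec (hG act a) w x) (h' : Dec (hG act a) w' x) : w = w' := by
  induction w generalizing w' x with
  | nil =>
    cases w' with
    | nil => rfl
    | cons g w' =>
      obtain ⟨y, z, rfl, ⟨u, _, rfl⟩, _⟩ := h'
      have hx : (u.map Subtype.val ++ [a]) ++ z = [] := h
      simp at hx
  | cons g w ih =>
    cases w' with
    | nil =>
      obtain ⟨y, z, rfl, ⟨u, _, rfl⟩, _⟩ := h
      have hx : (u.map Subtype.val ++ [a]) ++ z = [] := h'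
      simp at hx
    | cons g' w' =>
      obtain ⟨y, z, rfl, ⟨u, hu, rfl⟩, hz⟩ := h
      obtain ⟨y', z', hx, ⟨u', hu', rfl⟩, hz'⟩ := h'
      obtain ⟨rfl, rfl⟩ := map_val_cancel a u u' z z' hx
      rw [← hu, ← hu', ih w' z hz hz']

theorem dec_cover_aux (act : A → Q → Q) (a : A) (y : List A) (u : List (Rest a)) :
    ∃ W, Dec (hG act a) W (u.map Subtype.val ++ y ++ [a]) := by
  classical
  induction y generalizing u with
  | nil =>
    exact ⟨[cls act a u], _, [], by simp, ⟨u, rfl, rfl⟩, rfl⟩
  | cons b y ih =>
    by_cases hb : b = a
    · subst hb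
      obtain ⟨W, hW⟩ := ih []
      refine ⟨cls act b u :: W, u.map Subtype.val ++ [b], y ++ [b], by simp, ⟨u, rfl, rfl⟩, ?_⟩
      simpa using hW
    · obtain ⟨W, hW⟩ := ih (u ++ [⟨b, hb⟩])
      refine ⟨W, ?_⟩
      simpa using hW

theorem dec_ends (act : A → Q → Q) (a : A) (W : List (Cls act a)) (x : List A)
    (h : Dec (hG act a) W x) : x = [] ∨ ∃ y, x = y ++ [a] := by
  induction W generalizing x with
  | nil => exact Or.inl h
  | cons g W ih =>
    obtain ⟨y, z, rfl, ⟨u, _, rfl⟩, hz⟩ := h
    right
    rcases ih z hz with rfl | ⟨y', rfl⟩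
    · exact ⟨u.map Subtype.val, by simp⟩
    · exact ⟨u.map Subtype.val ++ [a] ++ y', by simp⟩

theorem dec_iff (act : A → Q → Q) (a : A) (x : List A) :
    (∃ W, Dec (hG act a) W x) ↔ x = [] ∨ ∃ y, x = y ++ [a] := by
  constructor
  · rintro ⟨W, hW⟩; exact dec_ends act a W x hW
  · rintro (rfl | ⟨y, rfl⟩)
    · exact ⟨[], rfl⟩
    · simpa using dec_cover_aux act a y []

theorem decomp (act : A → Q → Q) (a : A) (w : List A) :
    ∃ (x : List A) (v : List (Rest a)) (W : List (Cls act a)),
      w = x ++ v.map Subtype.val ∧ Dec (hG act a) W x := by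
  classical
  induction w using List.reverseRecOn with
  | nil => exact ⟨[], [], [], rfl, rfl⟩
  | append_singleton w b ih =>
    by_cases hb : b = a
    · subst hb
      obtain ⟨W, hW⟩ := (dec_iff act b (w ++ [b])).2 (Or.inr ⟨w, rfl⟩)
      exact ⟨w ++ [b], [], W, by simp, hW⟩
    · obtain ⟨x, v, W, rfl, hW⟩ := ih
      exact ⟨x, v ++ [⟨b, hb⟩], W, by simp, hW⟩

theorem run_dec (act : A → Q → Q) (a : A) (W : List (Cls act a)) (x : List A)
    (h : Dec (hG act a) W x) (r : Img act a) :
    run act r.val x = (run (actImg act a) r W).val := by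
  induction W generalizing x r with
  | nil =>
    have hx : x = [] := h
    subst hx; rfl
  | cons g W ih =>
    obtain ⟨y, z, rfl, ⟨u, hu, rfl⟩, hz⟩ := h
    have h1 : run act r.val (u.map Subtype.val ++ [a]) = (actImg act a g r).val := by
      simp only [run_append, run_map_val, run_cons, run_nil, actImg]
      rw [← hu]
      rfl
    rw [run_append, h1, run_cons]
    exact ih z hz _

theorem aper_actB (act : A → Q → Q) (a : A) (h : Aper act) : Aper (actB act a) := by
  intro u q
  obtain ⟨n, hn⟩ := h (u.map Subtype.val) q
  refine ⟨n, ?_⟩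
  have : (fun x => run act x (u.map Subtype.val)) = fun x => run (actB act a) x u := by
    funext x; exact run_map_val act a x u
  rw [this, run_map_val] at hn
  exact hn

theorem aper_actImg (act : A → Q → Q) (a : A) (h : Aper act) : Aper (actImg act a) := by
  intro W q
  -- choose representatives and lift `W`
  have hrep : ∀ g : Cls act a, ∃ u : List (Rest a), cls act a u = g := by
    rintro ⟨f, u, rfl⟩; exact ⟨u, rfl⟩
  choose rep hrep using hrep
  have hlift : ∀ W : List (Cls act a), ∃ U, Dec (hG act a) W U := by
    intro W
    induction W with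
    | nil => exact ⟨[], rfl⟩
    | cons g W ih =>
      obtain ⟨U, hU⟩ := ih
      exact ⟨(rep g).map Subtype.val ++ [a] ++ U, _, U, rfl, ⟨rep g, hrep g, rfl⟩, hU⟩
  obtain ⟨U, hU⟩ := hlift W
  obtain ⟨n, hn⟩ := h U q.val
  refine ⟨n, ?_⟩
  have hiter : ∀ k, ((fun x => run act x U)^[k] q.val) =
      ((fun x => run (actImg act a) x W)^[k] q).val := by
    intro k
    induction k with
    | zero => rfl
    | succ k ih =>
      rw [Function.iterate_succ_apply', Function.iterate_succ_apply', ih]
      exact run_dec act a W U hU _
  apply Subtype.ext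
  rw [← run_dec act a W U hU, ← hiter n]
  exact hn

/-- Lifting star-free languages over the letters other than `a` to the whole alphabet. -/
theorem lift_dfn (a : A) {K : List (Rest a) → Prop} (hK : Dfn 0 K) :
    Dfn 0 (fun x => ∃ v, K v ∧ x = v.map Subtype.val) := by
  classical
  have hDec : ∀ (w : List (Rest a)) x, Dec (fun (b : Rest a) (x : List A) => x = [b.val]) w x ↔
      x = w.map Subtype.val := by
    intro w
    induction w with
    | nil => intro x; exact Iff.rfl
    | cons b w ih =>
      intro x
      simp only [Dec, ih]
      constructor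
      · rintro ⟨y, z, rfl, rfl, rfl⟩; rfl
      · rintro rfl; exact ⟨_, _, rfl, rfl, rfl⟩
  have hP : Dfn 0 (fun x => ∃ w : List (Rest a),
      Dec (fun (b : Rest a) (x : List A) => x = [b.val]) w x) := by
    have h1 : Dfn 0 (fun x : List A => ∃ y z, x = y ++ z ∧ True ∧
        ∃ y' z', z = y' ++ z' ∧ y' = [a] ∧ True) :=
      Dfn.true'.concat ((Dfn.letter a).concat Dfn.true')
    refine h1.not.congr (fun x => ?_)
    constructor
    · intro hx
      have hax : ∀ b ∈ x, b ≠ a := by
        intro b hb hba
        subst hba
        obtain ⟨s, t, rfl⟩ := List.append_of_mem hb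
        exact hx ⟨s, b :: t, rfl, trivial, [b], t, rfl, rfl, trivial⟩
      refine ⟨x.attach.map (fun b => ⟨b.val, hax b.val b.property⟩), ?_⟩
      rw [hDec]
      simp
    · rintro ⟨w, hw⟩ ⟨y, z, rfl, _, y', z', rfl, rfl, _⟩
      rw [hDec] at hw
      have hmem : a ∈ w.map Subtype.val := by
        rw [← hw]; simp
      obtain ⟨b, _, hb⟩ := List.mem_map.1 hmem
      exact b.2 hb
  have huniq : ∀ w w' x, Dec (fun (b : Rest a) (x : List A) => x = [b.val]) w x →
      Dec (fun (b : Rest a) (x : List A) => x = [b.val]) w' x → w = w' := by
    intro w w' x h h'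
    rw [hDec] at h h'
    exact List.map_injective_iff.2 Subtype.val_injective (h.symm.trans h')
  have := subst_dfn (h := fun (b : Rest a) (x : List A) => x = [b.val])
    (fun b => Dfn.letter b.val) hP huniq hK
  refine this.congr (fun x => ?_)
  simp only [hDec]

/-- The inductive step. -/
theorem path_step [Finite Q] (act : A → Q → Q) (a : A)
    (hB : ∀ p q, Dfn 0 (fun w => run (actB act a) p w = q))
    (hI : ∀ p q, Dfn 0 (fun W => run (actImg act a) p W = q)) (p q : Q) :
    Dfn 0 (fun w => run act p w = q) := by
  have hLast : ∀ r q', Dfn 0 (fun x => ∃ v, run (actB act a) r v = q' ∧ x = v.map Subtype.val) :=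
    fun r q' => lift_dfn a (hB r q')
  have hG0 : ∀ g, Dfn 0 (hG act a g) := by
    intro g
    have h1 : Dfn 0 (fun u : List (Rest a) => cls act a u = g) := by
      have : Dfn 0 (fun u : List (Rest a) => ∀ q, run (actB act a) q u = g.val q) :=
        Dfn.forall_fintype (fun q => hB q _)
      refine this.congr (fun u => ?_)
      constructor
      · intro h; exact Subtype.ext (funext h)
      · intro h q; rw [← h]; rfl
    refine ((lift_dfn a h1).concat (Dfn.letter a)).congr (fun x => ?_)
    constructor
    · rintro ⟨y, z, rfl, ⟨v, hv, rfl⟩, rfl⟩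
      exact ⟨v, hv, rfl⟩
    · rintro ⟨v, hv, rfl⟩
      exact ⟨_, _, rfl, ⟨v, hv, rfl⟩, rfl⟩
  have hP : Dfn 0 (fun x => ∃ W, Dec (hG act a) W x) := by
    have h1 : Dfn 0 (fun x : List A => x = [] ∨ ∃ y z, x = y ++ z ∧ True ∧ z = [a]) :=
      Dfn.nil.or (Dfn.true'.concat (Dfn.letter a))
    refine h1.congr (fun x => ?_)
    rw [dec_iff]
    constructor
    · rintro (h | ⟨y, z, h, _, rfl⟩)
      · exact Or.inl h
      · exact Or.inr ⟨y, h⟩
    · rintro (h | ⟨y, h⟩)
      · exact Or.inl h
      · exact Or.inr ⟨y, [a], h, trivial, rfl⟩
  have hMid : ∀ r r', Dfn 0 (fun x => ∃ W, run (actImg act a) r W = r' ∧ Dec (hG act a) W x) :=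
    fun r r' => subst_dfn hG0 hP (fun w w' x => dec_uniq act a w w' x) (hI r r')
  have hmain : Dfn 0 (fun w =>
      (∃ v, run (actB act a) p v = q ∧ w = v.map Subtype.val) ∨
      ∃ g : Cls act a, ∃ r' : Img act a, ∃ y z, w = y ++ z ∧ hG act a g y ∧
        ∃ y' z', z = y' ++ z' ∧
          (∃ W, run (actImg act a) ⟨act a (g.val p), g.val p, rfl⟩ W = r' ∧ Dec (hG act a) W y') ∧
          (∃ v, run (actB act a) r'.val v = q ∧ z' = v.map Subtype.val)) :=
    (hLast p q).or (Dfn.exists_fintype (fun g => Dfn.exists_fintype (fun r' =>
      (hG0 g).concat ((hMid _ _).concat (hLast _ _)))))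
  refine hmain.congr (fun w => ?_)
  constructor
  · rintro (⟨v, hv, rfl⟩ | ⟨g, r', y, z, rfl, ⟨u, hu, rfl⟩, y', z', rfl, ⟨W, hW, hy'⟩, ⟨v, hv, rfl⟩⟩)
    · rw [run_map_val, hv]
    · rw [run_append, run_append, run_map_val]
      have h1 : run act p (u.map Subtype.val ++ [a]) = act a (g.val p) := by
        simp only [run_append, run_map_val, run_cons, run_nil]
        rw [← hu]; rfl
      rw [h1]
      have h2 := run_dec act a W y' hy' ⟨act a (g.val p), g.val p, rfl⟩
      simp only at h2
      rw [h2, hW, hv]
  · intro hw
    obtain ⟨x, v, W, rfl, hWx⟩ := decomp act a w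
    cases W with
    | nil =>
      have hx : x = [] := hWx
      subst hx
      left
      refine ⟨v, ?_, by simp⟩
      rwa [List.nil_append, run_map_val] at hw
    | cons g W =>
      right
      obtain ⟨y, z, rfl, ⟨u, hu, rfl⟩, hz⟩ := hWx
      have h1 : run act p (u.map Subtype.val ++ [a]) = act a (g.val p) := by
        simp only [run_append, run_map_val, run_cons, run_nil]
        rw [← hu]; rfl
      refine ⟨g, run (actImg act a) ⟨act a (g.val p), g.val p, rfl⟩ W, _, z ++ v.map Subtype.val,
        by simp, ⟨u, hu, rfl⟩, z, _, rfl, ⟨W, rfl, hz⟩, v, ?_, rfl⟩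
      have h2 := run_dec act a W z hz ⟨act a (g.val p), g.val p, rfl⟩
      simp only at h2
      rw [← h2, ← run_map_val act a, ← run_append, ← h1, ← run_append]
      simpa [List.append_assoc] using hw

end Step

/-- Schutzenberger's direction: path languages of aperiodic automata are star-free. -/
theorem path_dfn_aux : ∀ (n m : ℕ) (Q A : Type) [Finite Q] [Finite A] (act : A → Q → Q),
    Nat.card Q = n → Nat.card A = m → Aper act → ∀ p q, Dfn 0 (fun w => run act p w = q) := by
  intro n
  induction n using Nat.strong_induction_on with
  | _ n ihn =>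
    intro m
    induction m using Nat.strong_induction_on with
    | _ m ihm =>
      intro Q A _ _ act hQ hA hap p q
      by_cases hid : ∀ a r, act a r = r
      · -- all letters act as the identity
        have hrun : ∀ w, run act p w = p := by
          intro w
          induction w with
          | nil => rfl
          | cons b w ih => simp only [run_cons, hid, ih]
        refine (Dfn.const (p = q)).congr (fun w => ?_)
        rw [hrun]
      · push Not at hid
        obtain ⟨a, r, har⟩ := hid
        -- `a` is not surjective
        have hns : ¬ Function.Injective (act a) := by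
          intro hinj
          obtain ⟨k, hk⟩ := hap [a] r
          have hiter : ∀ k s, (fun x => run act x [a])^[k] s = (act a)^[k] s := by
            intro k s
            have : (fun x => run act x [a]) = act a := by funext x; rfl
            rw [this]
          rw [hiter] at hk
          have hk' : (act a)^[k] (act a r) = (act a)^[k] r := by
            have h0 : run act ((act a)^[k] r) [a] = act a ((act a)^[k] r) := rfl
            rw [h0, ← Function.iterate_succ_apply' (act a) k r,
              Function.iterate_succ_apply (act a) k r] at hk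
            exact hk
          exact har ((hinj.iterate k) hk')
        have hnsurj : ¬ Function.Surjective (act a) := by
          intro hs
          exact hns (Finite.injective_iff_surjective.2 hs)
        simp only [Function.Surjective, not_forall, not_exists] at hnsurj
        obtain ⟨q0, hq0⟩ := hnsurj
        refine path_step act a ?_ ?_ p q
        · -- inner induction: fewer letters
          intro p' q'
          have hlt : Nat.card (Rest a) < m := by
            rw [← hA]
            exact Finite.card_subtype_lt (x := a) (by simp)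
          exact ihm _ hlt Q (Rest a) (actB act a) hQ rfl (aper_actB act a hap) p' q'
        · -- outer induction: fewer states
          intro p' q'
          have hlt : Nat.card (Img act a) < n := by
            rw [← hQ]
            exact Finite.card_subtype_lt (x := q0) (by simpa using hq0)
          exact ihn _ hlt _ (Img act a) (Cls act a) (actImg act a) rfl rfl
            (aper_actImg act a hap) p' q'

/-- Path languages of aperiodic automata are star-free. -/
theorem path_dfn {Q A : Type} [Finite Q] [Finite A] (act : A → Q → Q) (h : Aper act) (p q : Q) :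
    Dfn 0 (fun w => run act p w = q) :=
  path_dfn_aux _ _ Q A act rfl rfl h p q

end Vale.Agent.P329
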