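import Vale.Agent.P329.Run

namespace Vale.Agent.P329

variable {A C : Type}

/-- `Dec h w x`: the word `x` is a concatenation of `h`-images of the letters of `w`. -/
def Dec (h : C → List A → Prop) : List C → List A → Prop
  | [], x => x = []
  | c :: w, x => ∃ y z, x = y ++ z ∧ h c y ∧ Dec h w z

theorem Dec_append (h : C → List A → Prop) (w1 w2 : List C) (x : List A) :
    Dec h (w1 ++ w2) x ↔ ∃ y z, x = y ++ z ∧ Dec h w1 y ∧ Dec h w2 z := by
  induction w1 generalizing x with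
  | nil =>
    simp only [List.nil_append, Dec]
    constructor
    · intro hx; exact ⟨[], x, rfl, rfl, hx⟩
    · rintro ⟨y, z, rfl, rfl, hz⟩; simpa using hz
  | cons c w ih =>
    simp only [List.cons_append, Dec, ih]
    constructor
    · rintro ⟨y, z, rfl, hy, y', z', rfl, h1, h2⟩
      exact ⟨y ++ y', z', by simp, ⟨y, y', rfl, hy, h1⟩, h2⟩
    · rintro ⟨y, z, rfl, ⟨y1, y2, rfl, hy, h1⟩, h2⟩
      exact ⟨y1, y2 ++ z, by simp, hy, y2, z, rfl, h1, h2⟩

/-- The substitution lemma for star-free languages. -/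
theorem subst_exp {h : C → List A → Prop} (hh : ∀ c, Dfn 0 (h c))
    (hP : Dfn 0 (fun x => ∃ w, Dec h w x))
    (huniq : ∀ w w' x, Dec h w x → Dec h w' x → w = w') (e : GExp C) (he : e.height ≤ 0) :
    Dfn 0 (fun x => ∃ w, w ∈ e.lang ∧ Dec h w x) := by
  induction e with
  | zero => exact Dfn.false'.congr (fun x => by simp [GExp.lang, Language.notMem_zero])
  | one =>
    refine Dfn.nil.congr (fun x => ?_)
    simp only [GExp.lang, Language.mem_one]
    constructor
    · rintro rfl; exact ⟨[], rfl, rfl⟩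
    · rintro ⟨w, rfl, hx⟩; exact hx
  | letter c =>
    refine (hh c).congr (fun x => ?_)
    constructor
    · intro hx
      exact ⟨[c], rfl, x, [], by simp, hx, rfl⟩
    · rintro ⟨w, hw, hx⟩
      have hw' : w = [c] := hw
      subst hw'
      obtain ⟨y, z, rfl, hy, hz⟩ := hx
      have hz' : z = [] := hz
      subst hz'
      simpa using hy
  | add P Q ihP ihQ =>
    simp only [GExp.height] at he
    refine ((ihP (by omega)).or (ihQ (by omega))).congr (fun x => ?_)
    simp only [GExp.lang, Language.mem_add]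
    constructor
    · rintro (⟨w, hw, hx⟩ | ⟨w, hw, hx⟩)
      · exact ⟨w, Or.inl hw, hx⟩
      · exact ⟨w, Or.inr hw, hx⟩
    · rintro ⟨w, hw | hw, hx⟩
      · exact Or.inl ⟨w, hw, hx⟩
      · exact Or.inr ⟨w, hw, hx⟩
  | mul P Q ihP ihQ =>
    simp only [GExp.height] at he
    refine ((ihP (by omega)).concat (ihQ (by omega))).congr (fun x => ?_)
    simp only [GExp.lang, Language.mem_mul]
    constructor
    · rintro ⟨y, z, rfl, ⟨w1, hw1, hy⟩, ⟨w2, hw2, hz⟩⟩
      exact ⟨w1 ++ w2, ⟨w1, hw1, w2, hw2, rfl⟩, (Dec_append h w1 w2 _).2 ⟨y, z, rfl, hy, hz⟩⟩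
    · rintro ⟨w, ⟨w1, hw1, w2, hw2, rfl⟩, hx⟩
      obtain ⟨y, z, rfl, hy, hz⟩ := (Dec_append h w1 w2 x).1 hx
      exact ⟨y, z, rfl, ⟨w1, hw1, hy⟩, ⟨w2, hw2, hz⟩⟩
  | compl P ih =>
    simp only [GExp.height] at he
    refine (hP.and (ih he).not).congr (fun x => ?_)
    constructor
    · rintro ⟨⟨w, hw⟩, hn⟩
      refine ⟨w, ?_, hw⟩
      intro hm
      exact hn ⟨w, hm, hw⟩
    · rintro ⟨w, hw, hx⟩
      refine ⟨⟨w, hx⟩, ?_⟩
      rintro ⟨w', hw', hx'⟩
      have := huniq w w' x hx hx'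
      subst this
      exact hw hw'
  | star P _ =>
    simp [GExp.height] at he

/-- The substitution lemma, predicate form. -/
theorem subst_dfn {h : C → List A → Prop} (hh : ∀ c, Dfn 0 (h c))
    (hP : Dfn 0 (fun x => ∃ w, Dec h w x))
    (huniq : ∀ w w' x, Dec h w x → Dec h w' x → w = w') {K : List C → Prop} (hK : Dfn 0 K) :
    Dfn 0 (fun x => ∃ w, K w ∧ Dec h w x) := by
  obtain ⟨e, he, hx⟩ := hK
  exact (subst_exp hh hP huniq e he).congr (fun x => by simp only [hx])

end Vale.Agent.P329
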